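import Mathlib

/-! # Row 149: convex-analysis induction (abstract part, first half) -/

namespace Crest.Agent.R149

open Set Filter Topology

/-- Allowed pairs (density, energy): the density is near `0`, near `1`, or above `2`, and the
sheared energy `e + ρ / 2` lies between two explicit Lipschitz functions of the density. -/
def Allowed (Λ ζ σ₀ σ ρ e : ℝ) : Prop :=
  0 ≤ ρ ∧ ρ ≤ Λ ∧ (ρ ≤ ζ ∨ (1 - ζ ≤ ρ ∧ ρ ≤ 1 + ζ) ∨ 2 - ζ ≤ ρ) ∧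
    -(ρ * (ρ - 1)) / 2 - σ ≤ e + ρ / 2 ∧ e + ρ / 2 ≤ σ₀ + σ - max (ρ - 1) 0 / 3

/-- An approximate supporting plane of the pressure at `(β₀, ν)`, in primal form. -/
def Wit (f : ℝ → ℝ → ℝ) (Λ ω β₀ ν ρ e c : ℝ) : Prop :=
  (∀ β, 0 < β → β ≤ 3 → f β ρ ≤ c + e * (β - β₀) + ω) ∧
    (∀ ρ', 0 ≤ ρ' → ρ' ≤ Λ → ν * ρ' - f β₀ ρ' ≤ ν * ρ - c + ω)

theorem Allowed.mono {Λ ζ ζ' σ₀ σ σ' ρ e : ℝ} (h : Allowed Λ ζ σ₀ σ ρ e) (hζ : ζ ≤ ζ')
    (hσ : σ ≤ σ') : Allowed Λ ζ' σ₀ σ' ρ e := by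
  obtain ⟨h1, h2, h3, h4, h5⟩ := h
  refine ⟨h1, h2, ?_, by linarith, by linarith⟩
  rcases h3 with h | ⟨h, h'⟩ | h
  · left; linarith
  · right; left; constructor <;> linarith
  · right; right; linarith

theorem Wit.mono {f : ℝ → ℝ → ℝ} {Λ ω ω' β₀ ν ρ e c : ℝ} (h : Wit f Λ ω β₀ ν ρ e c)
    (hω : ω ≤ ω') : Wit f Λ ω' β₀ ν ρ e c :=
  ⟨fun β h1 h2 => by linarith [h.1 β h1 h2], fun ρ' h1 h2 => by linarith [h.2 ρ' h1 h2]⟩

theorem exists_supergrad {f : ℝ → ℝ} (hf : ConcaveOn ℝ (Ioi 0) f) {β₀ : ℝ} (h : 0 < β₀) :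
    ∃ e : ℝ, ∀ β, 0 < β → f β ≤ f β₀ + e * (β - β₀) := by
  have hc : ConvexOn ℝ (Ioi 0) (-f) := hf.neg
  have hint : β₀ ∈ interior (Ioi (0 : ℝ)) := by rw [interior_Ioi]; exact h
  refine ⟨-(derivWithin (-f) (Ioi β₀) β₀), fun β hβ => ?_⟩
  rcases lt_trichotomy β β₀ with hlt | heq | hgt
  · have h1 := hc.slope_le_leftDeriv_of_mem_interior (x := β) (y := β₀) hβ hint hlt
    have h2 := hc.leftDeriv_le_rightDeriv_of_mem_interior hint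
    have h3 := h1.trans h2
    rw [slope_def_field, div_le_iff₀ (by linarith)] at h3
    simp only [Pi.neg_apply] at h3
    linarith
  · subst heq; simp
  · have h1 := hc.rightDeriv_le_slope_of_mem_interior (x := β₀) (y := β) hint hβ hgt
    rw [slope_def_field, le_div_iff₀ (by linarith)] at h1
    simp only [Pi.neg_apply] at h1
    linarith

/-- Choice of a near-maximiser and of a supergradient; they give a witness for the next level. -/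
theorem exists_near_max {f f' : ℝ → ℝ → ℝ} {Λ a β₀ ν ε' ε'' : ℝ} (hΛ : 0 ≤ Λ) (hβ₀ : 0 < β₀)
    (hν : ν ≤ 1) (hε' : 0 < ε') (hε'1 : ε' < 1) (ha : 0 ≤ a)
    (conc : ∀ ρ, 0 ≤ ρ → ConcaveOn ℝ (Ioi 0) (fun β => f β ρ))
    (zero : f β₀ 0 = 0)
    (sstab : ∀ ρ, Λ ≤ ρ → ρ + β₀ * a * ρ ^ 2 / 2 - f β₀ ρ ≤ -1)
    (bdd : ∃ S, ∀ ρ, 0 ≤ ρ → ρ ≤ Λ → -f β₀ ρ ≤ S)
    (lower : ∀ β ρ, 0 < β → β ≤ 3 → 0 ≤ ρ → ρ ≤ Λ → f' β ρ ≤ f β ρ - β * a * ρ ^ 2 / 2 + ε'')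
    (upper : ∀ S, (∀ ρ', 0 ≤ ρ' → ν * ρ' + β₀ * a * ρ' ^ 2 / 2 - f β₀ ρ' ≤ S) →
      ∀ ρ, 0 ≤ ρ → ρ ≤ Λ → ν * ρ - f' β₀ ρ ≤ S + ε'') :
    ∃ ρs e : ℝ, 0 ≤ ρs ∧ ρs ≤ Λ ∧
      (∀ ρ, 0 ≤ ρ → ν * ρ + β₀ * a * ρ ^ 2 / 2 - f β₀ ρ ≤
        ν * ρs + β₀ * a * ρs ^ 2 / 2 - f β₀ ρs + ε') ∧
      (∀ β, 0 < β → f β ρs ≤ f β₀ ρs + e * (β - β₀)) ∧
      Wit f' Λ (ε' + ε'') β₀ ν ρs (e - a * ρs ^ 2 / 2) (f β₀ ρs - β₀ * a * ρs ^ 2 / 2) := by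
  set F : ℝ → ℝ := fun ρ => ν * ρ + β₀ * a * ρ ^ 2 / 2 - f β₀ ρ with hF
  obtain ⟨S₀, hS₀⟩ := bdd
  have hFbig : ∀ ρ, Λ ≤ ρ → F ρ ≤ -1 := by
    intro ρ hρ
    have := sstab ρ hρ
    have h2 : ν * ρ ≤ ρ := by
      have := mul_le_mul_of_nonneg_right hν (hΛ.trans hρ); linarith
    simp only [hF]; linarith
  have hbdd : BddAbove (F '' Ici 0) := by
    refine ⟨max (-1) (Λ + β₀ * a * Λ ^ 2 / 2 + S₀), ?_⟩
    rintro _ ⟨ρ, hρ, rfl⟩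
    have hρ0 : 0 ≤ ρ := hρ
    rcases le_total Λ ρ with h | h
    · exact (hFbig ρ h).trans (le_max_left _ _)
    · refine le_trans ?_ (le_max_right _ _)
      have h1 := hS₀ ρ hρ0 h
      have h2 : ν * ρ ≤ Λ := by
        have := mul_le_mul_of_nonneg_right hν hρ0; linarith
      have h3 : ρ ^ 2 ≤ Λ ^ 2 := pow_le_pow_left₀ hρ0 h 2
      have h4 : β₀ * a * ρ ^ 2 ≤ β₀ * a * Λ ^ 2 := mul_le_mul_of_nonneg_left h3 (by positivity)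
      simp only [hF]; linarith
  have hne : (F '' Ici 0).Nonempty := ⟨F 0, 0, self_mem_Ici, rfl⟩
  obtain ⟨_, ⟨ρs, hρs, rfl⟩, hlt⟩ :=
    exists_lt_of_lt_csSup hne (show sSup (F '' Ici 0) - ε' < sSup (F '' Ici 0) by linarith)
  have hopt : ∀ ρ, 0 ≤ ρ → F ρ ≤ F ρs + ε' := by
    intro ρ hρ
    have := le_csSup hbdd (mem_image_of_mem F (show ρ ∈ Ici (0 : ℝ) from hρ))
    linarith
  have hρs0 : 0 ≤ ρs := hρs
  have hρsΛ : ρs ≤ Λ := by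
    by_contra hcon
    have h1 := hFbig ρs (not_le.mp hcon).le
    have h2 := hopt 0 le_rfl
    have h3 : F 0 = 0 := by simp [hF, zero]
    linarith
  obtain ⟨e, he⟩ := exists_supergrad (conc ρs hρs0) hβ₀
  refine ⟨ρs, e, hρs0, hρsΛ, hopt, he, ?_, ?_⟩
  · intro β h1 h2
    have h3 := lower β ρs h1 h2 hρs0 hρsΛ
    have h4 := he β h1
    linarith
  · intro ρ' h1 h2
    have h3 := upper (F ρs + ε') hopt ρ' h1 h2
    simp only [hF] at h3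
    linarith

/-- The base of the induction. -/
theorem allowed_base {f : ℝ → ℝ → ℝ} {Λ β' β₀ ν θ₁ ε₀ ρs e : ℝ} (hΛ : 2 ≤ Λ) (hβ' : 0 < β')
    (hβ'Λ : β' * Λ ≤ 1 / 4) (hβ₀ : 3 / 4 ≤ β₀ * Λ) (hβ₀3 : β₀ ≤ 3) (hθ₁ : 0 ≤ θ₁)
    (hν : ν + β₀ / 2 ≤ θ₁) (hε₀ : 0 < ε₀) (hρs0 : 0 ≤ ρs) (hρsΛ : ρs ≤ Λ)
    (zero : f β₀ 0 = 0)
    (base1 : ∀ β ρ, β' ≤ β → 0 ≤ ρ → -ε₀ ≤ f β ρ)
    (base2 : ∀ β ρ, β' ≤ β → 0 ≤ ρ → ρ - 1 - ε₀ ≤ f β ρ)
    (base3 : f β₀ 1 ≤ ε₀) (base4 : f β₀ 2 ≤ 1 + ε₀)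
    (mono0 : ∀ β₁ β₂ ρ, 0 < β₁ → β₁ ≤ β₂ → 0 ≤ ρ → f β₁ ρ ≤ f β₂ ρ)
    (hopt : ∀ ρ, 0 ≤ ρ → ν * ρ + β₀ * 1 * ρ ^ 2 / 2 - f β₀ ρ ≤
        ν * ρs + β₀ * 1 * ρs ^ 2 / 2 - f β₀ ρs + ε₀)
    (he : ∀ β, 0 < β → f β ρs ≤ f β₀ ρs + e * (β - β₀)) :
    Allowed Λ (16 * Λ * ε₀) (2 * Λ * (θ₁ * Λ + β' * Λ ^ 2 / 2 + 2 * ε₀)) 0 ρs
      (e - 1 * ρs ^ 2 / 2) := by
  have hΛ0 : 0 < Λ := by linarith
  have hβ₀0 : 0 < β₀ := by
    by_contra hcon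
    have : β₀ * Λ ≤ 0 := mul_nonpos_of_nonpos_of_nonneg (not_lt.mp hcon) hΛ0.le
    linarith
  have hdiff : 1 / 2 ≤ (β₀ - β') * Λ := by linarith
  have hβ'β₀ : β' < β₀ := by
    by_contra hcon
    have : (β₀ - β') * Λ ≤ 0 := mul_nonpos_of_nonpos_of_nonneg (by linarith [not_lt.mp hcon]) hΛ0.le
    linarith
  have h0 := hopt 0 le_rfl
  have h1 := hopt 1 zero_le_one
  have h2 := hopt 2 zero_le_two
  rw [zero] at h0
  have hb1 := base1 β₀ ρs hβ'β₀.le hρs0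
  have hb2 := base2 β₀ ρs hβ'β₀.le hρs0
  refine ⟨hρs0, hρsΛ, ?_, ?_, ?_⟩
  · -- the density gaps
    rcases le_total ρs 1 with hle | hge
    · have key : β₀ * (ρs * (1 - ρs)) / 2 ≤ 3 * ε₀ := by
        have ha := mul_le_mul_of_nonneg_left h0 (show 0 ≤ 1 - ρs by linarith)
        have hb := mul_le_mul_of_nonneg_left h1 hρs0
        have hc := mul_le_mul_of_nonneg_left base3 hρs0
        have hd : ρs * ε₀ ≤ ε₀ := mul_le_of_le_one_left hε₀.le hle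
        linarith
      have key2 : ρs * (1 - ρs) ≤ 8 * Λ * ε₀ := by
        have hx : 0 ≤ ρs * (1 - ρs) := mul_nonneg hρs0 (by linarith)
        have := mul_le_mul_of_nonneg_right hβ₀ hx
        have := mul_le_mul_of_nonneg_left key hΛ0.le
        linarith
      rcases le_total ρs (1 / 2) with h | h
      · left
        have := mul_le_mul_of_nonneg_left (show 1 / 2 ≤ 1 - ρs by linarith) hρs0
        linarith
      · right; left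
        have : 0 ≤ 16 * Λ * ε₀ := by positivity
        constructor
        · have := mul_le_mul_of_nonneg_right h (show 0 ≤ 1 - ρs by linarith)
          linarith
        · linarith
    · rcases le_total ρs 2 with hle | hge2
      · have key : β₀ * ((ρs - 1) * (2 - ρs)) / 2 ≤ 3 * ε₀ := by
          have ha := mul_le_mul_of_nonneg_left h1 (show 0 ≤ 2 - ρs by linarith)
          have hb := mul_le_mul_of_nonneg_left h2 (show 0 ≤ ρs - 1 by linarith)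
          have hc := mul_le_mul_of_nonneg_left base3 (show 0 ≤ 2 - ρs by linarith)
          have hd := mul_le_mul_of_nonneg_left base4 (show 0 ≤ ρs - 1 by linarith)
          linarith
        have key2 : (ρs - 1) * (2 - ρs) ≤ 8 * Λ * ε₀ := by
          have hx : 0 ≤ (ρs - 1) * (2 - ρs) := mul_nonneg (by linarith) (by linarith)
          have := mul_le_mul_of_nonneg_right hβ₀ hx
          have := mul_le_mul_of_nonneg_left key hΛ0.le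
          linarith
        rcases le_total ρs (3 / 2) with h | h
        · right; left
          have : 0 ≤ 16 * Λ * ε₀ := by positivity
          constructor
          · linarith
          · have := mul_le_mul_of_nonneg_left (show 1 / 2 ≤ 2 - ρs by linarith)
              (show 0 ≤ ρs - 1 by linarith)
            linarith
        · right; right
          have := mul_le_mul_of_nonneg_right (show 1 / 2 ≤ ρs - 1 by linarith)
            (show 0 ≤ 2 - ρs by linarith)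
          linarith
      · right; right
        have : 0 ≤ 16 * Λ * ε₀ := by positivity
        linarith
  · -- lower bound for the energy
    have h3 := he (β₀ + 1) (by linarith)
    have h4 := mono0 β₀ (β₀ + 1) ρs hβ₀0 (by linarith) hρs0
    have : 0 ≤ e := by linarith
    linarith
  · -- upper bound for the energy
    have h3 := he β' hβ'
    have h4 := base1 β' ρs le_rfl hρs0
    have h5 := base2 β' ρs le_rfl hρs0
    set y := max (ρs - 1) 0 with hy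
    have hy0 : 0 ≤ y := le_max_right _ _
    have h6 : y - ε₀ ≤ f β' ρs := by
      rcases le_total (ρs - 1) 0 with h | h
      · rw [hy, max_eq_right h]; linarith
      · rw [hy, max_eq_left h]; linarith
    set e' := e - 1 * ρs ^ 2 / 2 + ρs / 2 with he'
    set s := θ₁ * Λ + β' * Λ ^ 2 / 2 + 2 * ε₀ with hs
    have hs0 : 0 ≤ s := by positivity
    have h7 : e' * (β₀ - β') ≤ s - y := by
      have ha : (ν + β₀ / 2) * ρs ≤ θ₁ * Λ := by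
        have := mul_le_mul_of_nonneg_right hν hρs0
        have := mul_le_mul_of_nonneg_left hρsΛ hθ₁
        linarith
      have hb : β' * ρs ^ 2 / 2 ≤ β' * Λ ^ 2 / 2 := by
        have : ρs ^ 2 ≤ Λ ^ 2 := pow_le_pow_left₀ hρs0 hρsΛ 2
        have := mul_le_mul_of_nonneg_left this hβ'.le
        linarith
      have hc : 0 ≤ β' * ρs := by positivity
      simp only [he', hs]
      linarith
    have hb0 : 0 < β₀ - β' := by linarith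
    have h8 : s - y ≤ (2 * Λ * s + 0 - y / 3) * (β₀ - β') := by
      have ha : s ≤ 2 * Λ * s * (β₀ - β') := by
        have := mul_le_mul_of_nonneg_right hdiff hs0; linarith
      have hb : y / 3 * (β₀ - β') ≤ y := by
        have := mul_le_mul_of_nonneg_left (show β₀ - β' ≤ 3 by linarith) hy0; linarith
      linarith
    exact le_of_mul_le_mul_right (h7.trans h8) hb0

/-- The inductive step. -/
theorem allowed_step {f : ℝ → ℝ → ℝ} {Λ ζ σ₀ σ a s εk β₀ ν ρs e : ℝ} (hΛ : 2 ≤ Λ)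
    (hs0 : 0 < s) (hs1 : s ≤ 1) (ha0 : 0 < a) (has : a ≤ s) (hεk : εk ≤ s ^ 4 * a)
    (hβ₀ : 3 / 4 ≤ β₀ * Λ) (hβ₀3 : β₀ + s ≤ 3) (hβ₀s : s < β₀) (hσ : σ ≤ 1) (hσ₀ : σ₀ ≤ 1)
    (hρs0 : 0 ≤ ρs) (hρsΛ : ρs ≤ Λ)
    (hopt : ∀ ρ, 0 ≤ ρ → ν * ρ + β₀ * a * ρ ^ 2 / 2 - f β₀ ρ ≤
        ν * ρs + β₀ * a * ρs ^ 2 / 2 - f β₀ ρs + εk)
    (he : ∀ β, 0 < β → f β ρs ≤ f β₀ ρs + e * (β - β₀))
    (IH : ∀ β₁, |β₁ - β₀| ≤ s → ∃ ρ₁ e₁ c₁, Allowed Λ ζ σ₀ σ ρ₁ e₁ ∧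
      Wit f Λ (2 * εk) β₁ (ν + β₀ * a * ρs) ρ₁ e₁ c₁) :
    Allowed Λ (ζ + 5 * Λ ^ 2 * s) σ₀ (σ + 10 * Λ ^ 3 * s) ρs (e - a * ρs ^ 2 / 2) := by
  have hΛ0 : 0 < Λ := by linarith
  have hβ₀0 : 0 < β₀ := by linarith
  have key : ∀ β₁ ρ₁ e₁ c₁, 0 < β₁ → 0 ≤ ρ₁ → Wit f Λ (2 * εk) β₁ (ν + β₀ * a * ρs) ρ₁ e₁ c₁ →
      β₀ * a * (ρ₁ - ρs) ^ 2 / 2 ≤ 5 * εk + (e - e₁) * (β₁ - β₀) := by
    intro β₁ ρ₁ e₁ c₁ hβ₁ hρ₁ hw
    have h1 := hw.1 β₀ hβ₀0 (by linarith)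
    have h2 := hw.2 ρs hρs0 hρsΛ
    have h3 := hopt ρ₁ hρ₁
    have h4 := he β₁ hβ₁
    linarith
  have ebound : ∀ ρ₁ e₁, Allowed Λ ζ σ₀ σ ρ₁ e₁ → -(2 * Λ ^ 2) ≤ e₁ ∧ e₁ ≤ 2 * Λ ^ 2 := by
    intro ρ₁ e₁ ⟨h1, h2, _, h4, h5⟩
    have hm : 0 ≤ max (ρ₁ - 1) 0 := le_max_right _ _
    have h6 : ρ₁ ^ 2 ≤ Λ ^ 2 := pow_le_pow_left₀ h1 h2 2
    have h7 : 2 * Λ ≤ Λ * Λ := mul_le_mul_of_nonneg_right hΛ hΛ0.le
    constructor <;> linarith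
  set r := s ^ 2 * a with hr
  have hr0 : 0 < r := by positivity
  have hrs : r ≤ s := by
    have h1 : s ^ 2 ≤ 1 := pow_le_one₀ hs0.le hs1
    have : r ≤ 1 * a := mul_le_mul_of_nonneg_right h1 ha0.le
    linarith
  obtain ⟨ρp, ep, cp, hAp, hWp⟩ := IH (β₀ + r) (by rw [add_sub_cancel_left, abs_of_pos hr0]; exact hrs)
  obtain ⟨ρm, em, cm, hAm, hWm⟩ := IH (β₀ - r)
    (by rw [sub_sub_cancel_left, abs_neg, abs_of_pos hr0]; exact hrs)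
  have kp := key _ _ _ _ (by linarith) hAp.1 hWp
  have km := key _ _ _ _ (by linarith) hAm.1 hWm
  rw [add_sub_cancel_left] at kp
  rw [sub_sub_cancel_left] at km
  have hεr : εk ≤ s ^ 2 * r := by rw [hr]; linarith
  have hp0 : 0 ≤ β₀ * a * (ρp - ρs) ^ 2 / 2 := by positivity
  have hm0 : 0 ≤ β₀ * a * (ρm - ρs) ^ 2 / 2 := by positivity
  have hep : ep - 5 * s ^ 2 ≤ e := by
    have : 0 ≤ (5 * s ^ 2 + (e - ep)) * r := by linarith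
    have := nonneg_of_mul_nonneg_left this hr0
    linarith
  have hem : e ≤ em + 5 * s ^ 2 := by
    have : 0 ≤ (5 * s ^ 2 - (e - em)) * r := by linarith
    have := nonneg_of_mul_nonneg_left this hr0
    linarith
  obtain ⟨hep1, hep2⟩ := ebound _ _ hAp
  obtain ⟨hem1, hem2⟩ := ebound _ _ hAm
  have hs2 : s ^ 2 ≤ 1 := pow_le_one₀ hs0.le hs1
  have hΛ2 : 4 ≤ Λ ^ 2 := by
    have := pow_le_pow_left₀ zero_le_two hΛ 2; linarith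
  -- closeness of the densities
  have close : ∀ d : ℝ, β₀ * a * d ^ 2 / 2 ≤ (4 * Λ ^ 2 + 10) * r → |d| ≤ 5 * Λ ^ 2 * s := by
    intro d hd
    have h1 : β₀ * d ^ 2 / 2 ≤ (4 * Λ ^ 2 + 10) * s ^ 2 := by
      have : (β₀ * d ^ 2 / 2) * a ≤ ((4 * Λ ^ 2 + 10) * s ^ 2) * a := by rw [hr] at hd; linarith
      exact le_of_mul_le_mul_right this ha0
    have h2 : 3 / 8 * d ^ 2 ≤ Λ * ((4 * Λ ^ 2 + 10) * s ^ 2) := by
      have h3 := mul_le_mul_of_nonneg_left h1 hΛ0.le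
      have h4 := mul_le_mul_of_nonneg_right hβ₀ (sq_nonneg d)
      linarith
    have h5 : Λ * (4 * Λ ^ 2 + 10) ≤ 3 / 8 * (25 * Λ ^ 4) := by
      have e1 : 4 * Λ ≤ Λ ^ 2 * Λ := mul_le_mul_of_nonneg_right hΛ2 hΛ0.le
      have e2 : 2 * Λ ^ 3 ≤ Λ * Λ ^ 3 := mul_le_mul_of_nonneg_right hΛ (by positivity)
      have e3 : 0 ≤ Λ ^ 3 := by positivity
      linarith [show Λ ^ 2 * Λ = Λ ^ 3 by ring, show Λ * Λ ^ 3 = Λ ^ 4 by ring,
        show Λ * (4 * Λ ^ 2 + 10) = 4 * Λ ^ 3 + 10 * Λ by ring]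
    have h6 : d ^ 2 ≤ (5 * Λ ^ 2 * s) ^ 2 := by
      have := mul_le_mul_of_nonneg_right h5 (sq_nonneg s)
      linarith
    exact abs_le_of_sq_le_sq' h6 (by positivity) |> abs_le.mpr
  have cp' : |ρp - ρs| ≤ 5 * Λ ^ 2 * s := by
    apply close
    have h1 : (e - ep) * r ≤ (4 * Λ ^ 2 + 5) * r :=
      mul_le_mul_of_nonneg_right (by linarith) hr0.le
    have h2 : s ^ 2 * r ≤ r := mul_le_of_le_one_left hr0.le hs2
    linarith
  have cm' : |ρm - ρs| ≤ 5 * Λ ^ 2 * s := by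
    apply close
    have h1 : (em - e) * r ≤ (4 * Λ ^ 2 + 5) * r :=
      mul_le_mul_of_nonneg_right (by linarith) hr0.le
    have h2 : s ^ 2 * r ≤ r := mul_le_of_le_one_left hr0.le hs2
    linarith
  obtain ⟨hp1, hp2, hp3, hp4, hp5⟩ := hAp
  obtain ⟨hm1, hm2, hm3, hm4, hm5⟩ := hAm
  have hss : s ^ 2 ≤ s := by
    have := mul_le_of_le_one_left hs0.le hs1; linarith
  have hΛ3 : 8 ≤ Λ ^ 3 := by
    have := pow_le_pow_left₀ zero_le_two hΛ 3; linarith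
  have hΛ23 : 2 * Λ ^ 2 ≤ Λ ^ 3 := by
    have := mul_le_mul_of_nonneg_right hΛ (sq_nonneg Λ); linarith
  have hΛ3s : 2 * Λ ^ 2 * s ≤ Λ ^ 3 * s := mul_le_mul_of_nonneg_right hΛ23 hs0.le
  have hΛ3s' : 8 * s ≤ Λ ^ 3 * s := mul_le_mul_of_nonneg_right hΛ3 hs0.le
  obtain ⟨cp1, cp2⟩ := abs_le.mp cp'
  obtain ⟨cm1, cm2⟩ := abs_le.mp cm'
  refine ⟨hρs0, hρsΛ, ?_, ?_, ?_⟩
  · rcases hp3 with h | ⟨h, h'⟩ | h
    · left; linarith
    · right; left; constructor <;> linarith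
    · right; right; linarith
  · have h1 : (ρp - ρs) * (ρp + ρs) ≤ 5 * Λ ^ 2 * s * (2 * Λ) := by
      have h2 : (ρp - ρs) * (ρp + ρs) ≤ 5 * Λ ^ 2 * s * (ρp + ρs) :=
        mul_le_mul_of_nonneg_right cp2 (by linarith)
      have h3 : 5 * Λ ^ 2 * s * (ρp + ρs) ≤ 5 * Λ ^ 2 * s * (2 * Λ) :=
        mul_le_mul_of_nonneg_left (by linarith) (by positivity)
      linarith
    have h4 : a * ρs ^ 2 ≤ s * Λ ^ 2 := by
      have : ρs ^ 2 ≤ Λ ^ 2 := pow_le_pow_left₀ hρs0 hρsΛ 2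
      exact mul_le_mul has this (sq_nonneg _) hs0.le
    linarith
  · have h1 : max (ρs - 1) 0 ≤ max (ρm - 1) 0 + 5 * Λ ^ 2 * s := by
      apply max_le
      · linarith [le_max_left (ρm - 1) 0]
      · have := le_max_right (ρm - 1) 0
        have : 0 ≤ 5 * Λ ^ 2 * s := by positivity
        linarith
    have h4 : 0 ≤ a * ρs ^ 2 := by positivity
    linarith

end Crest.Agent.R149
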