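import Crest.Agent.R149.Abstract1

/-! # Row 149: convex-analysis induction (abstract part, second half) -/

namespace Crest.Agent.R149

open Set Filter Topology

/-- The sheared free energy decreases slowly to the left of `β₀` (vacuum / monomer coexistence). -/
def Hi (g : ℝ → ℝ → ℝ) (β₀ μ : ℝ) : Prop :=
  ∀ ρ, 1 / 3 < ρ → ρ < 2 / 3 → ∀ β, 0 < β → β < β₀ →
    g β ρ + β * ρ / 2 ≤ g β₀ ρ + β₀ * ρ / 2 + (β₀ - β) / 1000 + μ

/-- The sheared free energy decreases fast to the right of `β₀` (vacuum / cluster coexistence). -/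
def Lo (g : ℝ → ℝ → ℝ) (β₀ μ : ℝ) : Prop :=
  ∀ ρ, 1 / 3 < ρ → ρ < 2 / 3 → ∀ β, β₀ < β → β ≤ 3 →
    g β ρ + β * ρ / 2 ≤ g β₀ ρ + β₀ * ρ / 2 - (β - β₀) / 50 + μ

theorem exists_succ_switch {P : ℕ → Prop} {n : ℕ} (h0 : P 0) (hn : ¬ P n) :
    ∃ j, j < n ∧ P j ∧ ¬ P (j + 1) := by
  induction n with
  | zero => exact absurd h0 hn
  | succ n ih =>
    by_cases h : P n
    · exact ⟨n, Nat.lt_succ_self n, h, hn⟩
    · obtain ⟨j, hj, h1, h2⟩ := ih h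
      exact ⟨j, Nat.lt_succ_of_lt hj, h1, h2⟩

/-- Mixing two approximate supporting planes with nearby chemical potentials. -/
theorem mix_wit {g : ℝ → ℝ → ℝ} {Λ ω β₀ ν τ ρm em cm ρp ep cp ρ : ℝ} (hτ : 0 ≤ τ)
    (convg : ∀ β, 0 < β → ConvexOn ℝ (Ici 0) (g β))
    (hm : Wit g Λ ω β₀ ν ρm em cm) (hp : Wit g Λ ω β₀ (ν + τ) ρp ep cp)
    (hρm : 0 ≤ ρm) (h1 : ρm < ρ) (h2 : ρ < ρp) (hρp : ρp ≤ Λ) :
    ∃ l : ℝ, 0 ≤ l ∧ l ≤ 1 ∧ ρ = (1 - l) * ρm + l * ρp ∧ ∀ β, 0 < β → β ≤ 3 →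
      g β ρ + β * ρ / 2 ≤ g β₀ ρ + β₀ * ρ / 2 +
        ((1 - l) * (em + ρm / 2) + l * (ep + ρp / 2)) * (β - β₀) + 2 * ω + τ * Λ := by
  have hd : 0 < ρp - ρm := by linarith
  set l := (ρ - ρm) / (ρp - ρm) with hl
  have hl0 : 0 ≤ l := div_nonneg (by linarith) hd.le
  have hl1 : l ≤ 1 := (div_le_one hd).mpr (by linarith)
  have hρ : ρ = (1 - l) * ρm + l * ρp := by rw [hl]; field_simp; ring
  refine ⟨l, hl0, hl1, hρ, fun β hβ hβ3 => ?_⟩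
  have hc := (convg β hβ).2 (show ρm ∈ Ici (0 : ℝ) from hρm)
    (show ρp ∈ Ici (0 : ℝ) from (by simp only [mem_Ici]; linarith)) (show 0 ≤ 1 - l by linarith) hl0
    (by ring)
  simp only [smul_eq_mul] at hc
  rw [← hρ] at hc
  have a1 := mul_le_mul_of_nonneg_left (hm.1 β hβ hβ3) (show 0 ≤ 1 - l by linarith)
  have a2 := mul_le_mul_of_nonneg_left (hp.1 β hβ hβ3) hl0
  have a3 := mul_le_mul_of_nonneg_left (hm.2 ρ (by linarith) (by linarith))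
    (show 0 ≤ 1 - l by linarith)
  have a4 := mul_le_mul_of_nonneg_left (hp.2 ρ (by linarith) (by linarith)) hl0
  have a5 : τ * (l * (ρp - ρ)) ≤ τ * Λ := by
    apply mul_le_mul_of_nonneg_left _ hτ
    have := mul_le_of_le_one_left (show 0 ≤ ρp - ρ by linarith) hl1
    linarith
  have a6 : ν * ρ = ν * ((1 - l) * ρm + l * ρp) := by rw [← hρ]
  have a7 : (β - β₀) * ρ = (β - β₀) * ((1 - l) * ρm + l * ρp) := by rw [← hρ]
  linarith

theorem dichotomy {g : ℝ → ℝ → ℝ} {Λ θ ζ σ₀ σ ε₀ β₀ : ℝ} (hΛ : 2 ≤ Λ) (hθ : 0 < θ)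
    (hε₀ : 0 < ε₀) (hβ₀ : 0 < β₀) (hβ₀3 : β₀ ≤ 3) (hζ0 : 0 ≤ ζ) (hσ : 0 ≤ σ) (hσ₀ : 0 ≤ σ₀)
    (hζσ : ζ + σ ≤ 1 / 1000) (hσσ : σ₀ + σ ≤ 1 / 200) (hε : ε₀ ≤ 1 / 100)
    (hhigh : (θ + 2 * Λ) * ζ + 7 * ε₀ < θ)
    (convg : ∀ β, 0 < β → ConvexOn ℝ (Ici 0) (g β)) (zerog : g β₀ 0 = 0)
    (W : ∀ ω, 0 < ω → ∀ ν, ν + β₀ / 2 ≤ θ →
      ∃ ρ e c, Allowed Λ ζ σ₀ σ ρ e ∧ Wit g Λ ω β₀ ν ρ e c)
    (hGL : ∀ ρ, 0 ≤ ρ → ρ ≤ Λ → -(2 * Λ * ρ) - 3 * ε₀ ≤ g β₀ ρ + β₀ * ρ / 2)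
    (hGU : g β₀ 1 + β₀ / 2 ≤ 2 * ε₀) {μ : ℝ} (hμ : 0 < μ) : Hi g β₀ μ ∨ Lo g β₀ μ := by
  have hΛ0 : 0 < Λ := by linarith
  set ω := min ε₀ (μ / 4) with hω
  have hω0 : 0 < ω := lt_min hε₀ (by linarith)
  have hωε : ω ≤ ε₀ := min_le_left _ _
  have hωμ : ω ≤ μ / 4 := min_le_right _ _
  set D := θ + 2 * Λ + 1 with hD
  have hD0 : 0 < D := by positivity
  obtain ⟨n, hn⟩ := exists_nat_gt (2 * D * Λ / μ)
  have hn0 : (0 : ℝ) < n := lt_trans (by positivity) hn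
  set τ := D / n with hτ
  have hτ0 : 0 < τ := by positivity
  have hτΛ : τ * Λ ≤ μ / 2 := by
    rw [div_lt_iff₀ hμ] at hn
    rw [hτ, div_mul_eq_mul_div, div_le_iff₀ hn0]
    linarith
  have hnτ : (n : ℝ) * τ = D := by rw [hτ]; field_simp
  set νlow := -(2 * Λ) - 1 - β₀ / 2 with hνlow
  let P : ℕ → Prop := fun j => ∃ ρ e c, Allowed Λ ζ σ₀ σ ρ e ∧
    Wit g Λ ω β₀ (νlow + j * τ) ρ e c ∧ ρ ≤ ζ
  have hdom : ∀ j : ℕ, j ≤ n → νlow + j * τ + β₀ / 2 ≤ θ := by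
    intro j hj
    have h1 : (j : ℝ) ≤ n := by exact_mod_cast hj
    have h2 := mul_le_mul_of_nonneg_right h1 hτ0.le
    linarith
  have hP0 : P 0 := by
    obtain ⟨ρ, e, c, hA, hW⟩ := W ω hω0 _ (hdom 0 (Nat.zero_le _))
    refine ⟨ρ, e, c, hA, hW, ?_⟩
    by_contra hcon
    have h1 : 1 - ζ ≤ ρ := by
      rcases hA.2.2.1 with h | ⟨h, _⟩ | h
      · exact absurd h hcon
      · exact h
      · linarith
    have h2 := hW.1 β₀ hβ₀ hβ₀3
    have h3 := hW.2 0 le_rfl hΛ0.le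
    have h4 := hGL ρ hA.1 hA.2.1
    rw [zerog] at h3
    simp only [Nat.cast_zero, zero_mul, add_zero, mul_zero, sub_self] at h2 h3
    rw [hνlow] at h3
    linarith
  have hPn : ¬ P n := by
    rintro ⟨ρ, e, c, hA, hW, hρ⟩
    have h2 := hW.1 β₀ hβ₀ hβ₀3
    have h3 := hW.2 1 zero_le_one (by linarith)
    have h4 := hGL ρ hA.1 hA.2.1
    have h5 : νlow + n * τ = θ - β₀ / 2 := by rw [hnτ]; ring
    rw [h5] at h3
    have h6 := mul_le_mul_of_nonneg_left hρ (show 0 ≤ θ + 2 * Λ by positivity)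
    simp only [sub_self, mul_zero, add_zero] at h2
    linarith
  obtain ⟨j, hj, ⟨ρm, em, cm, hAm, hWm, hρm⟩, hPj⟩ := exists_succ_switch hP0 hPn
  obtain ⟨ρp, ep, cp, hAp, hWp⟩ := W ω hω0 _ (hdom (j + 1) hj)
  have hρp : ¬ ρp ≤ ζ := fun h => hPj ⟨ρp, ep, cp, hAp, hWp, h⟩
  have hWp' : Wit g Λ ω β₀ (νlow + j * τ + τ) ρp ep cp := by
    have : νlow + ((j + 1 : ℕ) : ℝ) * τ = νlow + j * τ + τ := by push_cast; ring
    rwa [this] at hWp
  obtain ⟨hm1, hm2, -, hm4, hm5⟩ := hAm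
  obtain ⟨hp1, hp2, hp3, hp4, hp5⟩ := hAp
  have hm4' : -σ ≤ em + ρm / 2 := by
    have : 0 ≤ ρm * (1 - ρm) := mul_nonneg hm1 (by linarith)
    linarith
  have hm5' : em + ρm / 2 ≤ σ₀ + σ := by linarith [le_max_right (ρm - 1) 0]
  rcases hp3 with h | ⟨h, h'⟩ | h
  · exact absurd h hρp
  · left
    intro ρ hρ1 hρ2 β hβ hββ₀
    obtain ⟨l, hl0, hl1, -, hmix⟩ := mix_wit (ρ := ρ) hτ0.le convg hWm hWp' hm1 (by linarith)
      (by linarith) hp2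
    have h1 := hmix β hβ (by linarith)
    have hp4' : -(ζ + σ) ≤ ep + ρp / 2 := by
      have e1 : ρp * (ρp - 1) ≤ ρp * ζ := mul_le_mul_of_nonneg_left (by linarith) hp1
      have e2 : ρp * ζ ≤ 2 * ζ := mul_le_mul_of_nonneg_right (by linarith) hζ0
      linarith
    have h2 : -(1 / 1000) ≤ (1 - l) * (em + ρm / 2) + l * (ep + ρp / 2) := by
      have e1 := mul_le_mul_of_nonneg_left (show -(1 / 1000) ≤ em + ρm / 2 by linarith)
        (show 0 ≤ 1 - l by linarith)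
      have e2 := mul_le_mul_of_nonneg_left (show -(1 / 1000) ≤ ep + ρp / 2 by linarith) hl0
      linarith
    have h3 := mul_le_mul_of_nonneg_right h2 (show 0 ≤ β₀ - β by linarith)
    linarith
  · right
    intro ρ hρ1 hρ2 β hβ hβ3
    obtain ⟨l, hl0, hl1, hl, hmix⟩ := mix_wit (ρ := ρ) hτ0.le convg hWm hWp' hm1 (by linarith)
      (by linarith) hp2
    have h1 := hmix β (by linarith) hβ3
    have hp5' : ep + ρp / 2 ≤ σ₀ + σ - (ρp - 1) / 3 := by linarith [le_max_left (ρp - 1) 0]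
    have h4 : 1 / 4 ≤ l * ρp := by
      have := mul_le_of_le_one_left hm1 (show 1 - l ≤ 1 by linarith)
      linarith
    have h5 : l * (ρp / 3) ≤ l * (ρp - 1) := mul_le_mul_of_nonneg_left (by linarith) hl0
    have h2 : (1 - l) * (em + ρm / 2) + l * (ep + ρp / 2) ≤ -(1 / 50) := by
      have e1 := mul_le_mul_of_nonneg_left hm5' (show 0 ≤ 1 - l by linarith)
      have e2 := mul_le_mul_of_nonneg_left hp5' hl0
      linarith
    have h3 := mul_le_mul_of_nonneg_right h2 (show 0 ≤ β - β₀ by linarith)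
    linarith

theorem hi_or_lo_zero {g : ℝ → ℝ → ℝ} {β₀ : ℝ} (h : ∀ μ, 0 < μ → Hi g β₀ μ ∨ Lo g β₀ μ) :
    Hi g β₀ 0 ∨ Lo g β₀ 0 := by
  by_contra hcon
  rw [not_or] at hcon
  obtain ⟨h1, h2⟩ := hcon
  simp only [Hi, Lo, not_forall, not_le] at h1 h2
  obtain ⟨ρ, a1, a2, β, a3, a4, a5⟩ := h1
  obtain ⟨ρ', b1, b2, β', b3, b4, b5⟩ := h2
  set x := g β ρ + β * ρ / 2 - (g β₀ ρ + β₀ * ρ / 2 + (β₀ - β) / 1000) with hx
  set y := g β' ρ' + β' * ρ' / 2 - (g β₀ ρ' + β₀ * ρ' / 2 - (β' - β₀) / 50) with hy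
  have hx0 : 0 < x := by linarith
  have hy0 : 0 < y := by linarith
  have hm1 := min_le_left x y
  have hm2 := min_le_right x y
  have hm0 := lt_min hx0 hy0
  rcases h (min x y / 2) (by linarith) with h | h
  · have := h ρ a1 a2 β a3 a4; linarith
  · have := h ρ' b1 b2 β' b3 b4; linarith

theorem kink_of_dichotomy {g : ℝ → ℝ → ℝ} {a : ℝ} (ha : 0 < a) (ha2 : a ≤ 2)
    (concg : ∀ ρ, 0 ≤ ρ → ConcaveOn ℝ (Ioi 0) (fun β => g β ρ))
    (h : ∀ β₀, a ≤ β₀ → β₀ ≤ 2 → Hi g β₀ 0 ∨ Lo g β₀ 0) (hlo : ¬ Lo g a 0) (hhi : ¬ Hi g 2 0) :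
    ∃ βc, 0 < βc ∧ ∀ ρ, 1 / 3 < ρ → ρ < 2 / 3 → ∃ Dl Dr : ℝ,
      HasDerivWithinAt (fun β => g β ρ) Dl (Iio βc) βc ∧
      HasDerivWithinAt (fun β => g β ρ) Dr (Ioi βc) βc ∧ Dr < Dl := by
  set A : Set ℝ := {b | a ≤ b ∧ b ≤ 2 ∧ Hi g b 0} with hA
  have haA : a ∈ A := ⟨le_rfl, ha2, (h a le_rfl ha2).resolve_right hlo⟩
  have hne : A.Nonempty := ⟨a, haA⟩
  have hbdd : BddAbove A := ⟨2, fun b hb => hb.2.1⟩
  set βc := sSup A with hβc
  have haβ : a ≤ βc := le_csSup hbdd haA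
  have hβ2 : βc ≤ 2 := csSup_le hne (fun b hb => hb.2.1)
  have hβ0 : 0 < βc := by linarith
  have hcont : ∀ ρ, 0 ≤ ρ → ContinuousAt (fun β => g β ρ) βc := by
    intro ρ hρ
    have := (concg ρ hρ).continuousOn isOpen_Ioi
    exact this.continuousAt (Ioi_mem_nhds hβ0)
  have hHi : Hi g βc 0 := by
    intro ρ h1 h2 β h3 h4
    have hcl : βc ∈ closure (A ∩ Ioi β) := by
      have hmem : βc ∈ closure A := csSup_mem_closure hne hbdd
      have := (isOpen_Ioi (a := β)).inter_closure (t := A) ⟨h4, hmem⟩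
      rwa [inter_comm] at this
    have hc : ContinuousWithinAt (fun b => g b ρ + b * ρ / 2 + (b - β) / 1000 + 0) (A ∩ Ioi β) βc := by
      apply ContinuousAt.continuousWithinAt
      have := hcont ρ (by linarith)
      fun_prop
    exact ContinuousWithinAt.closure_le hcl continuousWithinAt_const hc
      (fun b hb => hb.1.2.2 ρ h1 h2 β h3 hb.2)
  have hβlt : βc < 2 := lt_of_le_of_ne hβ2 (fun heq => hhi (heq ▸ hHi))
  have hLo : Lo g βc 0 := by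
    intro ρ h1 h2 β h3 h4
    have hcl : βc ∈ closure (Ioo βc (min β 2)) := by
      rw [closure_Ioo (ne_of_lt (lt_min h3 hβlt))]
      exact ⟨le_rfl, (lt_min h3 hβlt).le⟩
    have hc : ContinuousWithinAt (fun b => g b ρ + b * ρ / 2 - (β - b) / 50 + 0)
        (Ioo βc (min β 2)) βc := by
      apply ContinuousAt.continuousWithinAt
      have := hcont ρ (by linarith)
      fun_prop
    refine ContinuousWithinAt.closure_le hcl continuousWithinAt_const hc (fun b hb => ?_)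
    have hb2 : b ≤ 2 := (hb.2.trans_le (min_le_right _ _)).le
    have hbβ : b < β := hb.2.trans_le (min_le_left _ _)
    have hnot : ¬ Hi g b 0 := fun hh =>
      absurd (le_csSup hbdd (show b ∈ A from ⟨by linarith [hb.1], hb2, hh⟩)) (not_le.mpr hb.1)
    exact (h b (by linarith [hb.1]) hb2).resolve_left hnot ρ h1 h2 β hbβ h4
  refine ⟨βc, hβ0, fun ρ h1 h2 => ?_⟩
  have hc : ConvexOn ℝ (Ioi 0) (-(fun β => g β ρ)) := (concg ρ (by linarith)).neg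
  have hint : βc ∈ interior (Ioi (0 : ℝ)) := by rw [interior_Ioi]; exact hβ0
  have hl := (hc.hasDerivWithinAt_leftDeriv_of_mem_interior hint).neg
  have hr := (hc.hasDerivWithinAt_rightDeriv_of_mem_interior hint).neg
  rw [neg_neg] at hl hr
  refine ⟨_, _, hl, hr, ?_⟩
  have hl' := (hasDerivWithinAt_iff_tendsto_slope' (show βc ∉ Iio βc by simp)).mp hl
  have hr' := (hasDerivWithinAt_iff_tendsto_slope' (show βc ∉ Ioi βc by simp)).mp hr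
  have e1 := ge_of_tendsto (b := -(1 / 1000) - ρ / 2) hl' (by
    filter_upwards [Ioo_mem_nhdsLT hβ0] with β hβ
    have := hHi ρ h1 h2 β hβ.1 hβ.2
    rw [slope_def_field, le_div_iff_of_neg (by linarith [hβ.2])]
    linarith)
  have e2 := le_of_tendsto (b := -(1 / 50) - ρ / 2) hr' (by
    filter_upwards [Ioo_mem_nhdsGT (show βc < 3 by linarith)] with β hβ
    have := hLo ρ h1 h2 β hβ.1 hβ.2.le
    rw [slope_def_field, div_le_iff₀ (by linarith [hβ.1])]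
    linarith)
  linarith

end Crest.Agent.R149
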