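import Crest.Agent.R149.Abstract2

/-! # Row 149: the abstract theorem -/

namespace Crest.Agent.R149

open Set Filter Topology

/-- The hypotheses of the abstract theorem, in units where the monomer density, the entropy cost
of a dimer and the first Kac coupling are all `1`. -/
structure Scheme (Λ β' ε₀ : ℝ) (gk : ℕ → ℝ → ℝ → ℝ) (g : ℝ → ℝ → ℝ) (b ε δ : ℕ → ℝ) : Prop where
  b0 : b 0 = 1
  bpos : ∀ k, 0 < b k
  ble : ∀ k, 1 ≤ k → b k ≤ ε₀ / 2 ^ k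
  εpos : ∀ k, 0 < ε k
  εle : ∀ k, 1 ≤ k → ε k ≤ (ε₀ / 2 ^ k) ^ 4 * b k
  δlim : Tendsto δ atTop (𝓝 0)
  δ1 : δ 1 ≤ ε₀
  conc : ∀ k ρ, 0 ≤ ρ → ConcaveOn ℝ (Ioi 0) (fun β => gk k β ρ)
  concg : ∀ ρ, 0 ≤ ρ → ConcaveOn ℝ (Ioi 0) (fun β => g β ρ)
  convg : ∀ β, 0 < β → ConvexOn ℝ (Ici 0) (g β)
  zero : ∀ k β, gk k β 0 = 0
  zerog : ∀ β, g β 0 = 0
  base1 : ∀ β ρ, β' ≤ β → 0 ≤ ρ → -ε₀ ≤ gk 0 β ρ
  base2 : ∀ β ρ, β' ≤ β → 0 ≤ ρ → ρ - 1 - ε₀ ≤ gk 0 β ρ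
  base3 : ∀ β, 0 < β → gk 0 β 1 ≤ ε₀
  base4 : ∀ β, 0 < β → gk 0 β 2 ≤ 1 + ε₀
  mono0 : ∀ β₁ β₂ ρ, 0 < β₁ → β₁ ≤ β₂ → 0 ≤ ρ → gk 0 β₁ ρ ≤ gk 0 β₂ ρ
  sstab : ∀ k β ρ, β' ≤ β → β ≤ 3 → Λ ≤ ρ → ρ + β * b k * ρ ^ 2 / 2 - gk k β ρ ≤ -1
  bdd : ∀ k β, β' ≤ β → β ≤ 3 → ∃ S, ∀ ρ, 0 ≤ ρ → ρ ≤ Λ → -gk k β ρ ≤ S
  lower : ∀ k β ρ, 0 < β → β ≤ 3 → 0 ≤ ρ → ρ ≤ Λ →
    gk (k + 1) β ρ ≤ gk k β ρ - β * b k * ρ ^ 2 / 2 + ε (k + 1)
  upper : ∀ k β ν S, β' ≤ β → β ≤ 3 → ν ≤ 1 →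
    (∀ ρ', 0 ≤ ρ' → ν * ρ' + β * b k * ρ' ^ 2 / 2 - gk k β ρ' ≤ S) →
    ∀ ρ, 0 ≤ ρ → ρ ≤ Λ → ν * ρ - gk (k + 1) β ρ ≤ S + ε (k + 1)
  tail1 : ∀ k β ρ, 0 < β → 0 ≤ ρ → g β ρ ≤ gk k β ρ
  tail2 : ∀ k β ρ, β' ≤ β → β ≤ 3 → 0 ≤ ρ → ρ ≤ Λ → -g β ρ ≤ max (-Λ) (-gk k β ρ + δ k)

/-- Smallness conditions on the absolute constants. -/
structure Small (Λ θ β' ε₀ : ℝ) : Prop where
  Λ2 : 2 ≤ Λ
  θpos : 0 < θ
  θle : θ * Λ ^ 2 ≤ 1 / 1000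
  β'pos : 0 < β'
  β'le : β' * Λ ^ 3 ≤ 1 / 1000
  ε₀pos : 0 < ε₀
  ε₀le : 100 * Λ ^ 3 * ε₀ ≤ θ

theorem Small.facts {Λ θ β' ε₀ : ℝ} (h : Small Λ θ β' ε₀) :
    θ ≤ 1 / 4000 ∧ 8 * ε₀ ≤ Λ ^ 3 * ε₀ ∧ 4 * (Λ * ε₀) ≤ Λ ^ 3 * ε₀ ∧
      2 * (Λ ^ 2 * ε₀) ≤ Λ ^ 3 * ε₀ ∧ β' * Λ ≤ 1 / 4000 := by
  have hΛ := h.Λ2
  have hΛ0 : 0 < Λ := by linarith
  have h2 : 4 ≤ Λ ^ 2 := by have := pow_le_pow_left₀ zero_le_two hΛ 2; linarith
  have h3 : 8 ≤ Λ ^ 3 := by have := pow_le_pow_left₀ zero_le_two hΛ 3; linarith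
  have h4 : 4 * Λ ≤ Λ ^ 3 := by have := mul_le_mul_of_nonneg_right h2 hΛ0.le; linarith
  have h5 : 2 * Λ ^ 2 ≤ Λ ^ 3 := by have := mul_le_mul_of_nonneg_right hΛ (sq_nonneg Λ); linarith
  refine ⟨?_, ?_, ?_, ?_, ?_⟩
  · have := mul_le_mul_of_nonneg_left h2 h.θpos.le; linarith [h.θle]
  · have := mul_le_mul_of_nonneg_right h3 h.ε₀pos.le; linarith
  · have := mul_le_mul_of_nonneg_right h4 h.ε₀pos.le; linarith
  · have := mul_le_mul_of_nonneg_right h5 h.ε₀pos.le; linarith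
  · have := mul_le_mul_of_nonneg_left h4 h.β'pos.le; linarith [h.β'le]

theorem Scheme.ε_le {Λ θ β' ε₀ : ℝ} {gk : ℕ → ℝ → ℝ → ℝ} {g : ℝ → ℝ → ℝ} {b ε δ : ℕ → ℝ}
    (hs : Small Λ θ β' ε₀) (h : Scheme Λ β' ε₀ gk g b ε δ) {k : ℕ} (hk : 1 ≤ k) :
    ε k ≤ ε₀ / 2 ^ k := by
  obtain ⟨f1, f2, f3, f4, f5⟩ := hs.facts
  have hε₀ := hs.ε₀pos
  have h1 : ε₀ ≤ 1 := by linarith [hs.ε₀le]
  have h2 : ε₀ / 2 ^ k ≤ 1 := by
    rw [div_le_one (by positivity)]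
    exact h1.trans (one_le_pow₀ (by norm_num))
  have h3 : (ε₀ / 2 ^ k) ^ 4 ≤ 1 := pow_le_one₀ (by positivity) h2
  have h4 := mul_le_of_le_one_left (h.bpos k).le h3
  linarith [h.εle k hk, h.ble k hk]

theorem Scheme.induction {Λ θ β' ε₀ : ℝ} {gk : ℕ → ℝ → ℝ → ℝ} {g : ℝ → ℝ → ℝ} {b ε δ : ℕ → ℝ}
    (hs : Small Λ θ β' ε₀) (h : Scheme Λ β' ε₀ gk g b ε δ) (k : ℕ) :
    ∀ β₀ ν, 1 / Λ - ε₀ / 2 ^ k ≤ β₀ → β₀ ≤ 2 + ε₀ / 2 ^ k →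
      ν + β₀ / 2 ≤ θ + 4 * Λ * (ε₀ / 2 ^ k) →
      ∃ ρ e c, Allowed Λ (16 * Λ * ε₀ + 5 * Λ ^ 2 * (ε₀ - ε₀ / 2 ^ k))
        (2 * Λ * ((θ + 4 * Λ * ε₀) * Λ + β' * Λ ^ 2 / 2 + 2 * ε₀))
        (10 * Λ ^ 3 * (ε₀ - ε₀ / 2 ^ k)) ρ e ∧
        Wit (gk (k + 1)) Λ (2 * ε (k + 1)) β₀ ν ρ e c := by
  obtain ⟨f1, f2, f3, f4, f5⟩ := hs.facts
  have hΛ := hs.Λ2
  have hΛ0 : 0 < Λ := by linarith
  have hε₀ := hs.ε₀pos
  have hε₀le := hs.ε₀le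
  have hθ := hs.θpos
  have hsle : ∀ j : ℕ, ε₀ / 2 ^ j ≤ ε₀ := fun j =>
    div_le_self hε₀.le (one_le_pow₀ (by norm_num))
  have hspos : ∀ j : ℕ, 0 < ε₀ / 2 ^ j := fun j => by positivity
  -- consequences of the domain conditions
  have dom : ∀ β₀ : ℝ, 1 / Λ - ε₀ ≤ β₀ → 3 / 4 ≤ β₀ * Λ ∧ ε₀ < β₀ ∧ β' ≤ β₀ := by
    intro β₀ h1
    have h2 : 3 / 4 ≤ β₀ * Λ := by
      have := mul_le_mul_of_nonneg_right h1 hΛ0.le
      rw [sub_mul, one_div, inv_mul_cancel₀ hΛ0.ne'] at this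
      linarith
    refine ⟨h2, ?_, ?_⟩
    · by_contra hcon
      have := mul_le_mul_of_nonneg_right (not_lt.mp hcon) hΛ0.le
      linarith
    · by_contra hcon
      have := mul_le_mul_of_nonneg_right (not_le.mp hcon).le hΛ0.le
      linarith
  induction k with
  | zero =>
    intro β₀ ν h1 h2 h3
    simp only [pow_zero, div_one] at h1 h2 h3
    obtain ⟨d1, d2, d3⟩ := dom β₀ h1
    have hβ₀ : 0 < β₀ := by linarith
    have hε1 : ε 1 ≤ ε₀ := (h.ε_le hs le_rfl).trans (hsle 1)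
    obtain ⟨ρs, e, r0, rΛ, hopt, he, hW⟩ := exists_near_max (f := gk 0) (f' := gk 1) (a := b 0)
      (β₀ := β₀) (ν := ν) (ε' := ε 1) (ε'' := ε 1) hΛ0.le hβ₀ (by linarith) (h.εpos 1)
      (by linarith) (h.bpos 0).le (h.conc 0) (h.zero 0 β₀)
      (fun ρ hρ => h.sstab 0 β₀ ρ d3 (by linarith) hρ) (h.bdd 0 β₀ d3 (by linarith))
      (h.lower 0) (fun S hS => h.upper 0 β₀ ν S d3 (by linarith) (by linarith) hS)
    rw [h.b0] at hopt hW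
    refine ⟨ρs, _, _, ?_, hW.mono (by simp only [zero_add]; linarith)⟩
    simp only [pow_zero, div_one, sub_self, mul_zero, add_zero]
    exact allowed_base hΛ hs.β'pos (by linarith) d1 (by linarith) (by positivity) h3 hε₀ r0 rΛ
      (h.zero 0 β₀) h.base1 h.base2 (h.base3 β₀ hβ₀) (h.base4 β₀ hβ₀) h.mono0
      (fun ρ hρ => by linarith [hopt ρ hρ]) he
  | succ k ih =>
    intro β₀ ν h1 h2 h3
    set s := ε₀ / 2 ^ (k + 1) with hsdef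
    have hs2 : ε₀ / 2 ^ k = 2 * s := by rw [hsdef, pow_succ]; field_simp
    have hs0 : 0 < s := hspos _
    have hsε : 2 * s ≤ ε₀ := hs2 ▸ hsle k
    obtain ⟨d1, d2, d3⟩ := dom β₀ (by linarith)
    have hβ₀ : 0 < β₀ := by linarith
    have hΛs : Λ * s ≤ Λ * ε₀ := mul_le_mul_of_nonneg_left (by linarith) hΛ0.le
    have hΛs' : 2 * s ≤ Λ * s := mul_le_mul_of_nonneg_right hΛ hs0.le
    have hεk : ε (k + 1) ≤ s := h.ε_le hs (Nat.le_add_left 1 k)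
    have hm0 : 0 < min (ε (k + 1)) (ε (k + 2)) := lt_min (h.εpos _) (h.εpos _)
    have hm1 := min_le_left (ε (k + 1)) (ε (k + 2))
    have hm2 := min_le_right (ε (k + 1)) (ε (k + 2))
    obtain ⟨ρs, e, r0, rΛ, hopt, he, hW⟩ := exists_near_max (f := gk (k + 1)) (f' := gk (k + 2))
      (a := b (k + 1)) (β₀ := β₀) (ν := ν) (ε' := min (ε (k + 1)) (ε (k + 2))) (ε'' := ε (k + 2))
      hΛ0.le hβ₀ (by linarith) hm0 (by linarith) (h.bpos _).le (h.conc _) (h.zero _ β₀)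
      (fun ρ hρ => h.sstab _ β₀ ρ d3 (by linarith) hρ) (h.bdd _ β₀ d3 (by linarith))
      (h.lower (k + 1)) (fun S hS => h.upper (k + 1) β₀ ν S d3 (by linarith) (by linarith) hS)
    refine ⟨ρs, _, _, ?_, hW.mono (by linarith)⟩
    have hbs : b (k + 1) ≤ s := h.ble _ (Nat.le_add_left 1 k)
    have hstep := allowed_step (f := gk (k + 1))
      (ζ := 16 * Λ * ε₀ + 5 * Λ ^ 2 * (ε₀ - ε₀ / 2 ^ k))
      (σ₀ := 2 * Λ * ((θ + 4 * Λ * ε₀) * Λ + β' * Λ ^ 2 / 2 + 2 * ε₀))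
      (σ := 10 * Λ ^ 3 * (ε₀ - ε₀ / 2 ^ k)) (εk := ε (k + 1)) (ν := ν) hΛ hs0 (by linarith) (h.bpos _) hbs
      (h.εle _ (Nat.le_add_left 1 k)) d1 (by linarith) (by linarith)
      (by
        have : 0 ≤ Λ ^ 3 * (ε₀ / 2 ^ k) := by positivity
        linarith)
      (by linarith [hs.θle, hs.β'le]) r0 rΛ (fun ρ hρ => by linarith [hopt ρ hρ]) he
      (by
        intro β₁ hβ₁
        obtain ⟨e1, e2⟩ := abs_le.mp hβ₁
        apply ih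
        · linarith
        · linarith
        · have e3 : β₀ * b (k + 1) * ρs ≤ 3 * s * Λ :=
            mul_le_mul (mul_le_mul (by linarith) hbs (h.bpos _).le (by norm_num)) rΛ r0
              (by positivity)
          rw [hs2]
          linarith)
    convert hstep using 1
    · rw [hs2]; ring
    · rw [hs2]; ring

theorem Scheme.kink {Λ θ β' ε₀ : ℝ} {gk : ℕ → ℝ → ℝ → ℝ} {g : ℝ → ℝ → ℝ} {b ε δ : ℕ → ℝ}
    (hs : Small Λ θ β' ε₀) (h : Scheme Λ β' ε₀ gk g b ε δ) :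
    ∃ βc, 0 < βc ∧ ∀ ρ, 1 / 3 < ρ → ρ < 2 / 3 → ∃ Dl Dr : ℝ,
      HasDerivWithinAt (fun β => g β ρ) Dl (Iio βc) βc ∧
      HasDerivWithinAt (fun β => g β ρ) Dr (Ioi βc) βc ∧ Dr < Dl := by
  obtain ⟨f1, f2, f3, f4, f5⟩ := hs.facts
  have hΛ := hs.Λ2
  have hΛ0 : 0 < Λ := by linarith
  have hε₀ := hs.ε₀pos
  have hε₀le := hs.ε₀le
  have hθ := hs.θpos
  have hε1 : ε 1 ≤ ε₀ := (h.ε_le hs le_rfl).trans (div_le_self hε₀.le (by norm_num))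
  have hinv : 0 < 1 / Λ := by positivity
  have hinv2 : 1 / Λ ≤ 1 / 2 := one_div_le_one_div_of_le (by norm_num) hΛ
  have hβ'inv : β' ≤ 1 / Λ := by rw [le_div_iff₀ hΛ0]; linarith
  -- transfer of the tail estimate
  have tail : ∀ k β ν ρ S, β' ≤ β → β ≤ 3 → ν ≤ 1 → 0 ≤ ρ → ρ ≤ Λ → 0 ≤ S + δ k →
      ν * ρ - gk k β ρ ≤ S → ν * ρ - g β ρ ≤ S + δ k := by
    intro k β ν ρ S h1 h2 h3 h4 h5 h6 h7
    have h8 := h.tail2 k β ρ h1 h2 h4 h5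
    have h9 : ν * ρ ≤ Λ := by have := mul_le_mul_of_nonneg_right h3 h4; linarith
    rcases le_max_iff.mp h8 with h10 | h10 <;> linarith
  -- witnesses for the limit
  have W : ∀ β₀, 1 / Λ ≤ β₀ → β₀ ≤ 2 → ∀ ω, 0 < ω → ∀ ν, ν + β₀ / 2 ≤ θ →
      ∃ ρ e c, Allowed Λ (16 * Λ * ε₀ + 5 * Λ ^ 2 * ε₀)
        (2 * Λ * ((θ + 4 * Λ * ε₀) * Λ + β' * Λ ^ 2 / 2 + 2 * ε₀)) (10 * Λ ^ 3 * ε₀) ρ e ∧
        Wit g Λ ω β₀ ν ρ e c := by
    intro β₀ h1 h2 ω hω ν hν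
    have t1 : Tendsto (fun k : ℕ => ε₀ / 2 ^ k) atTop (𝓝 0) :=
      (tendsto_pow_atTop_atTop_of_one_lt (by norm_num : (1 : ℝ) < 2)).const_div_atTop ε₀
    have t2 := (t1.eventually (gt_mem_nhds (show 0 < ω / 4 by linarith))).and
      (h.δlim.eventually (Ioo_mem_nhds (show -(ω / 4) < 0 by linarith) (show 0 < ω / 4 by linarith)))
    obtain ⟨N, hN⟩ := eventually_atTop.mp t2
    obtain ⟨n1, n2, n3⟩ := hN (N + 1) (Nat.le_succ N)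
    have hsp : 0 < ε₀ / 2 ^ N := by positivity
    have hεN := h.ε_le hs (Nat.le_add_left 1 N)
    obtain ⟨ρ, e, c, hA, hW⟩ := h.induction hs N β₀ ν (by linarith) (by linarith)
      (by have : 0 < 4 * Λ * (ε₀ / 2 ^ N) := by positivity
          linarith)
    refine ⟨ρ, e, c, hA.mono ?_ ?_, ?_, ?_⟩
    · have : 0 < Λ ^ 2 * (ε₀ / 2 ^ N) := by positivity
      linarith
    · have : 0 < Λ ^ 3 * (ε₀ / 2 ^ N) := by positivity
      linarith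
    · intro β hβ hβ3
      linarith [hW.1 β hβ hβ3, h.tail1 (N + 1) β ρ hβ hA.1]
    · intro ρ' r1 r2
      have w0 := hW.2 0 le_rfl hΛ0.le
      rw [h.zero] at w0
      have w1 := hW.2 ρ' r1 r2
      have := tail (N + 1) β₀ ν ρ' (ν * ρ - c + 3 * ω / 4) (by linarith) (by linarith)
        (by linarith) r1 r2 (by linarith) (by linarith)
      linarith
  -- global lower bound from the first step
  have glob : ∀ β ν, β' ≤ β → β ≤ 3 → ν ≤ 1 →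
      (∀ ρ', 0 ≤ ρ' → ρ' ≤ Λ → ν * ρ' + β * ρ' ^ 2 / 2 - max (ρ' - 1) 0 ≤ 0) →
      ∀ ρ, 0 ≤ ρ → ρ ≤ Λ → ν * ρ - g β ρ ≤ 3 * ε₀ := by
    intro β ν h1 h2 h3 h4 ρ r1 r2
    have h5 := h.upper 0 β ν ε₀ h1 h2 h3 (by
      intro ρ' r3
      rw [h.b0]
      rcases le_total ρ' Λ with r4 | r4
      · have a1 := h4 ρ' r3 r4
        have a2 := h.base1 β ρ' h1 r3
        have a3 := h.base2 β ρ' h1 r3
        rcases le_total (ρ' - 1) 0 with a4 | a4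
        · rw [max_eq_right a4] at a1; linarith
        · rw [max_eq_left a4] at a1; linarith
      · have a1 := h.sstab 0 β ρ' h1 h2 r4
        rw [h.b0] at a1
        have a2 := mul_le_mul_of_nonneg_right h3 r3
        linarith) ρ r1 r2
    have h8 := h.tail2 1 β ρ h1 h2 r1 r2
    have h9 : ν * ρ ≤ Λ := by have := mul_le_mul_of_nonneg_right h3 r1; linarith
    have h10 := h.δ1
    simp only [zero_add] at h5
    rcases le_max_iff.mp h8 with h11 | h11 <;> linarith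
  have GL1 : ∀ β, 1 / Λ ≤ β → β ≤ 3 → ∀ ρ, 0 ≤ ρ → ρ ≤ Λ →
      -(2 * Λ * ρ) - 3 * ε₀ ≤ g β ρ + β * ρ / 2 := by
    intro β h1 h2 ρ r1 r2
    have := glob β (-(2 * Λ) - β / 2) (by linarith) h2 (by linarith) (by
      intro ρ' r3 r4
      have a1 := le_max_right (ρ' - 1) 0
      have a2 : β * ρ' ≤ 3 * Λ := mul_le_mul h2 r4 r3 (by norm_num)
      have a3 := mul_le_mul_of_nonneg_right a2 r3
      have a4 : 0 ≤ β * ρ' := mul_nonneg (by linarith) r3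
      have a5 : 0 ≤ Λ * ρ' := by positivity
      linarith) ρ r1 r2
    linarith
  have GL2 : ∀ β, 1 / Λ ≤ β → β ≤ 2 / Λ → -(3 * ε₀) ≤ g β (1 / 2) + β * (1 / 2) / 2 := by
    intro β h1 h2
    have h3 : β * Λ ≤ 2 := by rwa [le_div_iff₀ hΛ0] at h2
    have h4 : β ≤ 1 := by
      have : 2 / Λ ≤ 1 := by rw [div_le_one hΛ0]; exact hΛ
      linarith
    have := glob β (-(β / 2)) (by linarith) (by linarith) (by linarith) (by
      intro ρ' r3 r4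
      have a4 : 0 ≤ β * ρ' := mul_nonneg (by linarith) r3
      rcases le_total (ρ' - 1) 0 with a | a
      · rw [max_eq_right a]
        have := mul_nonneg a4 (show 0 ≤ 1 - ρ' by linarith)
        linarith
      · rw [max_eq_left a]
        have a5 : β * ρ' ≤ 2 := by
          have := mul_le_mul_of_nonneg_left r4 (show 0 ≤ β by linarith)
          linarith
        have := mul_le_mul_of_nonneg_right a5 a
        linarith) (1 / 2) (by norm_num) (by linarith)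
    linarith
  have GU1 : ∀ β, 0 < β → β ≤ 3 → g β 1 + β / 2 ≤ 2 * ε₀ := by
    intro β h1 h2
    have a1 := h.tail1 1 β 1 h1 zero_le_one
    have a2 := h.lower 0 β 1 h1 h2 zero_le_one (by linarith)
    have a3 := h.base3 β h1
    rw [h.b0] at a2
    simp only [zero_add] at a2
    linarith
  have GU1' : ∀ β, 0 < β → β ≤ 3 → g β (1 / 2) + β * (1 / 2) / 2 ≤ ε₀ := by
    intro β h1 h2
    have a1 := (h.convg β h1).2 (show (0 : ℝ) ∈ Ici (0 : ℝ) from self_mem_Ici)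
      (show (1 : ℝ) ∈ Ici (0 : ℝ) from (by simp)) (show (0 : ℝ) ≤ 1 / 2 by norm_num)
      (show (0 : ℝ) ≤ 1 / 2 by norm_num) (by norm_num)
    simp only [smul_eq_mul, mul_zero, zero_add, mul_one, h.zerog] at a1
    linarith [GU1 β h1 h2]
  have GU2 : g 2 (1 / 2) + 2 * (1 / 2) / 2 ≤ -(1 / 4) + ε₀ := by
    have a1 := h.tail1 1 2 2 two_pos zero_le_two
    have a2 := h.lower 0 2 2 two_pos (by norm_num) zero_le_two hΛ
    have a3 := h.base4 2 two_pos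
    rw [h.b0] at a2
    simp only [zero_add] at a2
    have a4 := (h.convg 2 two_pos).2 (show (0 : ℝ) ∈ Ici (0 : ℝ) from self_mem_Ici)
      (show (2 : ℝ) ∈ Ici (0 : ℝ) from (by simp)) (show (0 : ℝ) ≤ 3 / 4 by norm_num)
      (show (0 : ℝ) ≤ 1 / 4 by norm_num) (by norm_num)
    simp only [smul_eq_mul, mul_zero, zero_add, h.zerog] at a4
    rw [show (1 : ℝ) / 4 * 2 = 1 / 2 by norm_num] at a4
    linarith
  have h2Λ : 2 / Λ = 2 * (1 / Λ) := by ring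
  refine kink_of_dichotomy (a := 1 / Λ) hinv (by linarith) h.concg ?_ ?_ ?_
  · intro β₀ h1 h2
    refine hi_or_lo_zero (fun μ hμ => ?_)
    have hβ' := hs.β'pos
    refine dichotomy hΛ hθ hε₀ (by linarith) (by linarith) (by positivity) (by positivity)
      (by positivity) (by linarith) (by linarith [hs.θle, hs.β'le]) (by linarith) ?_ h.convg
      (h.zerog β₀) (W β₀ h1 h2) (GL1 β₀ h1 (by linarith)) (GU1 β₀ (by linarith) (by linarith)) hμ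
    have a1 : (θ + 2 * Λ) * (16 * Λ * ε₀ + 5 * Λ ^ 2 * ε₀) ≤
        (3 * Λ) * (16 * Λ * ε₀ + 5 * Λ ^ 2 * ε₀) :=
      mul_le_mul_of_nonneg_right (by linarith) (by positivity)
    linarith
  · intro hlo
    have a1 := hlo (1 / 2) (by norm_num) (by norm_num) (2 / Λ) (by linarith) (by linarith)
    have a2 := GL2 (2 / Λ) (by linarith) le_rfl
    have a3 := GU1' (1 / Λ) hinv (by linarith)
    have a4 : 200 * ε₀ < 1 / Λ := by rw [lt_div_iff₀ hΛ0]; linarith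
    linarith
  · intro hhi
    have a1 := hhi (1 / 2) (by norm_num) (by norm_num) (1 / Λ) hinv (by linarith)
    have a2 := GL2 (1 / Λ) le_rfl (by linarith)
    linarith

end Crest.Agent.R149
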