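import Crest.Agent.R149.Defs

/-! # Row 149: basic facts on `en`, `I`, `G` -/

namespace Crest.Agent.R149

open MeasureTheory Crest.ProbabilityR.Continuum
open scoped ENNReal

theorem energy_eq_en (φ : ℝ → ℝ) {N : ℕ} (x : Fin N → Pt) : energy φ x = en φ x := by
  unfold energy en
  have h1 : ∑ p : {p : Fin N × Fin N // p.1 < p.2}, φ (dist (x p.1.1) (x p.1.2)) =
      ∑ i, ∑ j, if i < j then φ (dist (x i) (x j)) else 0 := by
    rw [← Finset.sum_subtype (Finset.univ.filter fun p : Fin N × Fin N => p.1 < p.2) (by simp)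
      (fun p : Fin N × Fin N => φ (dist (x p.1) (x p.2))), Finset.sum_filter, Fintype.sum_prod_type]
  have h2 : ∑ i, ∑ j, (if j < i then φ (dist (x i) (x j)) else 0) =
      ∑ i, ∑ j, if i < j then φ (dist (x i) (x j)) else 0 := by
    rw [Finset.sum_comm]
    refine Finset.sum_congr rfl fun i _ => Finset.sum_congr rfl fun j _ => ?_
    rw [dist_comm]
  rw [h1, eq_comm, one_div, inv_mul_eq_iff_eq_mul₀ two_ne_zero, two_mul]
  nth_rewrite 2 [← h2]
  rw [← Finset.sum_add_distrib]
  refine Finset.sum_congr rfl fun i _ => ?_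
  rw [← Finset.sum_add_distrib]
  refine Finset.sum_congr rfl fun j _ => ?_
  rcases lt_trichotomy i j with h | h | h
  · simp [h, h.ne, h.not_gt]
  · simp [h]
  · simp [h, h.ne', h.not_gt]

theorem measurable_en {φ : ℝ → ℝ} (hφ : Measurable φ) (ι : Type) [Fintype ι] :
    Measurable (fun x : ι → Pt => en φ x) := by
  unfold en
  refine Measurable.const_mul (Finset.measurable_sum _ fun i _ =>
    Finset.measurable_sum _ fun j _ => ?_) _
  split_ifs
  · exact measurable_const
  · exact hφ.comp ((measurable_pi_apply i).dist (measurable_pi_apply j))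

theorem en_reindex (φ : ℝ → ℝ) {ι κ : Type} [Fintype ι] [Fintype κ] (e : ι ≃ κ) (x : κ → Pt) :
    en φ (fun i => x (e i)) = en φ x := by
  unfold en
  congr 1
  refine Fintype.sum_equiv e _ _ fun i => Fintype.sum_equiv e _ _ fun j => ?_
  by_cases h : i = j
  · simp [h]
  · rw [if_neg h, if_neg (e.injective.ne h)]

theorem en_sub (φ ψ : ℝ → ℝ) {ι : Type} [Fintype ι] (x : ι → Pt) :
    en (fun r => φ r - ψ r) x = en φ x - en ψ x := by
  unfold en
  rw [← mul_sub, ← Finset.sum_sub_distrib]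
  congr 1
  refine Finset.sum_congr rfl fun i _ => ?_
  rw [← Finset.sum_sub_distrib]
  refine Finset.sum_congr rfl fun j _ => ?_
  split_ifs <;> simp

theorem en_add (φ ψ : ℝ → ℝ) {ι : Type} [Fintype ι] (x : ι → Pt) :
    en (fun r => φ r + ψ r) x = en φ x + en ψ x := by
  unfold en
  rw [← mul_add, ← Finset.sum_add_distrib]
  congr 1
  refine Finset.sum_congr rfl fun i _ => ?_
  rw [← Finset.sum_add_distrib]
  refine Finset.sum_congr rfl fun j _ => ?_
  split_ifs <;> simp

theorem en_mul (a : ℝ) (φ : ℝ → ℝ) {ι : Type} [Fintype ι] (x : ι → Pt) :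
    en (fun r => a * φ r) x = a * en φ x := by
  unfold en
  rw [mul_left_comm]
  congr 1
  rw [Finset.mul_sum]
  refine Finset.sum_congr rfl fun i _ => ?_
  rw [Finset.mul_sum]
  refine Finset.sum_congr rfl fun j _ => ?_
  split_ifs <;> simp

theorem en_mono {φ ψ : ℝ → ℝ} (h : ∀ r, φ r ≤ ψ r) {ι : Type} [Fintype ι] (x : ι → Pt) :
    en φ x ≤ en ψ x := by
  unfold en
  refine mul_le_mul_of_nonneg_left
    (Finset.sum_le_sum fun i _ => Finset.sum_le_sum fun j _ => ?_) (by norm_num)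
  split_ifs
  · exact le_rfl
  · exact h _

theorem en_nonneg {φ : ℝ → ℝ} (h : ∀ r, 0 ≤ φ r) {ι : Type} [Fintype ι] (x : ι → Pt) :
    0 ≤ en φ x := by
  unfold en
  refine mul_nonneg (by norm_num) (Finset.sum_nonneg fun i _ => Finset.sum_nonneg fun j _ => ?_)
  split_ifs
  · exact le_rfl
  · exact h _

theorem Adm.stable' {φ : ℝ → ℝ} {B : ℝ} (h : Adm φ B) {ι : Type} [Fintype ι] (x : ι → Pt) :
    -B * Fintype.card ι ≤ en φ x := by
  rw [← en_reindex φ (Fintype.equivFin ι).symm x]
  exact h.stable _ _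

theorem bs_cube_eq (L : ℝ) : cube L =
    (WithLp.ofLp : Pt → Fin 3 → ℝ) ⁻¹' Set.pi Set.univ fun _ => Set.Icc 0 L := by
  ext z
  exact ⟨fun h k _ => h k, fun h k => h k (Set.mem_univ k)⟩

theorem bs_measurable_weight {φ : ℝ → ℝ} (hφ : Measurable φ) (β : ℝ) (ι : Type) [Fintype ι] :
    Measurable fun x : ι → Pt => ENNReal.ofReal (Real.exp (-β * en φ x)) :=
  ((measurable_en hφ ι).const_mul _).exp.ennreal_ofReal

theorem measurableSet_cube (L : ℝ) : MeasurableSet (cube L) := by
  rw [bs_cube_eq]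
  exact (PiLp.volume_preserving_ofLp (Fin 3)).measurable
    (MeasurableSet.univ_pi fun _ => measurableSet_Icc)

theorem volume_cube {L : ℝ} (hL : 0 ≤ L) : volume (cube L) = ENNReal.ofReal (L ^ 3) := by
  rw [bs_cube_eq, (PiLp.volume_preserving_ofLp (Fin 3)).measure_preimage
    (MeasurableSet.univ_pi fun _ => measurableSet_Icc).nullMeasurableSet, volume_pi_pi]
  simp [ENNReal.ofReal_pow hL]

theorem volume_pi_cube {L : ℝ} (hL : 0 ≤ L) (ι : Type) [Fintype ι] :
    volume (Set.pi Set.univ (fun _ : ι => cube L)) = ENNReal.ofReal ((L ^ 3) ^ Fintype.card ι) := by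
  rw [volume_pi_pi, Finset.prod_const, Finset.card_univ, volume_cube hL,
    ← ENNReal.ofReal_pow (by positivity)]

theorem I_congr_card {φ : ℝ → ℝ} (hφ : Measurable φ) (β : ℝ) {Λ : Set Pt} (hΛ : MeasurableSet Λ)
    {ι : Type} [Fintype ι] {N : ℕ} (h : Fintype.card ι = N) : I φ β Λ ι = I φ β Λ (Fin N) := by
  let e : ι ≃ Fin N := Fintype.equivFinOfCardEq h
  have hmp := volume_preserving_arrowCongr' e (MeasurableEquiv.refl Pt) (MeasurePreserving.id _)
  have happ : ∀ (x : ι → Pt) (k : Fin N),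
      MeasurableEquiv.arrowCongr' e (MeasurableEquiv.refl Pt) x k = x (e.symm k) := fun _ _ => rfl
  unfold I
  rw [← hmp.setLIntegral_comp_preimage (MeasurableSet.univ_pi fun _ => hΛ)
    (bs_measurable_weight hφ β (Fin N))]
  have hset : MeasurableEquiv.arrowCongr' e (MeasurableEquiv.refl Pt) ⁻¹'
      (Set.pi Set.univ fun _ : Fin N => Λ) = Set.pi Set.univ fun _ : ι => Λ := by
    ext x
    simp only [Set.mem_preimage, Set.mem_pi, Set.mem_univ, true_imp_iff, happ]
    exact ⟨fun hx i => by simpa using hx (e i), fun hx k => hx _⟩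
  rw [hset]
  refine lintegral_congr fun x => ?_
  rw [← en_reindex φ e.symm x]
  rfl

theorem I_translate {φ : ℝ → ℝ} (hφ : Measurable φ) (β : ℝ) {Λ : Set Pt} (hΛ : MeasurableSet Λ)
    (v : Pt) (ι : Type) [Fintype ι] : I φ β {y | y - v ∈ Λ} ι = I φ β Λ ι := by
  have hmp : MeasurePreserving (fun x : ι → Pt => x + fun _ => -v) volume volume :=
    measurePreserving_add_right volume _
  unfold I
  rw [← hmp.setLIntegral_comp_preimage (MeasurableSet.univ_pi fun _ => hΛ)
    (bs_measurable_weight hφ β ι)]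
  have hset : (fun x : ι → Pt => x + fun _ => -v) ⁻¹' (Set.pi Set.univ fun _ : ι => Λ) =
      Set.pi Set.univ fun _ : ι => {y | y - v ∈ Λ} := by
    ext x
    simp [sub_eq_add_neg]
  rw [hset]
  refine lintegral_congr fun x => ?_
  unfold en
  simp only [Pi.add_apply, dist_add_right]

theorem bs_integrableOn {φ : ℝ → ℝ} {B : ℝ} (h : Adm φ B) {β L : ℝ} (hβ : 0 ≤ β) (hL : 0 < L)
    (N : ℕ) : IntegrableOn (fun x : Fin N → Pt => Real.exp (-β * energy φ x))
      (Set.pi Set.univ fun _ : Fin N => cube L) := by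
  simp only [energy_eq_en]
  refine Measure.integrableOn_of_bounded (M := Real.exp (β * (B * N))) ?_
    ((measurable_en h.meas (Fin N)).const_mul _).exp.aestronglyMeasurable
    (ae_of_all _ fun x => ?_)
  · rw [volume_pi_cube hL.le]; exact ENNReal.ofReal_ne_top
  · rw [Real.norm_eq_abs, abs_of_pos (Real.exp_pos _)]
    refine Real.exp_le_exp.2 ?_
    have := h.stable N x
    nlinarith

theorem partitionFn_pos {φ : ℝ → ℝ} {B : ℝ} (h : Adm φ B) {β L : ℝ} (hβ : 0 ≤ β) (hL : 0 < L)
    (N : ℕ) : 0 < partitionFn φ L N β := by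
  unfold partitionFn
  refine mul_pos (by positivity) ?_
  have : NeZero (volume.restrict (Set.pi Set.univ fun _ : Fin N => cube L)) := by
    refine ⟨fun h0 => ?_⟩
    rw [Measure.restrict_eq_zero, volume_pi_cube hL.le, ENNReal.ofReal_eq_zero] at h0
    exact absurd h0 (not_le.2 (by positivity))
  exact integral_exp_pos (bs_integrableOn h hβ hL N)

/-- The bridge between the lower integral and the statement's partition function. -/
theorem I_eq {φ : ℝ → ℝ} {B : ℝ} (h : Adm φ B) {β L : ℝ} (hβ : 0 ≤ β) (hL : 0 < L) (N : ℕ) :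
    I φ β (cube L) (Fin N) = ENNReal.ofReal (N.factorial * Real.exp (-G φ β L N)) := by
  unfold G
  rw [neg_neg, Real.exp_log (partitionFn_pos h hβ hL N)]
  unfold partitionFn I
  rw [← mul_assoc, mul_one_div_cancel (by positivity), one_mul,
    ofReal_integral_eq_lintegral_ofReal (bs_integrableOn h hβ hL N)
      (ae_of_all _ fun x => (Real.exp_pos _).le)]
  simp only [energy_eq_en]

theorem G_zero (φ : ℝ → ℝ) (β L : ℝ) : G φ β L 0 = 0 := by
  unfold G partitionFn
  have h1 : (Set.pi Set.univ fun _ : Fin 0 => cube L) = Set.univ := by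
    ext x; simp
  have h2 : ∀ x : Fin 0 → Pt, energy φ x = 0 := fun x => by simp [energy]
  have h3 : volume (Set.univ : Set (Fin 0 → Pt)) = 1 := by
    rw [← Set.pi_univ Set.univ, volume_pi_pi]; simp
  simp [h1, h2, measureReal_def, h3]

/-- An upper bound for the lower integral gives a lower bound for `G`. -/
theorem le_G_of_I_le {φ : ℝ → ℝ} {B : ℝ} (h : Adm φ B) {β L : ℝ} (hβ : 0 ≤ β) (hL : 0 < L) {N : ℕ}
    {a : ℝ} (ha : I φ β (cube L) (Fin N) ≤ ENNReal.ofReal (N.factorial * Real.exp (-a))) :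
    a ≤ G φ β L N := by
  rw [I_eq h hβ hL, ENNReal.ofReal_le_ofReal_iff (by positivity)] at ha
  have h1 := le_of_mul_le_mul_left ha (by positivity : (0 : ℝ) < N.factorial)
  linarith [Real.exp_le_exp.1 h1]

/-- A lower bound for the lower integral gives an upper bound for `G`. -/
theorem G_le_of_le_I {φ : ℝ → ℝ} {B : ℝ} (h : Adm φ B) {β L : ℝ} (hβ : 0 ≤ β) (hL : 0 < L) {N : ℕ}
    {a : ℝ} (ha : ENNReal.ofReal (N.factorial * Real.exp (-a)) ≤ I φ β (cube L) (Fin N)) :
    G φ β L N ≤ a := by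
  rw [I_eq h hβ hL, ENNReal.ofReal_le_ofReal_iff (by positivity)] at ha
  have h1 := le_of_mul_le_mul_left ha (by positivity : (0 : ℝ) < N.factorial)
  linarith [Real.exp_le_exp.1 h1]

/-- `V ^ N / N! ≤ exp V`: a lower bound for the energy gives a lower bound for `G`. -/
theorem G_lower {φ : ℝ → ℝ} {B : ℝ} (h : Adm φ B) {β L : ℝ} (hβ : 0 ≤ β) (hL : 0 < L) {N : ℕ}
    {E : ℝ} (hE : ∀ x : Fin N → Pt, (∀ i, x i ∈ cube L) → E ≤ en φ x) :
    -L ^ 3 + β * E ≤ G φ β L N := by
  refine le_G_of_I_le h hβ hL ?_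
  unfold I
  calc ∫⁻ x in Set.pi Set.univ (fun _ : Fin N => cube L), ENNReal.ofReal (Real.exp (-β * en φ x))
      ≤ ∫⁻ _ in Set.pi Set.univ (fun _ : Fin N => cube L), ENNReal.ofReal (Real.exp (-β * E)) := by
        refine setLIntegral_mono' (MeasurableSet.univ_pi fun _ => measurableSet_cube L)
          fun x hx => ENNReal.ofReal_le_ofReal (Real.exp_le_exp.2 ?_)
        have := hE x fun i => hx i (Set.mem_univ i)
        nlinarith
    _ = ENNReal.ofReal (Real.exp (-β * E) * (L ^ 3) ^ N) := by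
        rw [setLIntegral_const, volume_pi_cube hL.le, Fintype.card_fin,
          ENNReal.ofReal_mul (Real.exp_pos _).le]
    _ ≤ _ := by
        refine ENNReal.ofReal_le_ofReal ?_
        have h1 := Real.pow_div_factorial_le_exp (L ^ 3) (by positivity) N
        rw [div_le_iff₀ (by positivity)] at h1
        have e : Real.exp (-(-L ^ 3 + β * E)) = Real.exp (-β * E) * Real.exp (L ^ 3) := by
          rw [← Real.exp_add]; congr 1; ring
        rw [e]
        have := mul_le_mul_of_nonneg_left h1 (Real.exp_pos (-β * E)).le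
        linarith

/-- Pointwise comparison of Boltzmann exponents. -/
theorem G_compare {φ ψ : ℝ → ℝ} {B B' : ℝ} (h : Adm φ B) (h' : Adm ψ B') {β β' L : ℝ}
    (hβ : 0 ≤ β) (hβ' : 0 ≤ β') (hL : 0 < L) {N : ℕ} {w : ℝ}
    (hw : ∀ x : Fin N → Pt, (∀ i, x i ∈ cube L) → β * en φ x ≤ β' * en ψ x + w) :
    G φ β L N ≤ G ψ β' L N + w := by
  refine G_le_of_le_I h hβ hL ?_
  have e : ENNReal.ofReal (N.factorial * Real.exp (-(G ψ β' L N + w))) =
      ENNReal.ofReal (Real.exp (-w)) * I ψ β' (cube L) (Fin N) := by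
    rw [I_eq h' hβ' hL, ← ENNReal.ofReal_mul (Real.exp_pos _).le, neg_add, Real.exp_add]
    congr 1; ring
  rw [e]
  unfold I
  rw [← lintegral_const_mul _ (bs_measurable_weight h'.meas β' (Fin N))]
  refine setLIntegral_mono' (MeasurableSet.univ_pi fun _ => measurableSet_cube L) fun x hx => ?_
  rw [← ENNReal.ofReal_mul (Real.exp_pos _).le, ← Real.exp_add]
  refine ENNReal.ofReal_le_ofReal (Real.exp_le_exp.2 ?_)
  have := hw x fun i => hx i (Set.mem_univ i)
  linarith

/-- Hoelder's inequality. -/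
theorem G_concave {φ : ℝ → ℝ} {B : ℝ} (h : Adm φ B) {L : ℝ} (hL : 0 < L) (N : ℕ) :
    ConcaveOn ℝ (Set.Ioi 0) (fun β => G φ β L N) := by
  refine ⟨convex_Ioi 0, fun β₁ h₁ β₂ h₂ a b ha hb hab => ?_⟩
  have h₁' : 0 < β₁ := h₁
  have h₂' : 0 < β₂ := h₂
  simp only [smul_eq_mul]
  refine le_G_of_I_le h (by positivity) hL ?_
  have h1 := ENNReal.lintegral_mul_norm_pow_le
    (μ := volume.restrict (Set.pi Set.univ fun _ : Fin N => cube L))
    (bs_measurable_weight h.meas β₁ (Fin N)).aemeasurable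
    (bs_measurable_weight h.meas β₂ (Fin N)).aemeasurable ha hb hab
  have e1 : I φ (a * β₁ + b * β₂) (cube L) (Fin N) =
      ∫⁻ x in Set.pi Set.univ (fun _ : Fin N => cube L),
        ENNReal.ofReal (Real.exp (-β₁ * en φ x)) ^ a *
          ENNReal.ofReal (Real.exp (-β₂ * en φ x)) ^ b := by
    unfold I
    refine lintegral_congr fun x => ?_
    rw [ENNReal.ofReal_rpow_of_pos (Real.exp_pos _), ENNReal.ofReal_rpow_of_pos (Real.exp_pos _),
      ← ENNReal.ofReal_mul (by positivity), ← Real.exp_mul, ← Real.exp_mul, ← Real.exp_add]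
    congr 2; ring
  rw [e1]
  refine h1.trans (le_of_eq ?_)
  change I φ β₁ (cube L) (Fin N) ^ a * I φ β₂ (cube L) (Fin N) ^ b = _
  have hN : (0 : ℝ) < N.factorial := by positivity
  rw [I_eq h h₁'.le hL, I_eq h h₂'.le hL, ENNReal.ofReal_rpow_of_pos (by positivity),
    ENNReal.ofReal_rpow_of_pos (by positivity), ← ENNReal.ofReal_mul (by positivity),
    Real.mul_rpow hN.le (Real.exp_pos _).le, Real.mul_rpow hN.le (Real.exp_pos _).le,
    ← Real.exp_mul, ← Real.exp_mul, mul_mul_mul_comm, ← Real.rpow_add hN, hab, Real.rpow_one,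
    ← Real.exp_add]
  congr 3; ring

end Crest.Agent.R149
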