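import Crest.Agent.R149.Superadd

/-! # Row 149: decoupling into grid cells (upper bounds for the partition function) -/

namespace Crest.Agent.R149

open MeasureTheory Crest.ProbabilityR.Continuum
open scoped ENNReal

theorem cl_floor_unique {u u' : ℝ} (huu : |u - u'| < 1) {w : ℕ} (hw : 0 < w) {s s' : ℕ}
    (hs : s < w) (hs' : s' < w) (h1 : ⌊(u + s) / w⌋ ≠ ⌊(u' + s) / w⌋)
    (h2 : ⌊(u + s') / w⌋ ≠ ⌊(u' + s') / w⌋) : s = s' := by
  wlog hle : u ≤ u' generalizing u u'
  · exact this (by rwa [abs_sub_comm]) h1.symm h2.symm (le_of_not_ge hle)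
  have hw' : (0 : ℝ) < w := by exact_mod_cast hw
  have key : ∀ r : ℕ, ⌊(u + r) / w⌋ ≠ ⌊(u' + r) / w⌋ → ∃ q : ℤ, q * w - r = ⌊u⌋ + 1 := by
    intro r hr
    refine ⟨⌊(u' + r) / w⌋, ?_⟩
    have h3 : ⌊(u + r) / w⌋ < ⌊(u' + r) / w⌋ :=
      lt_of_le_of_ne (Int.floor_mono (div_le_div_of_nonneg_right (by linarith) hw'.le)) hr
    rw [Int.floor_lt, div_lt_iff₀ hw'] at h3
    have h4 := Int.floor_le ((u' + r) / w)
    rw [le_div_iff₀ hw'] at h4
    have h5 := (abs_lt.1 huu).1
    have h6 : ⌊u⌋ = ⌊(u' + r) / w⌋ * w - r - 1 := by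
      rw [Int.floor_eq_iff]
      push_cast
      constructor <;> linarith
    omega
  obtain ⟨q, hq⟩ := key s h1
  obtain ⟨q', hq'⟩ := key s' h2
  have h3 : (q - q') * (w : ℤ) = (s : ℤ) - s' := by linarith
  have hw1 : (0 : ℤ) < w := by exact_mod_cast hw
  have h4 : q - q' = 0 := by
    by_contra hne
    rcases lt_or_gt_of_ne hne with h | h
    · have : (q - q') * (w : ℤ) ≤ -1 * w := mul_le_mul_of_nonneg_right (by omega) hw1.le
      omega
    · have : 1 * (w : ℤ) ≤ (q - q') * w := mul_le_mul_of_nonneg_right (by omega) hw1.le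
      omega
  rw [h4] at h3
  omega

open Classical in
theorem cl_count_shift {h : ℝ} (hh : 0 < h) {w : ℕ} (hw : 0 < w) {y y' : Pt} (hd : dist y y' < h) :
    ∑ s ∈ Finset.range w,
      (if idx (w * h) (s * h) y = idx (w * h) (s * h) y' then (0 : ℝ) else 1) ≤ 3 := by
  have hw' : (0 : ℝ) < w := by exact_mod_cast hw
  have hidx : ∀ (s : ℕ) (z : Pt) (k : Fin 3), idx (w * h) (s * h) z k = ⌊(z k / h + s) / w⌋ := by
    intro s z k
    unfold idx
    congr 1
    field_simp
  have h1 : ∀ s : ℕ, (if idx (w * h) (s * h) y = idx (w * h) (s * h) y' then (0 : ℝ) else 1) ≤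
      ∑ k : Fin 3, if ⌊(y k / h + s) / w⌋ ≠ ⌊(y' k / h + s) / w⌋ then (1 : ℝ) else 0 := by
    intro s
    have h0 : ∀ k : Fin 3, k ∈ Finset.univ →
        0 ≤ if ⌊(y k / h + s) / w⌋ ≠ ⌊(y' k / h + s) / w⌋ then (1 : ℝ) else 0 :=
      fun k _ => by split_ifs <;> norm_num
    split_ifs with hs
    · exact Finset.sum_nonneg h0
    · obtain ⟨k, hk⟩ := Function.ne_iff.1 hs
      rw [hidx, hidx] at hk
      refine le_trans ?_ (Finset.single_le_sum h0 (Finset.mem_univ k))
      rw [if_pos hk]
  refine (Finset.sum_le_sum fun s _ => h1 s).trans ?_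
  rw [Finset.sum_comm]
  have h2 : ∀ k : Fin 3, ∑ s ∈ Finset.range w,
      (if ⌊(y k / h + s) / w⌋ ≠ ⌊(y' k / h + s) / w⌋ then (1 : ℝ) else 0) ≤ 1 := by
    intro k
    rw [Finset.sum_boole]
    have h3 : |y k / h - y' k / h| < 1 := by
      rw [← sub_div, abs_div, abs_of_pos hh, div_lt_one hh, ← Real.dist_eq]
      exact (PiLp.dist_apply_le y y' k).trans_lt hd
    have h4 : ((Finset.range w).filter fun s : ℕ =>
        ⌊(y k / h + s) / w⌋ ≠ ⌊(y' k / h + s) / w⌋).card ≤ 1 := by
      refine Finset.card_le_one.2 fun s hs s' hs' => ?_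
      rw [Finset.mem_filter, Finset.mem_range] at hs hs'
      exact cl_floor_unique h3 hw hs.1 hs'.1 hs.2 hs'.2
    exact_mod_cast h4
  refine (Finset.sum_le_sum fun k _ => h2 k).trans ?_
  simp

open Classical in
theorem cl_en_sub_enSame (ψ : ℝ → ℝ) (m t : ℝ) {ι : Type} [Fintype ι] (x : ι → Pt) :
    en ψ x - enSame ψ m t x = (1 / 2) * ∑ i, ∑ j, if i = j then 0 else
      (if idx m t (x i) = idx m t (x j) then (0 : ℝ) else 1) * ψ (dist (x i) (x j)) := by
  unfold en enSame
  rw [← mul_sub, ← Finset.sum_sub_distrib]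
  congr 1
  refine Finset.sum_congr rfl fun i _ => ?_
  rw [← Finset.sum_sub_distrib]
  refine Finset.sum_congr rfl fun j _ => ?_
  split_ifs <;> simp

/-- Averaging over the `w` diagonal shifts `s * h` of the grid of side `w * h`: for some shift the
energy of the pairs in different cells is at most a fraction `3 / w` of the whole energy. -/
theorem exists_shift {ψ : ℝ → ℝ} (hψ : ∀ r, 0 ≤ ψ r) {h : ℝ} (hh : 0 < h)
    (hψh : ∀ r, h ≤ r → ψ r = 0) {w : ℕ} (hw : 0 < w) {ι : Type} [Fintype ι] (x : ι → Pt) :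
    ∃ s : ℕ, s < w ∧ en ψ x - enSame ψ (w * h) (s * h) x ≤ 3 / w * en ψ x := by
  classical
  have hw' : (0 : ℝ) < w := by exact_mod_cast hw
  have h1 : ∑ s ∈ Finset.range w, (en ψ x - enSame ψ (w * h) (s * h) x) ≤
      ∑ _s ∈ Finset.range w, 3 / w * en ψ x := by
    rw [Finset.sum_const, Finset.card_range, nsmul_eq_mul, ← mul_assoc,
      mul_div_cancel₀ _ hw'.ne']
    simp only [cl_en_sub_enSame]
    unfold en
    rw [← Finset.mul_sum, mul_left_comm]
    refine mul_le_mul_of_nonneg_left ?_ (by norm_num)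
    rw [Finset.sum_comm, Finset.mul_sum]
    refine Finset.sum_le_sum fun i _ => ?_
    rw [Finset.sum_comm, Finset.mul_sum]
    refine Finset.sum_le_sum fun j _ => ?_
    by_cases hij : i = j
    · simp [hij]
    · simp only [if_neg hij]
      rw [← Finset.sum_mul]
      by_cases hd : dist (x i) (x j) < h
      · exact mul_le_mul_of_nonneg_right (cl_count_shift hh hw hd) (hψ _)
      · rw [hψh _ (not_lt.1 hd)]; simp
  obtain ⟨s, hs, hs'⟩ := Finset.exists_le_of_sum_le (Finset.nonempty_range_iff.2 hw.ne') h1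
  exact ⟨s, Finset.mem_range.1 hs, hs'⟩

/-- Dropping the pairs in different cells. -/
theorem enSame_sub_le_en {φ ψ : ℝ → ℝ} (hφψ : ∀ r, -ψ r ≤ φ r) (m t : ℝ) {ι : Type} [Fintype ι]
    (x : ι → Pt) : enSame φ m t x - (en ψ x - enSame ψ m t x) ≤ en φ x := by
  have h1 : 0 ≤ (en φ x - enSame φ m t x) + (en ψ x - enSame ψ m t x) := by
    rw [cl_en_sub_enSame, cl_en_sub_enSame, ← mul_add, ← Finset.sum_add_distrib]
    refine mul_nonneg (by norm_num) (Finset.sum_nonneg fun i _ => ?_)
    rw [← Finset.sum_add_distrib]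
    refine Finset.sum_nonneg fun j _ => ?_
    have := hφψ (dist (x i) (x j))
    split_ifs
    · simp
    · simp
    · linarith
  linarith

theorem cl_measurable_idx (m t : ℝ) : Measurable (idx m t) :=
  measurable_pi_lambda _ fun k => Measurable.floor (by fun_prop)

theorem cl_measurableSet_same (m t : ℝ) {ι : Type} (i j : ι) :
    MeasurableSet {x : ι → Pt | idx m t (x i) = idx m t (x j)} :=
  measurableSet_eq_fun ((cl_measurable_idx m t).comp (measurable_pi_apply i))
    ((cl_measurable_idx m t).comp (measurable_pi_apply j))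

theorem measurable_enSame {φ : ℝ → ℝ} (hφ : Measurable φ) (m t : ℝ) (ι : Type) [Fintype ι] :
    Measurable (fun x : ι → Pt => enSame φ m t x) := by
  unfold enSame
  refine Measurable.const_mul (Finset.measurable_sum _ fun i _ =>
    Finset.measurable_sum _ fun j _ => ?_) _
  by_cases hij : i = j
  · simp only [if_pos hij]; exact measurable_const
  · simp only [if_neg hij]
    exact Measurable.ite (cl_measurableSet_same m t i j)
      (hφ.comp ((measurable_pi_apply i).dist (measurable_pi_apply j))) measurable_const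

theorem measurable_same (m t : ℝ) (ι : Type) [Fintype ι] :
    Measurable (fun x : ι → Pt => same m t x) := by
  unfold same
  exact Finset.measurable_sum _ fun i _ => Finset.measurable_sum _ fun j _ =>
    Measurable.ite (cl_measurableSet_same m t i j) measurable_const measurable_const

theorem cl_sum_fibres {ι C : Type} [Fintype ι] [Fintype C] [DecidableEq C] (f : ι → C)
    (g : ι → ι → ℝ) : ∑ i, ∑ j, (if f i = f j then g i j else 0) =
      ∑ c, ∑ i : {i // f i = c}, ∑ j : {i // f i = c}, g i.1 j.1 := by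
  rw [← Fintype.sum_fiberwise f]
  refine Finset.sum_congr rfl fun c _ => Finset.sum_congr rfl fun i _ => ?_
  rw [← Finset.sum_filter, Finset.sum_subtype (p := fun j => f j = c) _ (fun j => by
    simp [i.2, eq_comm]) (fun j => g i.1 j)]

theorem cl_sum_prod_factorial (C : Type) [Fintype C] [DecidableEq C] (N : ℕ) :
    ∑ f : Fin N → C, ∏ c, (Fintype.card {i // f i = c}).factorial =
      (Fintype.card C).ascFactorial N := by
  have hcard : ∀ (N : ℕ) (f : Fin N → C) (c : C),
      Fintype.card {i // f i = c} = ∑ i, if f i = c then 1 else 0 := by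
    intro N f c
    rw [Fintype.card_subtype, Finset.card_filter]
  simp only [hcard]
  induction N with
  | zero => simp
  | succ N ih =>
    rw [← (Fin.consEquiv fun _ : Fin (N + 1) => C).sum_comp, Fintype.sum_prod_type,
      Finset.sum_comm, Nat.ascFactorial_succ, ← ih, Finset.mul_sum]
    refine Finset.sum_congr rfl fun f _ => ?_
    have h1 : ∀ a : C, ∏ c, (∑ i, if (Fin.consEquiv fun _ : Fin (N + 1) => C) (a, f) i = c
        then 1 else 0).factorial =
        ((∑ i, if f i = a then 1 else 0) + 1) * ∏ c, (∑ i, if f i = c then 1 else 0).factorial := by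
      intro a
      simp only [Fin.consEquiv_apply, Fin.sum_univ_succ, Fin.cons_zero, Fin.cons_succ]
      rw [← Finset.mul_prod_erase _ _ (Finset.mem_univ a),
        ← Finset.mul_prod_erase _ _ (Finset.mem_univ a), if_pos rfl, add_comm 1,
        Nat.factorial_succ, mul_assoc]
      congr 2
      refine Finset.prod_congr rfl fun c hc => ?_
      rw [if_neg (Finset.ne_of_mem_erase hc).symm, zero_add]
    rw [Finset.sum_congr rfl fun a _ => h1 a, ← Finset.sum_mul, Finset.sum_add_distrib,
      Finset.sum_comm]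
    simp [add_comm]

theorem cl_sum_prod_factorial_le (C : Type) [Fintype C] [DecidableEq C] (N : ℕ) {τ : ℝ}
    (hτ : 0 < τ) : ∑ f : Fin N → C, ∏ c, ((Fintype.card {i // f i = c}).factorial : ℝ) ≤
      N.factorial * (Real.exp ((N + (Fintype.card C : ℝ)) * τ) / τ ^ Fintype.card C) := by
  set M := Fintype.card C
  have h1 : ∑ f : Fin N → C, ∏ c, ((Fintype.card {i // f i = c}).factorial : ℝ) =
      (M.ascFactorial N : ℝ) := by
    rw [← cl_sum_prod_factorial C N]
    push_cast
    rfl
  have h2 : M.ascFactorial N ≤ N.factorial * (M + N).choose M := by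
    rw [Nat.choose_symm_add, ← Nat.ascFactorial_eq_factorial_mul_choose]
    exact Nat.ascFactorial_le N (Nat.le_succ M)
  have h3 : ((M + N).choose M : ℝ) * τ ^ M ≤ Real.exp ((N + (M : ℝ)) * τ) := by
    have h4 := add_pow τ 1 (M + N)
    have h5 := Finset.single_le_sum
      (f := fun k => τ ^ k * 1 ^ (M + N - k) * ((M + N).choose k : ℝ))
      (s := Finset.range (M + N + 1)) (fun k _ => by positivity)
      (Finset.mem_range.2 (by omega : M < M + N + 1))
    rw [← h4] at h5
    have h6 : (τ + 1) ^ (M + N) ≤ Real.exp τ ^ (M + N) :=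
      pow_le_pow_left₀ (by positivity) (Real.add_one_le_exp τ) _
    rw [← Real.exp_nat_mul] at h6
    push_cast at h6
    simp only [one_pow, mul_one] at h5
    rw [add_comm (N : ℝ)]
    linarith
  rw [h1]
  have h4 : (M.ascFactorial N : ℝ) ≤ N.factorial * ((M + N).choose M : ℝ) := by exact_mod_cast h2
  refine h4.trans (mul_le_mul_of_nonneg_left ?_ (Nat.cast_nonneg _))
  rwa [le_div_iff₀ (by positivity)]

/-- The decoupled integral: `M = (⌊L/m⌋ + 2) ^ 3` cells of side `m` cover `cube L`. -/
theorem cells_upper {φ : ℝ → ℝ} {B : ℝ} (h : Adm φ B) {β m t L ν γ S τ : ℝ} (hβ : 0 ≤ β)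
    (hm : 0 < m) (ht0 : 0 ≤ t) (htm : t ≤ m) (hL : 0 < L) (hτ : 0 < τ)
    (hS : ∀ n : ℕ, ν * n + γ * (n : ℝ) ^ 2 - G φ β m n ≤ S) (N : ℕ) :
    ∫⁻ x in Set.pi Set.univ (fun _ : Fin N => cube L),
        ENNReal.ofReal (Real.exp (ν * N - β * enSame φ m t x + γ * same m t x)) ≤
      ENNReal.ofReal (N.factorial * Real.exp ((N + ((⌊L / m⌋₊ + 2 : ℕ) : ℝ) ^ 3) * τ +
        ((⌊L / m⌋₊ + 2 : ℕ) : ℝ) ^ 3 * (S - Real.log τ))) := by
  classical
  set K : ℕ := ⌊L / m⌋₊ + 2 with hK
  let C : Type := Fin 3 → Fin K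
  let emb : C → Fin 3 → ℤ := fun c k => ((c k : ℕ) : ℤ)
  have hemb : Function.Injective emb := by
    intro c c' hcc'
    funext k
    have := congrFun hcc' k
    simp only [emb] at this
    exact Fin.ext (by exact_mod_cast this)
  have hcell : ∀ y ∈ cube L, ∃ c : C, idx m t y = emb c := by
    intro y hy
    have hk : ∀ k, ∃ a : Fin K, idx m t y k = ((a : ℕ) : ℤ) := by
      intro k
      have h1 := hy k
      have h2 : 0 ≤ idx m t y k := Int.floor_nonneg.2 (div_nonneg (by linarith [h1.1]) hm.le)
      have h3 : idx m t y k < K := by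
        unfold idx
        rw [Int.floor_lt, hK]
        have h4 := Nat.lt_floor_add_one (L / m)
        have h5 : (y k + t) / m ≤ L / m + 1 := by
          rw [div_add_one hm.ne']
          exact div_le_div_of_nonneg_right (by linarith [h1.2]) hm.le
        push_cast
        linarith
      refine ⟨⟨(idx m t y k).toNat, by omega⟩, ?_⟩
      simp only
      omega
    choose a ha using hk
    exact ⟨a, funext ha⟩
  let Q : C → Set Pt := fun c => {y | idx m t y = emb c}
  have hQm : ∀ c, MeasurableSet (Q c) := fun c =>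
    measurableSet_eq_fun (cl_measurable_idx m t) measurable_const
  let n : (Fin N → C) → C → ℕ := fun f c => Fintype.card {i // f i = c}
  let W : ∀ (f : Fin N → C) (c : C), ({i // f i = c} → Pt) → ℝ≥0∞ := fun f c z =>
    ENNReal.ofReal (Real.exp (ν * n f c + γ * (n f c : ℝ) ^ 2)) *
      ENNReal.ofReal (Real.exp (-β * en φ z))
  have hWm : ∀ f c, Measurable (W f c) := fun f c =>
    (bs_measurable_weight h.meas β _).const_mul _
  let F : ∀ (f : Fin N → C) (c : C), ({i // f i = c} → Pt) → ℝ≥0∞ := fun f c =>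
    (Set.pi Set.univ fun _ => Q c).indicator (W f c)
  have hFm : ∀ f c, Measurable (F f c) := fun f c =>
    (hWm f c).indicator (MeasurableSet.univ_pi fun _ => hQm c)
  -- the single-cell integrals
  have hFi : ∀ f c, ∫⁻ z, F f c z ≤ ENNReal.ofReal ((n f c).factorial * Real.exp S) := by
    intro f c
    let v : Pt := WithLp.toLp 2 fun k => (emb c k : ℝ) * m - t
    have hsub : Q c ⊆ {y | y - v ∈ cube m} := by
      intro y hy k
      have h1 : idx m t y k = emb c k := congrFun hy k
      unfold idx at h1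
      rw [Int.floor_eq_iff, le_div_iff₀ hm, div_lt_iff₀ hm] at h1
      have h2 : (y - v) k = y k - ((emb c k : ℝ) * m - t) := rfl
      rw [h2]
      constructor <;> linarith [h1.1, h1.2]
    have h1 : ∫⁻ z, F f c z = ENNReal.ofReal (Real.exp (ν * n f c + γ * (n f c : ℝ) ^ 2)) *
        I φ β (Q c) {i // f i = c} := by
      simp only [F]
      rw [lintegral_indicator (MeasurableSet.univ_pi fun _ => hQm c)]
      exact lintegral_const_mul _ (bs_measurable_weight h.meas β _)
    have h2 : I φ β (Q c) {i // f i = c} ≤ I φ β {y | y - v ∈ cube m} {i // f i = c} :=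
      lintegral_mono_set (Set.pi_mono fun _ _ => hsub)
    rw [I_translate h.meas β (measurableSet_cube m),
      I_congr_card h.meas β (measurableSet_cube m) (N := n f c) rfl, I_eq h hβ hm] at h2
    rw [h1]
    refine (mul_le_mul_right h2 _).trans ?_
    rw [← ENNReal.ofReal_mul (Real.exp_pos _).le]
    refine ENNReal.ofReal_le_ofReal ?_
    rw [mul_left_comm, ← Real.exp_add]
    refine mul_le_mul_of_nonneg_left (Real.exp_le_exp.2 ?_) (Nat.cast_nonneg _)
    linarith [hS (n f c)]
  -- pointwise bound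
  have hpt : ∀ x ∈ Set.pi Set.univ (fun _ : Fin N => cube L),
      ENNReal.ofReal (Real.exp (ν * N - β * enSame φ m t x + γ * same m t x)) ≤
        ∑ f : Fin N → C, ∏ c, F f c (fun i => x i.1) := by
    intro x hx
    choose f hf using fun i => hcell (x i) (hx i (Set.mem_univ i))
    refine le_trans (le_of_eq ?_) (Finset.single_le_sum
      (f := fun f : Fin N → C => ∏ c, F f c (fun i => x i.1)) (fun _ _ => bot_le)
      (Finset.mem_univ f))
    have h1 : ∀ c, F f c (fun i => x i.1) = ENNReal.ofReal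
        (Real.exp (ν * n f c + γ * (n f c : ℝ) ^ 2 - β * en φ fun i : {i // f i = c} => x i.1)) := by
      intro c
      have hmem : (fun i : {i // f i = c} => x i.1) ∈ Set.pi Set.univ fun _ => Q c := by
        intro i _
        change idx m t (x i.1) = emb c
        rw [hf, i.2]
      simp only [F, W]
      rw [Set.indicator_of_mem hmem, ← ENNReal.ofReal_mul (Real.exp_pos _).le, ← Real.exp_add]
      congr 2; ring
    rw [Finset.prod_congr rfl fun c _ => h1 c,
      ← ENNReal.ofReal_prod_of_nonneg fun c _ => (Real.exp_pos _).le, ← Real.exp_sum]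
    congr 2
    have hiff : ∀ i j, idx m t (x i) = idx m t (x j) ↔ f i = f j := fun i j => by
      rw [hf, hf, hemb.eq_iff]
    have e1 : (N : ℝ) = ∑ c, (n f c : ℝ) := by
      have := Fintype.sum_fiberwise f fun _ => (1 : ℝ)
      simpa [n] using this.symm
    have e2 : same m t x = ∑ c, (n f c : ℝ) ^ 2 := by
      have := cl_sum_fibres f fun _ _ => (1 : ℝ)
      simp only [Finset.sum_const, Finset.card_univ, nsmul_eq_mul, mul_one] at this
      simp only [n, sq]
      rw [← this]
      unfold same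
      refine Finset.sum_congr rfl fun i _ => Finset.sum_congr rfl fun j _ => ?_
      by_cases hij : f i = f j
      · rw [if_pos hij, if_pos ((hiff i j).2 hij)]
      · rw [if_neg hij, if_neg (mt (hiff i j).1 hij)]
    have e3 : enSame φ m t x = ∑ c, en φ fun i : {i // f i = c} => x i.1 := by
      have := cl_sum_fibres f fun i j => if i = j then 0 else φ (dist (x i) (x j))
      unfold enSame en
      rw [← Finset.mul_sum]
      congr 1
      refine Eq.trans ?_ (this.trans ?_)
      · refine Finset.sum_congr rfl fun i _ => Finset.sum_congr rfl fun j _ => ?_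
        by_cases hij : f i = f j
        · rw [if_pos hij, if_pos ((hiff i j).2 hij)]
          split_ifs <;> rfl
        · rw [if_neg hij, if_neg (mt (hiff i j).1 hij)]
          simp
      · refine Finset.sum_congr rfl fun c _ => Finset.sum_congr rfl fun i _ =>
          Finset.sum_congr rfl fun j _ => ?_
        by_cases hij : i = j
        · simp [hij]
        · rw [if_neg hij, if_neg (fun h => hij (Subtype.ext h))]
    rw [e1, e2, e3, Finset.mul_sum, Finset.mul_sum, Finset.mul_sum, ← Finset.sum_sub_distrib,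
      ← Finset.sum_add_distrib]
    refine Finset.sum_congr rfl fun c _ => ?_
    ring
  have hmeas : ∀ f : Fin N → C, Measurable fun x : Fin N → Pt => ∏ c, F f c (fun i => x i.1) :=
    fun f => Finset.measurable_prod _ fun c _ =>
      (hFm f c).comp (measurable_pi_lambda _ fun i => measurable_pi_apply _)
  have hcard : Fintype.card C = K ^ 3 := by simp [C]
  calc ∫⁻ x in Set.pi Set.univ (fun _ : Fin N => cube L),
        ENNReal.ofReal (Real.exp (ν * N - β * enSame φ m t x + γ * same m t x))
      ≤ ∫⁻ x in Set.pi Set.univ (fun _ : Fin N => cube L),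
          ∑ f : Fin N → C, ∏ c, F f c (fun i => x i.1) :=
        setLIntegral_mono' (MeasurableSet.univ_pi fun _ => measurableSet_cube L) hpt
    _ ≤ ∫⁻ x : Fin N → Pt, ∑ f : Fin N → C, ∏ c, F f c (fun i => x i.1) :=
        setLIntegral_le_lintegral _ _
    _ = ∑ f : Fin N → C, ∏ c, ∫⁻ z, F f c z := by
        rw [lintegral_finsetSum _ fun f _ => hmeas f]
        exact Finset.sum_congr rfl fun f _ => lintegral_prod_fibres f (F f) (hFm f)
    _ ≤ ∑ f : Fin N → C, ∏ c, ENNReal.ofReal ((n f c).factorial * Real.exp S) :=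
        Finset.sum_le_sum fun f _ => Finset.prod_le_prod' fun c _ => hFi f c
    _ = ENNReal.ofReal ((∑ f : Fin N → C, ∏ c, ((n f c).factorial : ℝ)) * Real.exp S ^ K ^ 3) := by
        rw [Finset.sum_mul, ENNReal.ofReal_sum_of_nonneg fun f _ => by positivity]
        refine Finset.sum_congr rfl fun f _ => ?_
        rw [← ENNReal.ofReal_prod_of_nonneg fun c _ => by positivity, Finset.prod_mul_distrib,
          Finset.prod_const, Finset.card_univ, hcard]
    _ ≤ _ := by
        refine ENNReal.ofReal_le_ofReal ?_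
        have h1 := cl_sum_prod_factorial_le C N hτ
        rw [hcard] at h1
        have e : Real.exp ((N + (K : ℝ) ^ 3) * τ + (K : ℝ) ^ 3 * (S - Real.log τ)) =
            Real.exp ((N + ((K ^ 3 : ℕ) : ℝ)) * τ) / τ ^ K ^ 3 * Real.exp S ^ K ^ 3 := by
          rw [Real.exp_add, ← Nat.cast_pow, Real.exp_nat_mul, Real.exp_sub, Real.exp_log hτ, div_pow]
          ring
        rw [e, ← mul_assoc]
        exact mul_le_mul_of_nonneg_right h1 (by positivity)

end Crest.Agent.R149
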