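import Crest.Agent.R149.Defs

/-! # Row 149: the unit-separation packing density -/

namespace Crest.Agent.R149

open Crest.ProbabilityR.Continuum Filter Topology

lemma pk_cube_mono {L L' : ℝ} (h : L ≤ L') : cube L ⊆ cube L' :=
  fun _ hx k => ⟨(hx k).1, (hx k).2.trans h⟩

lemma pk_set_mono {L L' : ℝ} (h : L ≤ L') : packingSet L ⊆ packingSet L' := by
  rintro n ⟨X, h1, h2, h3⟩
  exact ⟨X, h1, fun x hx => pk_cube_mono h (h2 x hx), h3⟩

lemma pk_zero_mem (L : ℝ) : 0 ∈ packingSet L := ⟨∅, by simp, by simp, by simp⟩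

lemma pk_half {n : ℕ} (hn : n ∈ packingSet (1 / 2)) : n ≤ 1 := by
  obtain ⟨X, rfl, h2, h3⟩ := hn
  rw [Finset.card_le_one]
  intro x hx y hy
  by_contra hne
  have h := h3 x hx y hy hne
  have hx' := h2 x hx
  have hy' := h2 y hy
  have hsq : dist x y ^ 2 ≤ 3 / 4 := by
    rw [EuclideanSpace.dist_sq_eq, Fin.sum_univ_three]
    have hk : ∀ k, dist (x k) (y k) ^ 2 ≤ 1 / 4 := by
      intro k
      rw [Real.dist_eq, sq_abs]
      obtain ⟨a, b⟩ := hx' k
      obtain ⟨c, d⟩ := hy' k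
      nlinarith
    linarith [hk 0, hk 1, hk 2]
  nlinarith

lemma pk_cells {L₀ : ℝ} (hL : 0 < L₀) {P : ℕ} (hP : ∀ n ∈ packingSet L₀, n ≤ P) {k : ℕ}
    (hk : 0 < k) {n : ℕ} (hn : n ∈ packingSet (k * L₀)) : n ≤ k ^ 3 * P := by
  classical
  obtain ⟨X, rfl, h2, h3⟩ := hn
  set f : Pt → (Fin 3 → ℕ) := fun x i => min ⌊x i / L₀⌋₊ (k - 1) with hf
  have hcard : (Fintype.piFinset fun _ : Fin 3 => Finset.range k).card = k ^ 3 := by
    simp [Fintype.card_piFinset]
  rw [mul_comm, ← hcard]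
  refine Finset.card_le_mul_card_image_of_maps_to (f := f) ?_ P ?_
  · intro x _
    rw [Fintype.mem_piFinset]
    intro i
    rw [Finset.mem_range]
    have : f x i ≤ k - 1 := min_le_right _ _
    omega
  · intro b _
    set w : Pt := WithLp.toLp 2 (fun i => (b i : ℝ) * L₀) with hw
    apply hP
    refine ⟨(X.filter fun x => f x = b).image (fun x => x - w),
      Finset.card_image_of_injective _ (sub_left_injective), ?_, ?_⟩
    · intro y hy
      obtain ⟨x, hx, rfl⟩ := Finset.mem_image.1 hy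
      obtain ⟨hxX, hxb⟩ := Finset.mem_filter.1 hx
      intro i
      obtain ⟨a0, a1⟩ := h2 x hxX i
      have hb : b i = min ⌊x i / L₀⌋₊ (k - 1) := by rw [← hxb]
      have hq : 0 ≤ x i / L₀ := div_nonneg a0 hL.le
      have e : (x - w) i = x i - (b i : ℝ) * L₀ := by simp [hw]
      rw [e]
      constructor
      · have h4 : (b i : ℝ) ≤ ⌊x i / L₀⌋₊ := by exact_mod_cast hb ▸ min_le_left _ _
        have h5 : (b i : ℝ) ≤ x i / L₀ := h4.trans (Nat.floor_le hq)
        rw [le_div_iff₀ hL] at h5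
        linarith
      · have h5 : x i / L₀ ≤ (b i : ℝ) + 1 := by
          rcases min_choice ⌊x i / L₀⌋₊ (k - 1) with h | h
          · rw [hb, h]; exact (Nat.lt_floor_add_one _).le
          · rw [hb, h, Nat.cast_pred hk, div_le_iff₀ hL]; linarith
        rw [div_le_iff₀ hL] at h5
        linarith
    · intro y hy y' hy' hne
      obtain ⟨x, hx, rfl⟩ := Finset.mem_image.1 hy
      obtain ⟨x', hx', rfl⟩ := Finset.mem_image.1 hy'
      rw [dist_sub_right]
      exact h3 x (Finset.mem_filter.1 hx).1 x' (Finset.mem_filter.1 hx').1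
        fun h => hne (by rw [h])

theorem bddAbove_packingSet (L : ℝ) : BddAbove (packingSet L) := by
  obtain ⟨k, hk⟩ := exists_nat_ge (2 * L)
  refine ⟨(k + 1) ^ 3 * 1, fun n hn => ?_⟩
  refine pk_cells (L₀ := 1 / 2) (by norm_num) (fun n hn => pk_half hn) (Nat.succ_pos k)
    (pk_set_mono ?_ hn)
  push_cast
  linarith

theorem packingNumber_mem (L : ℝ) : packingNumber L ∈ packingSet L :=
  Nat.sSup_mem ⟨0, pk_zero_mem L⟩ (bddAbove_packingSet L)

theorem le_packingNumber {L : ℝ} {n : ℕ} (hn : n ∈ packingSet L) : n ≤ packingNumber L :=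
  le_csSup (bddAbove_packingSet L) hn

lemma pk_grid {L : ℝ} (hL : 0 ≤ L) : (⌊L⌋₊ + 1) ^ 3 ∈ packingSet L := by
  classical
  set e : (Fin 3 → ℕ) → Pt := fun b => WithLp.toLp 2 (fun i => (b i : ℝ)) with he
  have hinj : Function.Injective e := by
    intro b b' h
    funext i
    have : e b i = e b' i := by rw [h]
    simpa [he] using this
  refine ⟨(Fintype.piFinset fun _ : Fin 3 => Finset.range (⌊L⌋₊ + 1)).image e, ?_, ?_, ?_⟩
  · rw [Finset.card_image_of_injective _ hinj]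
    simp [Fintype.card_piFinset]
  · intro y hy
    obtain ⟨b, hb, rfl⟩ := Finset.mem_image.1 hy
    intro i
    have h1 := Finset.mem_range.1 (Fintype.mem_piFinset.1 hb i)
    have h2 : (b i : ℝ) ≤ ⌊L⌋₊ := by exact_mod_cast Nat.lt_succ_iff.1 h1
    have e1 : e b i = (b i : ℝ) := by simp [he]
    rw [e1]
    exact ⟨Nat.cast_nonneg _, h2.trans (Nat.floor_le hL)⟩
  · intro y hy y' hy' hne
    obtain ⟨b, _, rfl⟩ := Finset.mem_image.1 hy
    obtain ⟨b', _, rfl⟩ := Finset.mem_image.1 hy'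
    have hbb : b ≠ b' := fun h => hne (by rw [h])
    obtain ⟨i, hi⟩ := Function.ne_iff.1 hbb
    refine le_trans ?_ (PiLp.dist_apply_le (e b) (e b') i)
    have e1 : e b i = (b i : ℝ) := by simp [he]
    have e2 : e b' i = (b' i : ℝ) := by simp [he]
    rw [e1, e2, Real.dist_eq]
    have : (1 : ℤ) ≤ |(b i : ℤ) - (b' i : ℤ)| := Int.one_le_abs (by omega)
    exact_mod_cast this

lemma pk_one_le {L : ℝ} (hL : 0 < L) : 1 ≤ (packingNumber L : ℝ) / L ^ 3 := by
  rw [le_div_iff₀ (by positivity), one_mul]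
  have h1 : (((⌊L⌋₊ + 1) ^ 3 : ℕ) : ℝ) ≤ packingNumber L := by
    exact_mod_cast le_packingNumber (pk_grid hL.le)
  refine le_trans ?_ h1
  push_cast
  exact pow_le_pow_left₀ hL.le (Nat.lt_floor_add_one L).le 3

lemma pk_sub {L₀ L : ℝ} (hL₀ : 0 < L₀) (hL : 0 < L) :
    (packingNumber L : ℝ) / L ^ 3 ≤ (L₀⁻¹ + L⁻¹) ^ 3 * packingNumber L₀ := by
  set k := ⌈L / L₀⌉₊ with hk
  have hk0 : 0 < k := Nat.ceil_pos.2 (div_pos hL hL₀)
  have h1 : L ≤ k * L₀ := by
    rw [← div_le_iff₀ hL₀]; exact Nat.le_ceil _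
  have h2 : packingNumber L ≤ k ^ 3 * packingNumber L₀ :=
    pk_cells hL₀ (fun n hn => le_packingNumber hn) hk0 (pk_set_mono h1 (packingNumber_mem L))
  have h3 : (packingNumber L : ℝ) ≤ (k : ℝ) ^ 3 * packingNumber L₀ := by exact_mod_cast h2
  have h4 : (k : ℝ) ≤ L / L₀ + 1 := (Nat.ceil_lt_add_one (div_pos hL hL₀).le).le
  rw [div_le_iff₀ (by positivity)]
  refine h3.trans ?_
  have : (L₀⁻¹ + L⁻¹) ^ 3 * packingNumber L₀ * L ^ 3 = (L / L₀ + 1) ^ 3 * packingNumber L₀ := by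
    field_simp
  rw [this]
  gcongr

theorem exists_packing_density : ∃ p : ℝ, 1 ≤ p ∧
    Tendsto (fun L : ℝ => (packingNumber L : ℝ) / L ^ 3) atTop (𝓝 p) := by
  set S : Set ℝ := (fun L : ℝ => (packingNumber L : ℝ) / L ^ 3) '' Set.Ioi 0 with hS
  have hne : S.Nonempty := ⟨_, 1, by norm_num, rfl⟩
  have hlb : (1 : ℝ) ∈ lowerBounds S := by
    rintro _ ⟨L, hL, rfl⟩
    exact pk_one_le hL
  refine ⟨sInf S, le_csInf hne hlb, tendsto_order.2 ⟨fun a ha => ?_, fun a ha => ?_⟩⟩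
  · filter_upwards [eventually_gt_atTop 0] with L hL
    exact ha.trans_le (csInf_le ⟨1, hlb⟩ ⟨L, hL, rfl⟩)
  · obtain ⟨_, ⟨L₀, hL₀, rfl⟩, hlt⟩ := exists_lt_of_csInf_lt hne ha
    have ht : Tendsto (fun L : ℝ => (L₀⁻¹ + L⁻¹) ^ 3 * (packingNumber L₀ : ℝ)) atTop
        (𝓝 ((L₀⁻¹ + 0) ^ 3 * (packingNumber L₀ : ℝ))) :=
      ((tendsto_const_nhds.add tendsto_inv_atTop_zero).pow 3).mul tendsto_const_nhds
    have hlt' : (L₀⁻¹ + 0) ^ 3 * (packingNumber L₀ : ℝ) < a := by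
      rw [add_zero, inv_pow, ← div_eq_inv_mul]
      exact hlt
    filter_upwards [eventually_gt_atTop 0, ht.eventually (gt_mem_nhds hlt')] with L hL h
    exact (pk_sub hL₀ hL).trans_lt h

end Crest.Agent.R149
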