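import Crest.Agent.R149.Thermo
import Crest.Agent.R149.Packing

/-! # Row 149: shape of the free energy of the core -/

namespace Crest.Agent.R149

open MeasureTheory Crest.ProbabilityR.Continuum Filter Topology
open scoped ENNReal

theorem Core.adm {φ₀ : ℝ → ℝ} {δ η H : ℝ} (h : Core φ₀ δ η H) (hη : η ≤ 1) : Adm φ₀ 0 where
  meas := h.meas
  nonpos := fun r hr => (h.zero₂ r (by linarith)).le
  B_nonneg := le_rfl
  stable := fun N x => by simpa using en_nonneg h.nonneg x

/-- The single-particle weight. -/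
noncomputable def cbPsi (φ₀ : ℝ → ℝ) (β : ℝ) : Pt → ℝ≥0∞ :=
  (Metric.ball (0 : Pt) 1).indicator fun z => ENNReal.ofReal (Real.exp (-β * φ₀ ‖z‖))

lemma cb_psi_meas {φ₀ : ℝ → ℝ} (hφ : Measurable φ₀) (β : ℝ) : Measurable (cbPsi φ₀ β) := by
  refine Measurable.indicator ?_ measurableSet_ball
  exact ENNReal.measurable_ofReal.comp
    (Real.measurable_exp.comp ((hφ.comp measurable_norm).const_mul _))

lemma cb_vol_ball {r : ℝ} (hr : 0 ≤ r) :
    volume (Metric.ball (0 : Pt) r) ≤ ENNReal.ofReal (8 * r ^ 3) := by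
  rw [EuclideanSpace.volume_ball_fin_three, ← ENNReal.ofReal_pow hr,
    ← ENNReal.ofReal_mul (by positivity)]
  apply ENNReal.ofReal_le_ofReal
  have := Real.pi_le_four
  have h3 : 0 ≤ r ^ 3 := by positivity
  nlinarith

lemma cb_psi_int {φ₀ : ℝ → ℝ} {δ η H : ℝ} (h : Core φ₀ δ η H) (hδ : 0 < δ) {β : ℝ} (hβ : 0 ≤ β)
    (hH : Real.exp (-(β * H)) ≤ δ ^ 3) :
    ∫⁻ z, cbPsi φ₀ β z ≤ ENNReal.ofReal (72 * δ ^ 3) := by
  have hpt : ∀ z, cbPsi φ₀ β z ≤ (Metric.ball (0 : Pt) (2 * δ)).indicator (fun _ => 1) z +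
      (Metric.ball (0 : Pt) 1).indicator (fun _ => ENNReal.ofReal (δ ^ 3)) z := by
    intro z
    unfold cbPsi
    by_cases h1 : z ∈ Metric.ball (0 : Pt) 1
    · rw [Set.indicator_of_mem h1, Set.indicator_of_mem h1]
      by_cases h2 : z ∈ Metric.ball (0 : Pt) (2 * δ)
      · rw [Set.indicator_of_mem h2]
        refine le_trans ?_ le_self_add
        rw [ENNReal.ofReal_le_one, Real.exp_le_one_iff]
        have := mul_nonneg hβ (h.nonneg ‖z‖)
        linarith
      · refine le_trans ?_ le_add_self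
        apply ENNReal.ofReal_le_ofReal
        refine le_trans ?_ hH
        rw [mem_ball_zero_iff] at h1 h2
        have := mul_le_mul_of_nonneg_left (h.hard₂ ‖z‖ (not_lt.1 h2) h1.le) hβ
        exact Real.exp_le_exp.2 (by linarith)
    · rw [Set.indicator_of_notMem h1]
      exact zero_le
  refine (lintegral_mono hpt).trans ?_
  rw [lintegral_add_left (measurable_const.indicator measurableSet_ball),
    lintegral_indicator_const measurableSet_ball, lintegral_indicator_const measurableSet_ball,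
    one_mul]
  have e : ENNReal.ofReal (72 * δ ^ 3) =
      ENNReal.ofReal (8 * (2 * δ) ^ 3) + ENNReal.ofReal (δ ^ 3) * ENNReal.ofReal (8 * 1 ^ 3) := by
    rw [← ENNReal.ofReal_mul (by positivity), ← ENNReal.ofReal_add (by positivity) (by positivity)]
    congr 1
    ring
  rw [e]
  gcongr
  · exact cb_vol_ball (by positivity)
  · exact cb_vol_ball zero_le_one

/-- a maximal separated subfamily -/
lemma cb_maximal {L : ℝ} {N : ℕ} (x : Fin N → Pt) (hx : ∀ i, x i ∈ cube L) :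
    ∃ S : Finset (Fin N), S.card ≤ packingNumber L ∧
      ∃ σ : {j // ¬ j ∈ S} → {i // i ∈ S}, ∀ j : {j // ¬ j ∈ S}, dist (x j) (x (σ j)) < 1 := by
  classical
  set F : Finset (Finset (Fin N)) :=
    Finset.univ.filter fun S => ∀ i ∈ S, ∀ j ∈ S, i ≠ j → 1 ≤ dist (x i) (x j) with hF
  obtain ⟨S, hS, hmax⟩ := F.exists_max_image Finset.card ⟨∅, by simp [hF]⟩
  have hS' : ∀ i ∈ S, ∀ j ∈ S, i ≠ j → 1 ≤ dist (x i) (x j) := (Finset.mem_filter.1 hS).2
  refine ⟨S, ?_, ?_⟩
  · apply le_packingNumber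
    have hinj : Set.InjOn x S := by
      intro i hi j hj hij
      by_contra hne
      have := hS' i hi j hj hne
      rw [hij, dist_self] at this
      linarith
    refine ⟨S.image x, Finset.card_image_of_injOn hinj, ?_, ?_⟩
    · intro y hy
      obtain ⟨i, _, rfl⟩ := Finset.mem_image.1 hy
      exact hx i
    · intro y hy y' hy' hne
      obtain ⟨i, hi, rfl⟩ := Finset.mem_image.1 hy
      obtain ⟨j, hj, rfl⟩ := Finset.mem_image.1 hy'
      exact hS' i hi j hj fun h => hne (by rw [h])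
  · have : ∀ j : {j // ¬ j ∈ S}, ∃ i : {i // i ∈ S}, dist (x j) (x i) < 1 := by
      intro j
      by_contra hcon
      push Not at hcon
      have hmem : insert j.1 S ∈ F := by
        rw [hF, Finset.mem_filter]
        refine ⟨Finset.mem_univ _, ?_⟩
        intro a ha b hb hab
        rcases Finset.mem_insert.1 ha with rfl | ha' <;> rcases Finset.mem_insert.1 hb with rfl | hb'
        · exact absurd rfl hab
        · exact hcon ⟨b, hb'⟩
        · rw [dist_comm]; exact hcon ⟨a, ha'⟩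
        · exact hS' a ha' b hb' hab
      have := hmax _ hmem
      rw [Finset.card_insert_of_notMem j.2] at this
      omega
    choose σ hσ using this
    exact ⟨σ, hσ⟩

lemma cb_en_ge {φ : ℝ → ℝ} (hφ : ∀ r, 0 ≤ φ r) {N : ℕ} (x : Fin N → Pt) (S : Finset (Fin N))
    (σ : {j // ¬ j ∈ S} → {i // i ∈ S}) :
    ∑ j : {j // ¬ j ∈ S}, φ (dist (x j) (x (σ j))) ≤ en φ x := by
  classical
  unfold en
  set F : Fin N → Fin N → ℝ := fun i j => if i = j then 0 else φ (dist (x i) (x j)) with hF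
  have hF0 : ∀ i j, 0 ≤ F i j := by
    intro i j
    simp only [hF]
    split_ifs
    · exact le_rfl
    · exact hφ _
  have hne : ∀ j : {j // ¬ j ∈ S}, (j : Fin N) ≠ σ j := fun j h => j.2 (h ▸ (σ j).2)
  have e : ∑ i, ∑ j, F i j = (∑ i : {i // i ∈ S}, ∑ j, F i j) + ∑ i : {i // ¬ i ∈ S}, ∑ j, F i j := by
    convert (Fintype.sum_subtype_add_sum_subtype (fun i => i ∈ S) fun i => ∑ j, F i j).symm
  have h1 : ∑ j : {j // ¬ j ∈ S}, φ (dist (x j) (x (σ j))) ≤ ∑ i : {i // ¬ i ∈ S}, ∑ j, F i j := by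
    refine Finset.sum_le_sum fun j _ => ?_
    have := Finset.single_le_sum (f := fun k => F j k) (fun k _ => hF0 j k)
      (Finset.mem_univ (σ j : Fin N))
    simpa only [hF, if_neg (hne j)] using this
  have h2 : ∑ j : {j // ¬ j ∈ S}, φ (dist (x j) (x (σ j))) ≤ ∑ i : {i // i ∈ S}, ∑ j, F i j := by
    rw [Finset.sum_comm, ← Fintype.sum_subtype_add_sum_subtype (fun i => i ∈ S)]
    refine le_add_of_nonneg_of_le
      (Finset.sum_nonneg fun j _ => Finset.sum_nonneg fun i _ => hF0 _ _) ?_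
    refine Finset.sum_le_sum fun j _ => ?_
    have := Finset.single_le_sum (f := fun k : {i // i ∈ S} => F k j) (fun k _ => hF0 k j)
      (Finset.mem_univ (σ j))
    rw [dist_comm]
    simpa only [hF, if_neg (hne j).symm] using this
  have e' : (∑ i, ∑ j, if i = j then 0 else φ (dist (x i) (x j))) = ∑ i, ∑ j, F i j := rfl
  have goal : ∑ j : {j // ¬ j ∈ S}, φ (dist (x j) (x (σ j))) ≤ 1 / 2 * ∑ i, ∑ j, F i j := by
    rw [e]; linarith
  convert goal using 5

/-- the weight attached to a subfamily and an assignment -/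
noncomputable def cbW (φ₀ : ℝ → ℝ) (β L : ℝ) {N : ℕ} (S : Finset (Fin N))
    (σ : {j // ¬ j ∈ S} → {i // i ∈ S}) (x : Fin N → Pt) : ℝ≥0∞ :=
  (∏ i : {i // i ∈ S}, (cube L).indicator (fun _ => (1 : ℝ≥0∞)) (x i)) *
    ∏ j : {j // ¬ j ∈ S}, cbPsi φ₀ β (x j - x (σ j))

lemma cb_W_meas {φ₀ : ℝ → ℝ} (hφ : Measurable φ₀) (β L : ℝ) {N : ℕ} (S : Finset (Fin N))
    (σ : {j // ¬ j ∈ S} → {i // i ∈ S}) : Measurable (cbW φ₀ β L S σ) := by
  unfold cbW
  refine Measurable.mul (Finset.measurable_prod _ fun i _ => ?_)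
    (Finset.measurable_prod _ fun j _ => ?_)
  · exact (measurable_const.indicator (measurableSet_cube L)).comp (measurable_pi_apply _)
  · exact (cb_psi_meas hφ β).comp ((measurable_pi_apply _).sub (measurable_pi_apply _))

lemma cb_W_int {φ₀ : ℝ → ℝ} (hφ : Measurable φ₀) (β : ℝ) {L : ℝ} (hL : 0 ≤ L) {N : ℕ}
    (S : Finset (Fin N)) (σ : {j // ¬ j ∈ S} → {i // i ∈ S}) :
    ∫⁻ x, cbW φ₀ β L S σ x =
      ENNReal.ofReal (L ^ 3) ^ S.card * (∫⁻ z, cbPsi φ₀ β z) ^ (N - S.card) := by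
  classical
  set e := MeasurableEquiv.piEquivPiSubtypeProd (fun _ : Fin N => Pt) (fun i => i ∈ S) with he
  have hmp : MeasurePreserving e := by
    convert volume_preserving_piEquivPiSubtypeProd (fun _ : Fin N => Pt) (fun i => i ∈ S)
  set W : ({i // i ∈ S} → Pt) × ({j // ¬ j ∈ S} → Pt) → ℝ≥0∞ := fun p =>
    (∏ i : {i // i ∈ S}, (cube L).indicator (fun _ => (1 : ℝ≥0∞)) (p.1 i)) *
      ∏ j : {j // ¬ j ∈ S}, cbPsi φ₀ β (p.2 j - p.1 (σ j)) with hW
  have hm1 : Measurable fun y : {i // i ∈ S} → Pt =>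
      ∏ i : {i // i ∈ S}, (cube L).indicator (fun _ => (1 : ℝ≥0∞)) (y i) :=
    Finset.measurable_prod _ fun i _ =>
      (measurable_const.indicator (measurableSet_cube L)).comp (measurable_pi_apply _)
  have hWm : Measurable W := by
    refine Measurable.mul (hm1.comp measurable_fst) (Finset.measurable_prod _ fun j _ => ?_)
    exact (cb_psi_meas hφ β).comp (((measurable_pi_apply _).comp measurable_snd).sub
      ((measurable_pi_apply _).comp measurable_fst))
  have e1 : ∫⁻ x, cbW φ₀ β L S σ x = ∫⁻ x, W (e x) := rfl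
  rw [e1, hmp.lintegral_comp hWm, Measure.volume_eq_prod, lintegral_prod _ hWm.aemeasurable]
  have e2 : ∀ y : {i // i ∈ S} → Pt, ∫⁻ z, W (y, z) =
      (∏ i : {i // i ∈ S}, (cube L).indicator (fun _ => (1 : ℝ≥0∞)) (y i)) *
        (∫⁻ z, cbPsi φ₀ β z) ^ (N - S.card) := by
    intro y
    have hm : ∀ j : {j // ¬ j ∈ S}, Measurable fun z : Pt => cbPsi φ₀ β (z - y (σ j)) :=
      fun j => (cb_psi_meas hφ β).comp (measurable_id.sub_const _)
    have hm' : Measurable fun z : {j // ¬ j ∈ S} → Pt =>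
        ∏ j : {j // ¬ j ∈ S}, cbPsi φ₀ β (z j - y (σ j)) :=
      Finset.measurable_prod _ fun j _ => (hm j).comp (measurable_pi_apply j)
    simp only [hW]
    rw [lintegral_const_mul _ hm']
    congr 1
    rw [volume_pi, lintegral_fintype_prod (fun _ => volume)
      (fun (j : {j // ¬ j ∈ S}) (z : Pt) => cbPsi φ₀ β (z - y (σ j))) hm]
    simp only [lintegral_sub_right_eq_self]
    rw [Finset.prod_const, Finset.card_univ, Fintype.card_subtype_compl, Fintype.card_fin,
      Fintype.card_coe]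
  simp only [e2]
  rw [lintegral_mul_const _ hm1]
  congr 1
  rw [volume_pi, lintegral_fintype_prod (fun _ => volume)
    (fun (_ : {i // i ∈ S}) (z : Pt) => (cube L).indicator (fun _ => (1 : ℝ≥0∞)) z)
    (fun _ => measurable_const.indicator (measurableSet_cube L))]
  simp only [lintegral_indicator_const (measurableSet_cube L), one_mul, volume_cube hL]
  rw [Finset.prod_const, Finset.card_univ, Fintype.card_coe]

lemma cb_pointwise {φ₀ : ℝ → ℝ} (hφ : ∀ r, 0 ≤ φ₀ r) {β : ℝ} (hβ : 0 ≤ β) {L : ℝ} {N : ℕ}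
    (x : Fin N → Pt) (hx : ∀ i, x i ∈ cube L) :
    ENNReal.ofReal (Real.exp (-β * en φ₀ x)) ≤
      ∑ S ∈ (Finset.univ : Finset (Fin N)).powerset.filter (fun S => S.card ≤ packingNumber L),
        ∑ σ : {j // ¬ j ∈ S} → {i // i ∈ S}, cbW φ₀ β L S σ x := by
  classical
  obtain ⟨S, hS, σ, hσ⟩ := cb_maximal x hx
  have h1 : ENNReal.ofReal (Real.exp (-β * en φ₀ x)) ≤ cbW φ₀ β L S σ x := by
    unfold cbW
    have e1 : (∏ i : {i // i ∈ S}, (cube L).indicator (fun _ => (1 : ℝ≥0∞)) (x i)) = 1 :=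
      Finset.prod_eq_one fun i _ => Set.indicator_of_mem (hx i) _
    have e2 : ∀ j : {j // ¬ j ∈ S}, cbPsi φ₀ β (x j - x (σ j)) =
        ENNReal.ofReal (Real.exp (-β * φ₀ (dist (x j) (x (σ j))))) := by
      intro j
      unfold cbPsi
      rw [Set.indicator_of_mem (by rw [mem_ball_zero_iff, ← dist_eq_norm]; exact hσ j),
        dist_eq_norm]
    simp only [e1, e2, one_mul]
    rw [← ENNReal.ofReal_prod_of_nonneg (fun _ _ => (Real.exp_pos _).le), ← Real.exp_sum,
      ← Finset.mul_sum]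
    apply ENNReal.ofReal_le_ofReal
    have := mul_le_mul_of_nonneg_left (cb_en_ge hφ x S σ) hβ
    exact Real.exp_le_exp.2 (by linarith)
  refine h1.trans (le_trans ?_ (Finset.single_le_sum
    (f := fun S : Finset (Fin N) => ∑ σ : {j // ¬ j ∈ S} → {i // i ∈ S}, cbW φ₀ β L S σ x)
    (fun _ _ => zero_le) (a := S) (by simpa using hS)))
  exact Finset.single_le_sum (f := fun σ : {j // ¬ j ∈ S} → {i // i ∈ S} => cbW φ₀ β L S σ x)
    (fun _ _ => zero_le) (Finset.mem_univ σ)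

lemma cb_sum_real {N P : ℕ} {V T : ℝ} (hV : 0 ≤ V) (hT : 0 ≤ T) :
    ∑ S ∈ (Finset.univ : Finset (Fin N)).powerset.filter (fun S => S.card ≤ P),
      ((S.card : ℝ) ^ (N - S.card) * (V ^ S.card * Real.exp (-T) ^ (N - S.card))) ≤
      N.factorial * Real.exp (-(T * (N - P) - P - V)) := by
  classical
  have h1 : ∀ S ∈ (Finset.univ : Finset (Fin N)).powerset.filter (fun S => S.card ≤ P),
      ((S.card : ℝ) ^ (N - S.card) * (V ^ S.card * Real.exp (-T) ^ (N - S.card))) ≤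
        ((N - S.card).factorial * V ^ S.card) * Real.exp (-(T * (N - P) - P)) := by
    intro S hS
    have hP : S.card ≤ P := (Finset.mem_filter.1 hS).2
    have hN : S.card ≤ N := by simpa using S.card_le_univ
    have hP' : (S.card : ℝ) ≤ P := by exact_mod_cast hP
    have a1 : (S.card : ℝ) ^ (N - S.card) ≤ (N - S.card).factorial * Real.exp P := by
      have := Real.pow_div_factorial_le_exp (S.card : ℝ) (Nat.cast_nonneg _) (N - S.card)
      rw [div_le_iff₀ (by positivity)] at this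
      refine this.trans ?_
      rw [mul_comm]
      gcongr
    have a2 : Real.exp (-T) ^ (N - S.card) ≤ Real.exp (-(T * (N - P))) := by
      rw [← Real.exp_nat_mul, Nat.cast_sub hN]
      apply Real.exp_le_exp.2
      nlinarith
    have a3 : Real.exp (-(T * (N - P) - P)) = Real.exp P * Real.exp (-(T * (N - P))) := by
      rw [← Real.exp_add]; congr 1; ring
    rw [a3]
    calc (S.card : ℝ) ^ (N - S.card) * (V ^ S.card * Real.exp (-T) ^ (N - S.card))
        ≤ ((N - S.card).factorial * Real.exp P) * (V ^ S.card * Real.exp (-(T * (N - P)))) := by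
          gcongr
      _ = _ := by ring
  refine (Finset.sum_le_sum h1).trans ?_
  refine (Finset.sum_le_sum_of_subset_of_nonneg (Finset.filter_subset _ _)
    fun S _ _ => by positivity).trans ?_
  rw [← Finset.sum_mul, Finset.sum_powerset_apply_card
    (fun k => ((N - k).factorial : ℝ) * V ^ k)]
  have a4 : Real.exp (-(T * (N - P) - P - V)) = Real.exp V * Real.exp (-(T * (N - P) - P)) := by
    rw [← Real.exp_add]; congr 1; ring
  rw [a4, ← mul_assoc]
  gcongr
  refine le_trans (le_of_eq ?_) (mul_le_mul_of_nonneg_left (Real.sum_le_exp_of_nonneg hV (N + 1))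
    (Nat.cast_nonneg _))
  rw [Finset.card_univ, Fintype.card_fin, Finset.mul_sum]
  refine Finset.sum_congr rfl fun k hk => ?_
  have hk' : k ≤ N := Nat.lt_succ_iff.1 (Finset.mem_range.1 hk)
  have := Nat.choose_mul_factorial_mul_factorial hk'
  have h2 : (N.factorial : ℝ) = N.choose k * k.factorial * (N - k).factorial := by
    exact_mod_cast this.symm
  rw [nsmul_eq_mul, h2]
  field_simp

/-- Finite-volume lower bound: every particle outside a maximal `1`-separated subfamily is within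
distance `1` of a member of the subfamily. -/
theorem core_lower_finite {φ₀ : ℝ → ℝ} {δ η H : ℝ} (h : Core φ₀ δ η H) (hη : η ≤ 1) (hδ : 0 < δ)
    {β T L : ℝ} (hβ : 0 ≤ β) (hT : 0 ≤ T) (hH : Real.exp (-(β * H)) ≤ δ ^ 3)
    (hδT : 72 * δ ^ 3 ≤ Real.exp (-T)) (hL : 0 < L) (N : ℕ) :
    T * (N - packingNumber L) - packingNumber L - L ^ 3 ≤ G φ₀ β L N := by
  classical
  refine le_G_of_I_le (h.adm hη) hβ hL ?_
  have hu : ∫⁻ z, cbPsi φ₀ β z ≤ ENNReal.ofReal (Real.exp (-T)) :=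
    (cb_psi_int h hδ hβ hH).trans (ENNReal.ofReal_le_ofReal hδT)
  unfold I
  have hms : MeasurableSet (Set.pi Set.univ (fun _ : Fin N => cube L)) :=
    MeasurableSet.univ_pi fun _ => measurableSet_cube L
  refine (setLIntegral_mono' hms fun x hx =>
    cb_pointwise (L := L) h.nonneg hβ x fun i => hx i (Set.mem_univ i)).trans ?_
  refine (setLIntegral_le_lintegral _ _).trans ?_
  rw [lintegral_finsetSum _ fun S _ => Finset.measurable_sum _ fun σ _ => cb_W_meas h.meas β L S σ]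
  refine le_trans ?_ (ENNReal.ofReal_le_ofReal (cb_sum_real (N := N) (P := packingNumber L)
    (V := L ^ 3) (by positivity) hT))
  rw [ENNReal.ofReal_sum_of_nonneg fun S _ => by positivity]
  refine Finset.sum_le_sum fun S _ => ?_
  rw [lintegral_finsetSum _ fun σ _ => cb_W_meas h.meas β L S σ]
  simp only [cb_W_int h.meas β hL.le]
  rw [Finset.sum_const, Finset.card_univ, Fintype.card_fun, Fintype.card_subtype_compl,
    Fintype.card_fin, Fintype.card_coe, nsmul_eq_mul, ENNReal.ofReal_mul (by positivity),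
    ENNReal.ofReal_mul (by positivity), ENNReal.ofReal_pow (Nat.cast_nonneg _),
    ENNReal.ofReal_pow (p := L ^ 3) (by positivity), ENNReal.ofReal_pow (Real.exp_pos _).le,
    ENNReal.ofReal_natCast, Nat.cast_pow]
  gcongr

theorem core_lower {φ₀ : ℝ → ℝ} {δ η H : ℝ} (h : Core φ₀ δ η H) (hη : η ≤ 1) (hδ : 0 < δ)
    {p : ℝ} (hp : Tendsto (fun L : ℝ => (packingNumber L : ℝ) / L ^ 3) atTop (𝓝 p))
    {β T ρ : ℝ} (hβ : 0 < β) (hT : 0 ≤ T) (hH : Real.exp (-(β * H)) ≤ δ ^ 3)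
    (hδT : 72 * δ ^ 3 ≤ Real.exp (-T)) (hρ : 0 ≤ ρ) :
    T * (ρ - p) - p - 1 ≤ g φ₀ β ρ := by
  have h1 : Tendsto (fun L : ℝ => (⌊ρ * L ^ 3⌋₊ : ℝ) / L ^ 3) atTop (𝓝 ρ) :=
    (tendsto_nat_floor_mul_div_atTop hρ).comp (tendsto_pow_atTop (by norm_num))
  have h2 : Tendsto (fun L : ℝ => T * ((⌊ρ * L ^ 3⌋₊ : ℝ) / L ^ 3 - (packingNumber L : ℝ) / L ^ 3) -
      (packingNumber L : ℝ) / L ^ 3 - 1) atTop (𝓝 (T * (ρ - p) - p - 1)) :=
    (((h1.sub hp).const_mul T).sub hp).sub_const 1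
  refine le_of_tendsto_of_tendsto h2 (tendsto_g (h.adm hη) hβ hρ) ?_
  filter_upwards [eventually_gt_atTop 0] with L hL
  have h3 := core_lower_finite h hη hδ hβ.le hT hH hδT hL ⌊ρ * L ^ 3⌋₊
  have h4 : 0 < L ^ 3 := by positivity
  rw [le_div_iff₀ h4]
  refine le_trans (le_of_eq ?_) h3
  field_simp

lemma cb_G_one {φ₀ : ℝ → ℝ} (h : Adm φ₀ 0) {β b : ℝ} (hβ : 0 ≤ β) (hb : 0 < b) :
    G φ₀ β b 1 ≤ -3 * Real.log b := by
  refine G_le_of_le_I h hβ hb (le_of_eq ?_)
  unfold I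
  have e : ∀ x : Fin 1 → Pt, en φ₀ x = 0 := by
    intro x
    simp [en]
  simp only [e, mul_zero, Real.exp_zero, ENNReal.ofReal_one]
  rw [setLIntegral_const, one_mul, volume_pi_cube hb.le]
  congr 1
  have : -(-3 * Real.log b) = (3 : ℕ) * Real.log b := by push_cast; ring
  rw [this, Real.exp_nat_mul, Real.exp_log hb]
  simp

lemma cb_G_two {φ₀ : ℝ → ℝ} {δ η H : ℝ} (h : Core φ₀ δ η H) (hη : η ≤ 1) {β b : ℝ} (hβ : 0 ≤ β)
    (hδ : 0 < δ) (hb : δ ≤ b) :
    G φ₀ β b 2 ≤ Real.log 2 - 3 * Real.log (b / 2) - 3 * Real.log (3 / 20 * δ) := by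
  have hb0 : 0 < b := hδ.trans_le hb
  refine G_le_of_le_I (h.adm hη) hβ hb0 ?_
  unfold I
  set w : Pt := WithLp.toLp 2 (fun _ => 7 / 20 * δ) with hw
  set A : Set Pt := cube (b / 2) with hA
  set B : Set Pt := cube (3 / 20 * δ) with hB
  have hAm : MeasurableSet A := measurableSet_cube _
  have hBm : MeasurableSet B := measurableSet_cube _
  set W : Pt × Pt → ℝ≥0∞ := fun p =>
    A.indicator (fun _ => (1 : ℝ≥0∞)) p.1 * B.indicator (fun _ => (1 : ℝ≥0∞)) (p.2 - (p.1 + w))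
    with hW
  have hm1 : Measurable (A.indicator (fun _ => (1 : ℝ≥0∞))) := measurable_const.indicator hAm
  have hm2 : Measurable (B.indicator (fun _ => (1 : ℝ≥0∞))) := measurable_const.indicator hBm
  have hWm : Measurable W :=
    (hm1.comp measurable_fst).mul (hm2.comp (measurable_snd.sub (measurable_fst.add_const w)))
  have hint : ∫⁻ x : Fin 2 → Pt, W (MeasurableEquiv.finTwoArrow x) =
      ENNReal.ofReal ((b / 2) ^ 3) * ENNReal.ofReal ((3 / 20 * δ) ^ 3) := by
    rw [(volume_preserving_finTwoArrow Pt).lintegral_comp hWm, Measure.volume_eq_prod,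
      lintegral_prod _ hWm.aemeasurable]
    have e2 : ∀ y : Pt, ∫⁻ z, W (y, z) =
        A.indicator (fun _ => (1 : ℝ≥0∞)) y * ENNReal.ofReal ((3 / 20 * δ) ^ 3) := by
      intro y
      have hm3 : Measurable fun z : Pt => B.indicator (fun _ => (1 : ℝ≥0∞)) (z - (y + w)) :=
        hm2.comp (measurable_id.sub_const _)
      simp only [hW]
      rw [lintegral_const_mul _ hm3,
        lintegral_sub_right_eq_self (fun z => B.indicator (fun _ => (1 : ℝ≥0∞)) z),
        lintegral_indicator_const hBm, one_mul, hB, volume_cube (by positivity)]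
    simp only [e2]
    rw [lintegral_mul_const _ hm1, lintegral_indicator_const hAm, one_mul, hA,
      volume_cube (by positivity)]
  have hms : MeasurableSet (Set.pi Set.univ (fun _ : Fin 2 => cube b)) :=
    MeasurableSet.univ_pi fun _ => measurableSet_cube b
  have hval : ENNReal.ofReal ((Nat.factorial 2 : ℝ) *
      Real.exp (-(Real.log 2 - 3 * Real.log (b / 2) - 3 * Real.log (3 / 20 * δ)))) =
      ENNReal.ofReal ((b / 2) ^ 3) * ENNReal.ofReal ((3 / 20 * δ) ^ 3) := by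
    rw [← ENNReal.ofReal_mul (by positivity)]
    congr 1
    have : -(Real.log 2 - 3 * Real.log (b / 2) - 3 * Real.log (3 / 20 * δ)) =
        -Real.log 2 + ((3 : ℕ) * Real.log (b / 2) + (3 : ℕ) * Real.log (3 / 20 * δ)) := by
      push_cast; ring
    rw [this, Real.exp_add, Real.exp_add, Real.exp_nat_mul, Real.exp_nat_mul, Real.exp_neg,
      Real.exp_log (by positivity), Real.exp_log (by positivity), Real.exp_log (by positivity)]
    simp [Nat.factorial]
  rw [hval, ← hint, ← lintegral_indicator hms]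
  refine lintegral_mono fun x => ?_
  have ex : MeasurableEquiv.finTwoArrow x = (x 0, x 1) := rfl
  rw [ex]
  simp only [hW]
  by_cases h0 : x 0 ∈ A
  swap
  · rw [Set.indicator_of_notMem h0, zero_mul]; exact zero_le
  by_cases h1 : x 1 - (x 0 + w) ∈ B
  swap
  · rw [Set.indicator_of_notMem h1, mul_zero]; exact zero_le
  rw [Set.indicator_of_mem h0, Set.indicator_of_mem h1, one_mul]
  have hk : ∀ k, 7 / 20 * δ ≤ x 1 k - x 0 k ∧ x 1 k - x 0 k ≤ δ / 2 := by
    intro k
    obtain ⟨a, c⟩ := h1 k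
    have e : (x 1 - (x 0 + w)) k = x 1 k - (x 0 k + 7 / 20 * δ) := by simp [hw]
    rw [e] at a c
    constructor <;> linarith
  have hmem : x ∈ Set.pi Set.univ (fun _ : Fin 2 => cube b) := by
    intro i _
    fin_cases i
    · exact pk_cube_mono (by linarith) h0
    · intro k
      obtain ⟨a, c⟩ := h0 k
      obtain ⟨a', c'⟩ := hk k
      show 0 ≤ x 1 k ∧ x 1 k ≤ b
      constructor <;> linarith
  rw [Set.indicator_of_mem hmem]
  have hsq : dist (x 1) (x 0) ^ 2 = (x 1 0 - x 0 0) ^ 2 + (x 1 1 - x 0 1) ^ 2 +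
      (x 1 2 - x 0 2) ^ 2 := by
    rw [EuclideanSpace.dist_sq_eq, Fin.sum_univ_three]
    simp only [Real.dist_eq, sq_abs]
  have hk2 : ∀ k, (7 / 20 * δ) ^ 2 ≤ (x 1 k - x 0 k) ^ 2 ∧ (x 1 k - x 0 k) ^ 2 ≤ (δ / 2) ^ 2 := by
    intro k
    obtain ⟨a, c⟩ := hk k
    exact ⟨pow_le_pow_left₀ (by positivity) a 2, pow_le_pow_left₀ (by linarith) c 2⟩
  have hd0 := dist_nonneg (x := x 1) (y := x 0)
  have hd1 : δ / 2 ≤ dist (x 1) (x 0) := by
    refine (sq_le_sq₀ (by positivity) hd0).1 ?_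
    nlinarith [(hk2 0).1, (hk2 1).1, (hk2 2).1]
  have hd2 : dist (x 1) (x 0) ≤ δ := by
    refine (sq_le_sq₀ hd0 hδ.le).1 ?_
    nlinarith [(hk2 0).2, (hk2 1).2, (hk2 2).2]
  have hz := h.zero₁ _ hd1 hd2
  have e : en φ₀ x = 0 := by
    unfold en
    simp [Fin.sum_univ_two, hz, dist_comm (x 0) (x 1)]
  rw [e]
  simp

lemma cb_array {φ₀ : ℝ → ℝ} {δ η H : ℝ} (h : Core φ₀ δ η H) (hη0 : 0 < η) (hη : η ≤ 1) {β : ℝ}
    (hβ : 0 ≤ β) {L₀ : ℝ} (hL : 0 < L₀) (n : ℕ) :
    G φ₀ β ((1 + 2 * η) * L₀ + η / 2) (packingNumber L₀ * n) ≤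
      packingNumber L₀ * G φ₀ β (η / 2) n := by
  obtain ⟨X, hX, h2, h3⟩ := packingNumber_mem L₀
  have key := superadd (h.adm hη) hβ (R := 1 + η) (by positivity)
    (fun r hr => (h.zero₂ r hr).le) (b := η / 2) (L := (1 + 2 * η) * L₀ + η / 2) (by positivity)
    (by positivity) (C := {c // c ∈ X}) (fun c => (1 + 2 * η) • (c : Pt)) (fun _ => n) ?_ ?_
  · simpa [Finset.sum_const, Finset.card_univ, hX] using key
  · intro c y hy k
    obtain ⟨a, b⟩ := hy k
    obtain ⟨a', b'⟩ := h2 c c.2 k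
    have e : (y - (1 + 2 * η) • (c : Pt)) k = y k - (1 + 2 * η) * (c : Pt) k := by simp
    rw [e] at a b
    have h4 : (1 + 2 * η) * (c : Pt) k ≤ (1 + 2 * η) * L₀ := by gcongr
    have h5 : 0 ≤ (1 + 2 * η) * (c : Pt) k := by positivity
    constructor <;> linarith
  · intro c c' hne y y' hy hy'
    have h4 := h3 c c.2 c' c'.2 fun h => hne (Subtype.ext h)
    set z := y - (1 + 2 * η) • (c : Pt) with hz
    set z' := y' - (1 + 2 * η) • (c' : Pt) with hz'
    have h5 : dist z z' ≤ η := by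
      refine (sq_le_sq₀ dist_nonneg hη0.le).1 ?_
      rw [EuclideanSpace.dist_sq_eq, Fin.sum_univ_three]
      have hk : ∀ k, dist (z k) (z' k) ^ 2 ≤ (η / 2) ^ 2 := by
        intro k
        rw [Real.dist_eq, sq_abs]
        obtain ⟨a, b⟩ := hy k
        obtain ⟨a', b'⟩ := hy' k
        nlinarith
      nlinarith [hk 0, hk 1, hk 2]
    have h6 : dist ((1 + 2 * η) • (c : Pt)) ((1 + 2 * η) • (c' : Pt)) =
        (1 + 2 * η) * dist (c : Pt) c' := by
      rw [dist_smul₀, Real.norm_eq_abs, abs_of_pos (by positivity)]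
    have h7 : dist ((1 + 2 * η) • (c : Pt)) ((1 + 2 * η) • (c' : Pt)) ≤ dist y y' + dist z z' := by
      have := dist_sub_sub_le y z y' z'
      rwa [hz, hz', sub_sub_cancel, sub_sub_cancel] at this
    nlinarith

/-- Monomers, resp. dimers, placed near a dilated optimal packing. -/
theorem core_upper {p : ℝ} (hp0 : 0 < p)
    (hp : Tendsto (fun L : ℝ => (packingNumber L : ℝ) / L ^ 3) atTop (𝓝 p))
    {ε : ℝ} (hε : 0 < ε) :
    ∃ η q C : ℝ, 0 < η ∧ η ≤ 1 ∧ 0 < q ∧ p ≤ (1 + ε) * q ∧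
      ∀ (φ₀ : ℝ → ℝ) (δ H : ℝ), 0 < δ → δ ≤ η / 2 → Core φ₀ δ η H → ∀ β : ℝ, 0 < β →
        g φ₀ β q ≤ C ∧ g φ₀ β (2 * q) ≤ q * (-3 * Real.log δ) + C := by
  set η : ℝ := min 1 (ε / 27) with hη
  have hη0 : 0 < η := lt_min one_pos (by positivity)
  have hη1 : η ≤ 1 := min_le_left _ _
  have hηε : η ≤ ε / 27 := min_le_right _ _
  have hcube : (1 + 2 * η) ^ 3 < 1 + ε := by
    have a2 : η ^ 2 ≤ η := by nlinarith
    have a3 : η ^ 3 ≤ η := by nlinarith
    nlinarith
  have ht : Tendsto (fun L : ℝ => (1 + ε) * ((packingNumber L : ℝ) / L ^ 3) -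
      p * ((1 + 2 * η) + (η / 2 + 2) * L⁻¹) ^ 3) atTop
      (𝓝 ((1 + ε) * p - p * ((1 + 2 * η) + (η / 2 + 2) * 0) ^ 3)) :=
    (hp.const_mul _).sub (((tendsto_const_nhds.add
      (tendsto_inv_atTop_zero.const_mul _)).pow 3).const_mul p)
  have hpos : 0 < (1 + ε) * p - p * ((1 + 2 * η) + (η / 2 + 2) * 0) ^ 3 := by
    rw [mul_zero, add_zero]
    nlinarith
  obtain ⟨L₀, hL₀, hL₁⟩ := ((eventually_gt_atTop 0).and (ht.eventually (lt_mem_nhds hpos))).exists
  set m : ℝ := (1 + 2 * η) * L₀ + η / 2 with hm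
  have hm0 : 0 < m := by positivity
  set q : ℝ := (packingNumber L₀ : ℝ) / (m + 2) ^ 3 with hq
  have hpq : p ≤ (1 + ε) * q := by
    have e : ((1 + 2 * η) + (η / 2 + 2) * L₀⁻¹) ^ 3 = (m + 2) ^ 3 / L₀ ^ 3 := by
      rw [← div_pow, hm]; congr 1; field_simp; ring
    rw [e] at hL₁
    rw [hq, ← mul_div_assoc, le_div_iff₀ (by positivity)]
    have h3 : 0 < L₀ ^ 3 := by positivity
    have : p * (m + 2) ^ 3 / L₀ ^ 3 ≤ (1 + ε) * (packingNumber L₀ : ℝ) / L₀ ^ 3 := by
      rw [mul_div_assoc, mul_div_assoc]; linarith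
    rwa [div_le_div_iff_of_pos_right h3] at this
  have hq0 : 0 < q := by
    by_contra hcon
    have : (1 + ε) * q ≤ 0 := mul_nonpos_of_nonneg_of_nonpos (by positivity) (not_lt.1 hcon)
    linarith
  refine ⟨η, q, max (q * (-3 * Real.log (η / 2)))
    (q * (Real.log 2 - 3 * Real.log (η / 2 / 2) - 3 * Real.log (3 / 20))), hη0, hη1, hq0, hpq, ?_⟩
  intro φ₀ δ H hδ hδη hc β hβ
  have hP0 : (0 : ℝ) ≤ packingNumber L₀ := Nat.cast_nonneg _
  have hm3 : 0 < (m + 2) ^ 3 := by positivity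
  have gen : ∀ (n : ℕ) (a : ℝ), G φ₀ β (η / 2) n ≤ a → g φ₀ β (n * q) ≤ q * a := by
    intro n a ha
    have h1 := g_le_finite (hc.adm hη1) hβ hm0 (packingNumber L₀ * n)
    have h2 := cb_array hc hη0 hη1 hβ.le hL₀ n
    have e : ((packingNumber L₀ * n : ℕ) : ℝ) / (m + 2) ^ 3 = n * q := by
      rw [hq]; push_cast; ring
    rw [e] at h1
    refine h1.trans ?_
    rw [div_le_iff₀ hm3]
    refine h2.trans ?_
    have : q * a * (m + 2) ^ 3 = packingNumber L₀ * a := by
      rw [hq]; field_simp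
    rw [this]
    gcongr
  constructor
  · have := gen 1 _ (cb_G_one (hc.adm hη1) hβ.le (by positivity))
    rw [Nat.cast_one, one_mul] at this
    exact this.trans (le_max_left _ _)
  · have := gen 2 _ (cb_G_two hc hη1 hβ.le hδ hδη)
    rw [Nat.cast_ofNat, Real.log_mul (by norm_num) hδ.ne'] at this
    refine this.trans ?_
    have h2 := le_max_right (q * (-3 * Real.log (η / 2)))
      (q * (Real.log 2 - 3 * Real.log (η / 2 / 2) - 3 * Real.log (3 / 20)))
    linarith

end Crest.Agent.R149
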