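import Mathlib
import Crest.Prelude.Def_PairPotential
import Crest.Prelude.Def_UnitPacking

/-!
# Row 149 (S0209, S0210): definitions for the pair-potential phase transition

Blueprint.  The potential is `φ = φ₀ - ∑ₖ aₖ J ℓₖ`, where `φ₀ ≥ 0` is a short-range core (`Core`)
and `J ℓ` is the normalised overlap volume of two balls of radius `ℓ` (a Kac kernel).
* `Basic`, `Superadd`, `Thermo`: thermodynamic limit `g` for potentials that are `≤ 0` beyond
  distance `2` (pure superadditivity), convexity in the density, concavity in `β`.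
* `Kernel`: estimates for `J` and superstability of the core.
* `Cells`, `LP`: quantitative Lebowitz-Penrose step (adding one Kac term).
* `Packing`, `CoreBounds`: packing density and the shape of the free energy of the core.
* `Abstract`: convex-analysis induction producing a triple point, hence a kink in `β`.
* `Main`: choice of the parameters.
-/

namespace Crest.Agent.R149

open MeasureTheory Crest.ProbabilityR.Continuum
open scoped ENNReal

open Classical in
/-- Symmetric form of the interaction energy, for an arbitrary finite index type. -/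
noncomputable def en (φ : ℝ → ℝ) {ι : Type} [Fintype ι] (x : ι → Pt) : ℝ :=
  (1 / 2) * ∑ i, ∑ j, if i = j then 0 else φ (dist (x i) (x j))

/-- Unnormalised partition function, as a lower integral, for an arbitrary region and index type. -/
noncomputable def I (φ : ℝ → ℝ) (β : ℝ) (Λ : Set Pt) (ι : Type) [Fintype ι] : ℝ≥0∞ :=
  ∫⁻ x in Set.pi Set.univ (fun _ : ι => Λ), ENNReal.ofReal (Real.exp (-β * en φ x))

/-- Minus the logarithm of the canonical partition function. -/
noncomputable def G (φ : ℝ → ℝ) (β L : ℝ) (N : ℕ) : ℝ := -Real.log (partitionFn φ L N β)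

/-- `β` times the free energy per unit volume (a genuine limit for admissible potentials). -/
noncomputable def g (φ : ℝ → ℝ) (β ρ : ℝ) : ℝ :=
  Filter.limUnder Filter.atTop (fun L : ℝ => G φ β L ⌊ρ * L ^ 3⌋₊ / L ^ 3)

/-- Admissible potentials: measurable, non-positive beyond distance `2`, stable. -/
structure Adm (φ : ℝ → ℝ) (B : ℝ) : Prop where
  meas : Measurable φ
  nonpos : ∀ r, 2 ≤ r → φ r ≤ 0
  B_nonneg : 0 ≤ B
  stable : ∀ (N : ℕ) (x : Fin N → Pt), -B * N ≤ en φ x

/-- Index of the half-open grid cell (side `m`, diagonal offset `t`) containing the point `y`. -/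
noncomputable def idx (m t : ℝ) (y : Pt) : Fin 3 → ℤ := fun k => ⌊(y k + t) / m⌋

open Classical in
/-- Number of ordered pairs (diagonal included) lying in the same grid cell: `∑_c n_c ^ 2`. -/
noncomputable def same (m t : ℝ) {ι : Type} [Fintype ι] (x : ι → Pt) : ℝ :=
  ∑ i, ∑ j, if idx m t (x i) = idx m t (x j) then 1 else 0

open Classical in
/-- The part of the energy coming from pairs in the same grid cell. -/
noncomputable def enSame (φ : ℝ → ℝ) (m t : ℝ) {ι : Type} [Fintype ι] (x : ι → Pt) : ℝ :=
  (1 / 2) * ∑ i, ∑ j,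
    if i = j then 0 else if idx m t (x i) = idx m t (x j) then φ (dist (x i) (x j)) else 0

/-- `∑_q n_q ^ 2` for the fixed grid of side `1/2`. -/
noncomputable def X {ι : Type} [Fintype ι] (x : ι → Pt) : ℝ := same (1 / 2) 0 x

/-- The Kac kernel: overlap volume of two balls of radius `ℓ` whose centres are at distance `r`,
divided by the square of the volume of the ball. -/
noncomputable def J (ℓ r : ℝ) : ℝ :=
  volume.real (Metric.ball (0 : Pt) ℓ ∩ Metric.ball (EuclideanSpace.single (0 : Fin 3) r) ℓ) /
    volume.real (Metric.ball (0 : Pt) ℓ) ^ 2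

/-- The short-range core. -/
structure Core (φ₀ : ℝ → ℝ) (δ η H : ℝ) : Prop where
  meas : Measurable φ₀
  nonneg : ∀ r, 0 ≤ φ₀ r
  hard₁ : ∀ r, 0 ≤ r → r ≤ δ / 4 → H ≤ φ₀ r
  hard₂ : ∀ r, 2 * δ ≤ r → r ≤ 1 → H ≤ φ₀ r
  zero₁ : ∀ r, δ / 2 ≤ r → r ≤ δ → φ₀ r = 0
  zero₂ : ∀ r, 1 + η ≤ r → φ₀ r = 0

/-- The absolute constant in the superstability estimate for the core. -/
noncomputable def Mc : ℝ := 2000001

end Crest.Agent.R149
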