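import Crest.Agent.R149.Main

/-! # Row 149: rescaling of length and energy, and the two concrete cores -/

namespace Crest.Agent.R149

open MeasureTheory Crest.ProbabilityR.Continuum Filter Topology Set
open scoped Pointwise

theorem energy_rescale (φ : ℝ → ℝ) (b : ℝ) {l : ℝ} (hl : 0 < l) {N : ℕ} (x : Fin N → Pt) :
    energy (fun r => b * φ (r / l)) x = b * energy φ (l⁻¹ • x) := by
  unfold energy
  rw [Finset.mul_sum]
  refine Finset.sum_congr rfl fun p _ => ?_
  simp only [Pi.smul_apply, dist_smul₀, norm_inv, Real.norm_eq_abs, abs_of_pos hl]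
  rw [div_eq_inv_mul]

theorem smul_pi_cube {l : ℝ} (hl : 0 < l) (L : ℝ) (N : ℕ) :
    l⁻¹ • (Set.pi Set.univ (fun _ : Fin N => cube L)) =
      Set.pi Set.univ (fun _ : Fin N => cube (L / l)) := by
  ext x
  rw [Set.mem_smul_set_iff_inv_smul_mem₀ (inv_pos.mpr hl).ne', inv_inv]
  simp only [Set.mem_pi, Set.mem_univ, true_implies, cube, Set.mem_setOf_eq, Pi.smul_apply,
    PiLp.smul_apply, smul_eq_mul]
  refine forall_congr' fun i => forall_congr' fun k => ?_
  rw [le_div_iff₀ hl, mul_comm (x i k) l, mul_nonneg_iff_of_pos_left hl]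

theorem partitionFn_rescale (φ : ℝ → ℝ) (b : ℝ) {l : ℝ} (hl : 0 < l) (L β : ℝ) (N : ℕ) :
    partitionFn (fun r => b * φ (r / l)) L N β = l ^ (3 * N) * partitionFn φ (L / l) N (b * β) := by
  unfold partitionFn
  have h := Measure.setIntegral_comp_smul_of_pos (volume : Measure (Fin N → Pt))
    (fun x => Real.exp (-(b * β) * energy φ x)) (Set.pi Set.univ (fun _ : Fin N => cube L))
    (inv_pos.mpr hl)
  rw [smul_pi_cube hl] at h
  have hfin : Module.finrank ℝ (Fin N → Pt) = 3 * N := by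
    rw [Module.finrank_pi_fintype]; simp [mul_comm]
  rw [hfin, inv_pow, inv_inv, smul_eq_mul] at h
  simp_rw [energy_rescale φ b hl]
  rw [mul_left_comm, ← h]
  congr 2
  funext x
  congr 1
  ring

theorem tendsto_rescale {φ : ℝ → ℝ} {B : ℝ} (h : Adm φ B) {b l : ℝ} (hb : 0 < b) (hl : 0 < l)
    {ρ β : ℝ} (hρ : 0 ≤ ρ) (hβ : 0 < β) :
    Tendsto (fun L : ℝ => -(1 / (β * L ^ 3)) *
        Real.log (partitionFn (fun r => b * φ (r / l)) L ⌊ρ * L ^ 3⌋₊ β)) atTop
      (𝓝 ((-(3 * ρ * Real.log l) + g φ (b * β) (ρ * l ^ 3) / l ^ 3) / β)) := by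
  have h1 := (tendsto_g h (mul_pos hb hβ) (show 0 ≤ ρ * l ^ 3 by positivity)).comp
    (tendsto_id.atTop_div_const hl)
  have h2 := lp_tendsto_N hρ
  have h3 := ((((h2.const_mul 3).mul_const (Real.log l)).neg).add (h1.div_const (l ^ 3))).div_const β
  refine h3.congr' ?_
  filter_upwards [eventually_gt_atTop 0] with L hL
  have hpos := partitionFn_pos h (mul_pos hb hβ).le (div_pos hL hl) ⌊ρ * L ^ 3⌋₊
  have e1 : ρ * l ^ 3 * (L / l) ^ 3 = ρ * L ^ 3 := by field_simp
  simp only [Function.comp, id, e1, G]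
  rw [partitionFn_rescale φ b hl, Real.log_mul (by positivity) hpos.ne', Real.log_pow]
  push_cast
  field_simp
  ring

theorem kink_rescale {u : ℝ → ℝ} {b c d Dl Dr : ℝ} (hb : 0 < b) (hd : 0 < d)
    (hl : HasDerivWithinAt u Dl (Iio b) b) (hr : HasDerivWithinAt u Dr (Ioi b) b) (hlt : Dr < Dl) :
    ∃ Dl' Dr' : ℝ, HasDerivWithinAt (fun β => (c + u (b * β) / d) / β) Dl' (Iio 1) 1 ∧
      HasDerivWithinAt (fun β => (c + u (b * β) / d) / β) Dr' (Ioi 1) 1 ∧ Dr' < Dl' := by
  have key : ∀ (D : ℝ) (s t : Set ℝ), HasDerivWithinAt u D t b → MapsTo (fun β => b * β) s t →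
      HasDerivWithinAt (fun β => (c + u (b * β) / d) / β) (D * b / d - (c + u b / d)) s 1 := by
    intro D s t hu hm
    have h1 : HasDerivWithinAt (fun β : ℝ => b * β) b s 1 := by
      simpa using (hasDerivWithinAt_id (1 : ℝ) s).const_mul b
    have h2 : HasDerivWithinAt u D t ((fun β : ℝ => b * β) 1) := by simpa using hu
    have h3 := (((h2.comp 1 h1 hm).div_const d).const_add c).div (hasDerivWithinAt_id (1 : ℝ) s)
      one_ne_zero
    exact (h3.congr_deriv (by simp)).congr (fun _ _ => rfl) rfl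
  refine ⟨_, _, key Dl _ _ hl (fun β hβ => ?_), key Dr _ _ hr (fun β hβ => ?_), ?_⟩
  · exact mul_lt_of_lt_one_right hb hβ
  · exact lt_mul_of_one_lt_right hb hβ
  · have : Dr * b / d < Dl * b / d := by gcongr
    linarith

/-- Truncation to `[0, 1]`. -/
noncomputable def clamp (t : ℝ) : ℝ := max 0 (min 1 t)

theorem clamp_nonneg (t : ℝ) : 0 ≤ clamp t := le_max_left _ _

theorem clamp_le_one (t : ℝ) : clamp t ≤ 1 := max_le zero_le_one (min_le_left _ _)

theorem clamp_of_nonpos {t : ℝ} (h : t ≤ 0) : clamp t = 0 :=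
  max_eq_left ((min_le_right _ _).trans h)

theorem clamp_of_one_le {t : ℝ} (h : 1 ≤ t) : clamp t = 1 := by
  unfold clamp; rw [min_eq_left h, max_eq_right zero_le_one]

theorem continuous_clamp : Continuous clamp := by unfold clamp; fun_prop

/-- A bounded continuous core. -/
noncomputable def softCore (δ η H r : ℝ) : ℝ :=
  H * max (clamp ((δ / 2 - r) / (δ / 4))) (min (clamp ((r - δ) / δ)) (clamp ((1 + η - r) / η)))

theorem continuous_softCore (δ η H : ℝ) : Continuous (softCore δ η H) := by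
  have := continuous_clamp
  unfold softCore
  fun_prop

theorem softCore_le {δ η H : ℝ} (hH : 0 ≤ H) (r : ℝ) : softCore δ η H r ≤ H :=
  mul_le_of_le_one_right hH (max_le (clamp_le_one _) ((min_le_left _ _).trans (clamp_le_one _)))

theorem core_softCore {δ η H : ℝ} (hδ : 0 < δ) (hδη : δ ≤ η / 2) (hη : η ≤ 1) (hH : 0 ≤ H) :
    Core (softCore δ η H) δ η H := by
  have hη0 : 0 < η := by linarith
  refine ⟨(continuous_softCore δ η H).measurable, fun r => ?_, fun r h1 h2 => ?_, fun r h1 h2 => ?_,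
    fun r h1 h2 => ?_, fun r h1 => ?_⟩
  · exact mul_nonneg hH ((clamp_nonneg _).trans (le_max_left _ _))
  · refine le_mul_of_one_le_right hH (le_trans ?_ (le_max_left _ _))
    rw [clamp_of_one_le]
    rw [le_div_iff₀ (by positivity)]; linarith
  · refine le_mul_of_one_le_right hH (le_trans ?_ (le_max_right _ _))
    rw [clamp_of_one_le, clamp_of_one_le, min_self]
    · rw [le_div_iff₀ hη0]; linarith
    · rw [le_div_iff₀ hδ]; linarith
  · unfold softCore
    rw [clamp_of_nonpos (div_nonpos_of_nonpos_of_nonneg (by linarith) (by positivity)),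
      clamp_of_nonpos (t := (r - δ) / δ) (div_nonpos_of_nonpos_of_nonneg (by linarith) hδ.le),
      min_eq_left (clamp_nonneg _), max_self, mul_zero]
  · unfold softCore
    rw [clamp_of_nonpos (div_nonpos_of_nonpos_of_nonneg (by linarith) (by positivity)),
      clamp_of_nonpos (t := (1 + η - r) / η) (div_nonpos_of_nonpos_of_nonneg (by linarith) hη0.le),
      min_eq_right (clamp_nonneg _), max_self, mul_zero]

/-- A core that diverges at the origin. -/
noncomputable def hardCore (δ η H r : ℝ) : ℝ := softCore δ η H r + max 0 (r⁻¹ - 4 / δ)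

theorem core_hardCore {δ η H : ℝ} (hδ : 0 < δ) (hδη : δ ≤ η / 2) (hη : η ≤ 1) (hH : 0 ≤ H) :
    Core (hardCore δ η H) δ η H := by
  have h := core_softCore hδ hδη hη hH
  have hz : ∀ r, δ / 2 ≤ r → max 0 (r⁻¹ - 4 / δ) = 0 := by
    intro r hr
    apply max_eq_left
    have h1 : r⁻¹ ≤ (δ / 4)⁻¹ := inv_anti₀ (by positivity) (by linarith)
    rw [inv_div] at h1
    linarith
  refine ⟨h.meas.add (measurable_const.max (measurable_inv.sub measurable_const)), fun r => ?_,
    fun r h1 h2 => ?_, fun r h1 h2 => ?_, fun r h1 h2 => ?_, fun r h1 => ?_⟩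
  · exact add_nonneg (h.nonneg r) (le_max_left _ _)
  · exact (h.hard₁ r h1 h2).trans (le_add_of_nonneg_right (le_max_left _ _))
  · exact (h.hard₂ r h1 h2).trans (le_add_of_nonneg_right (le_max_left _ _))
  · unfold hardCore; rw [h.zero₁ r h1 h2, hz r h1, add_zero]
  · unfold hardCore; rw [h.zero₂ r h1, hz r (by linarith), add_zero]

end Crest.Agent.R149
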