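import Crest.Agent.R149.LP
import Crest.Agent.R149.CoreBounds

/-! # Row 149: sums of Kac kernels and the potentials `φ₀ - ∑ aₖ J ℓₖ` -/

namespace Crest.Agent.R149

open MeasureTheory Crest.ProbabilityR.Continuum Filter Topology

/-- Infinite sum of Kac kernels. -/
noncomputable def kac (a ℓ : ℕ → ℝ) (r : ℝ) : ℝ := ∑' j, a j * J (ℓ j) r

/-- Finite sum of Kac kernels. -/
noncomputable def kacFin (a ℓ : ℕ → ℝ) (k : ℕ) (r : ℝ) : ℝ := ∑ j ∈ Finset.range k, a j * J (ℓ j) r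

theorem J_le_one {ℓ : ℝ} (hℓ : 1 ≤ ℓ) (r : ℝ) : J ℓ r ≤ 1 := by
  refine (J_le (by linarith) r).trans ?_
  rw [div_le_one (by positivity)]
  exact one_le_pow₀ hℓ

section
variable {a ℓ : ℕ → ℝ}

theorem kac_term_le (ha : ∀ j, 0 ≤ a j) (hℓ : ∀ j, 1 ≤ ℓ j) (j : ℕ) (r : ℝ) :
    ‖a j * J (ℓ j) r‖ ≤ a j := by
  rw [Real.norm_eq_abs, abs_of_nonneg (mul_nonneg (ha j) (J_nonneg _ _))]
  exact mul_le_of_le_one_right (ha j) (J_le_one (hℓ j) r)

theorem summable_kac (ha : ∀ j, 0 ≤ a j) (hs : Summable a) (hℓ : ∀ j, 1 ≤ ℓ j) (r : ℝ) :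
    Summable (fun j => a j * J (ℓ j) r) :=
  Summable.of_norm_bounded hs (fun j => kac_term_le ha hℓ j r)

theorem kac_nonneg (ha : ∀ j, 0 ≤ a j) (r : ℝ) : 0 ≤ kac a ℓ r :=
  tsum_nonneg fun j => mul_nonneg (ha j) (J_nonneg _ _)

theorem kac_le (ha : ∀ j, 0 ≤ a j) (hs : Summable a) (hℓ : ∀ j, 1 ≤ ℓ j) (r : ℝ) :
    kac a ℓ r ≤ ∑' j, a j :=
  (summable_kac ha hs hℓ r).tsum_le_tsum
    (fun j => mul_le_of_le_one_right (ha j) (J_le_one (hℓ j) r)) hs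

theorem continuous_kac (ha : ∀ j, 0 ≤ a j) (hs : Summable a) (hℓ : ∀ j, 1 ≤ ℓ j) :
    Continuous (kac a ℓ) :=
  continuous_tsum (fun j => continuous_const.mul (continuous_J (by linarith [hℓ j]))) hs
    (fun j r => kac_term_le ha hℓ j r)

theorem kacFin_nonneg (ha : ∀ j, 0 ≤ a j) (k : ℕ) (r : ℝ) : 0 ≤ kacFin a ℓ k r :=
  Finset.sum_nonneg fun j _ => mul_nonneg (ha j) (J_nonneg _ _)

theorem continuous_kacFin (hℓ : ∀ j, 1 ≤ ℓ j) (k : ℕ) : Continuous (kacFin a ℓ k) :=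
  continuous_finsetSum _ fun j _ => continuous_const.mul (continuous_J (by linarith [hℓ j]))

theorem kacFin_succ (k : ℕ) (r : ℝ) : kacFin a ℓ (k + 1) r = kacFin a ℓ k r + a k * J (ℓ k) r :=
  Finset.sum_range_succ _ _

theorem kac_eq_add (ha : ∀ j, 0 ≤ a j) (hs : Summable a) (hℓ : ∀ j, 1 ≤ ℓ j) (k : ℕ) (r : ℝ) :
    kac a ℓ r = kacFin a ℓ k r + kac (fun j => a (j + k)) (fun j => ℓ (j + k)) r :=
  ((summable_kac ha hs hℓ r).sum_add_tsum_nat_add k).symm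

theorem en_kacFin_le (ha : ∀ j, 0 ≤ a j) (hℓ : ∀ j, 1 ≤ ℓ j) (k : ℕ) {ι : Type} [Fintype ι]
    (x : ι → Pt) : en (kacFin a ℓ k) x ≤ 256 * (∑ j ∈ Finset.range k, a j) * X x := by
  induction k with
  | zero => simp [en, kacFin]
  | succ k ih =>
    have : kacFin a ℓ (k + 1) = fun r => kacFin a ℓ k r + a k * J (ℓ k) r :=
      funext (kacFin_succ k)
    rw [this, en_add, en_mul, Finset.sum_range_succ]
    have := mul_le_mul_of_nonneg_left (en_J_le_X (hℓ k) x) (ha k)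
    linarith

theorem en_kac_le (ha : ∀ j, 0 ≤ a j) (hs : Summable a) (hℓ : ∀ j, 1 ≤ ℓ j) {ι : Type} [Fintype ι]
    (x : ι → Pt) : en (kac a ℓ) x ≤ 256 * (∑' j, a j) * X x := by
  have h1 : Tendsto (fun k => en (kacFin a ℓ k) x) atTop (𝓝 (en (kac a ℓ) x)) := by
    unfold en
    refine Tendsto.const_mul _ (tendsto_finsetSum _ fun i _ => tendsto_finsetSum _ fun j _ => ?_)
    split_ifs
    · exact tendsto_const_nhds
    · exact (summable_kac ha hs hℓ _).hasSum.tendsto_sum_nat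
  refine le_of_tendsto' h1 fun k => (en_kacFin_le ha hℓ k x).trans ?_
  have h2 := hs.sum_le_tsum (Finset.range k) (fun j _ => ha j)
  have h3 : 0 ≤ X x := same_nonneg _ _ x
  gcongr

end

/-- Core minus an attractive part dominated by the superstability form. -/
theorem adm_of_attr {φ₀ ψ : ℝ → ℝ} {δ η H A : ℝ} (h : Core φ₀ δ η H) (hδ : 0 < δ) (hη : η ≤ 1)
    (hH : 0 ≤ H) (hψm : Measurable ψ) (hψ0 : ∀ r, 0 ≤ ψ r)
    (hψ : ∀ (N : ℕ) (x : Fin N → Pt), en ψ x ≤ A * X x) (hA : A ≤ H / (2 * Mc)) :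
    Adm (fun r => φ₀ r - ψ r) (H / 2) ∧ ∀ (N : ℕ) (x : Fin N → Pt),
      (H / (2 * Mc) - A) * X x - H / 2 * N ≤ en (fun r => φ₀ r - ψ r) x := by
  have key : ∀ (N : ℕ) (x : Fin N → Pt),
      (H / (2 * Mc) - A) * X x - H / 2 * N ≤ en (fun r => φ₀ r - ψ r) x := by
    intro N x
    rw [en_sub]
    linarith [core_superstable h hδ hH x, hψ N x]
  refine ⟨⟨h.meas.sub hψm, fun r hr => ?_, by linarith, fun N x => ?_⟩, key⟩
  · rw [h.zero₂ r (by linarith)]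
    linarith [hψ0 r]
  · have h1 : 0 ≤ (H / (2 * Mc) - A) * X x := mul_nonneg (by linarith) (same_nonneg _ _ x)
    linarith [key N x]

theorem Mc_pos : 0 < Mc := by unfold Mc; norm_num

theorem one_le_Mc : 1 ≤ Mc := by unfold Mc; norm_num

/-- Superstability beats the Kac attraction at high density. -/
theorem high_density {φ : ℝ → ℝ} {H A a T q β' β ρ : ℝ} (hφ : Adm φ (H / 2))
    (hss : ∀ (N : ℕ) (x : Fin N → Pt), (H / (2 * Mc) - 256 * A) * X x - H / 2 * N ≤ en φ x)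
    (hA : 0 ≤ A) (haA : a ≤ A) (hHA : 1056 * Mc * A ≤ H) (hT : 0 ≤ T) (hβ' : 0 < β')
    (hHT : 2 * T + 1 ≤ β' * H / 2) (hβ : β' ≤ β) (hρ : 32 * Mc ≤ ρ) (hqρ : q ≤ ρ) :
    T * ρ + β * a * ρ ^ 2 / 2 + q * T ≤ g φ β ρ := by
  have hM := Mc_pos
  have hM1 := one_le_Mc
  have hβ0 : 0 < β := by linarith
  have hρ1 : 1 ≤ ρ := by linarith
  set y := H / (32 * Mc) with hy
  have hHy : H = 32 * Mc * y := by rw [hy]; field_simp
  have hy1 : 33 * A ≤ y := by rw [hy, le_div_iff₀ (by positivity)]; linarith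
  have hy2 : H / (2 * Mc) = 16 * y := by rw [hy]; field_simp; ring
  have hH0 : 0 ≤ H := le_trans (by positivity) hHA
  have h1 := g_lower_superstable hφ (κ := H / (2 * Mc) - 256 * A) (by rw [hy2]; linarith) hss hβ0
    (show 0 ≤ ρ by linarith)
  rw [hy2] at h1
  have hy0 : 0 ≤ y := by linarith
  have h2 : H * ρ ≤ y * ρ ^ 2 := by
    have := mul_le_mul_of_nonneg_left hρ (show 0 ≤ y * ρ by positivity)
    rw [hHy]; linarith
  have h3 : (a / 2 + 32 * A) * ρ ^ 2 ≤ y * ρ ^ 2 :=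
    mul_le_mul_of_nonneg_right (by linarith) (sq_nonneg ρ)
  have h4 : a * ρ ^ 2 / 2 + H * ρ / 2 ≤ (16 * y - 256 * A) * ρ ^ 2 / 8 - H / 2 * ρ := by linarith
  have h5 := mul_le_mul_of_nonneg_left h4 hβ0.le
  have h6 : β' * (H * ρ / 2) ≤ β * (H * ρ / 2) := mul_le_mul_of_nonneg_right hβ (by positivity)
  have h7 := mul_le_mul_of_nonneg_right hHT (show 0 ≤ ρ by linarith)
  have h8 := mul_le_mul_of_nonneg_right hqρ hT
  linarith

theorem g_lower_crude {φ : ℝ → ℝ} {B β ρ : ℝ} (hφ : Adm φ B) (hβ : 0 < β) (hρ : 0 ≤ ρ) :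
    -1 - β * B * ρ ≤ g φ β ρ := by
  have := g_lower_superstable hφ (κ := 0) le_rfl (fun N x => by linarith [hφ.stable N x]) hβ hρ
  linarith

end Crest.Agent.R149
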