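import Crest.Agent.R149.Basic

/-! # Row 149: the Kac kernel `J` and superstability of the core -/

namespace Crest.Agent.R149

open MeasureTheory Crest.ProbabilityR.Continuum

theorem kn_vol_ball (x : Pt) {r : ℝ} (hr : 0 ≤ r) :
    volume.real (Metric.ball x r) = r ^ 3 * (Real.pi * 4 / 3) := by
  rw [measureReal_def, EuclideanSpace.volume_ball_fin_three, ENNReal.toReal_mul, ENNReal.toReal_pow,
    ENNReal.toReal_ofReal hr, ENNReal.toReal_ofReal (by positivity)]

theorem kn_ball_ne_top (x : Pt) (r : ℝ) : volume (Metric.ball x r) ≠ ⊤ :=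
  measure_ball_lt_top.ne

theorem kn_c_ge : 1 ≤ Real.pi * 4 / 3 := by linarith [Real.pi_gt_three]

theorem kn_c_le : Real.pi * 4 / 3 ≤ 5 := by linarith [Real.pi_lt_d2]

theorem J_nonneg (ℓ r : ℝ) : 0 ≤ J ℓ r :=
  div_nonneg measureReal_nonneg (sq_nonneg _)

theorem J_le {ℓ : ℝ} (hℓ : 0 < ℓ) (r : ℝ) : J ℓ r ≤ 1 / ℓ ^ 3 := by
  have h1 : volume.real (Metric.ball (0 : Pt) ℓ ∩
      Metric.ball (EuclideanSpace.single (0 : Fin 3) r) ℓ) ≤ volume.real (Metric.ball (0 : Pt) ℓ) :=
    measureReal_mono Set.inter_subset_left (kn_ball_ne_top _ _)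
  have hc := kn_c_ge
  unfold J
  rw [kn_vol_ball 0 hℓ.le] at h1 ⊢
  rw [div_le_div_iff₀ (by positivity) (by positivity)]
  have h3 : 0 < ℓ ^ 3 := by positivity
  set c := Real.pi * 4 / 3
  set u := ℓ ^ 3
  have h4 := mul_le_mul_of_nonneg_right h1 h3.le
  have h5 : u * c * u ≤ 1 * (u * c) ^ 2 := by
    have : 0 ≤ u * c * u * (c - 1) := by
      have : 0 ≤ c - 1 := by linarith
      positivity
    nlinarith
  linarith

theorem kn_norm_single (r : ℝ) : ‖(EuclideanSpace.single (0 : Fin 3) r : Pt)‖ = |r| := by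
  simp

theorem J_eq_zero {ℓ r : ℝ} (hr : 2 * ℓ ≤ r) : J ℓ r = 0 := by
  have h : Disjoint (Metric.ball (0 : Pt) ℓ)
      (Metric.ball (EuclideanSpace.single (0 : Fin 3) r) ℓ) := by
    refine Metric.ball_disjoint_ball ?_
    rw [dist_zero_left, kn_norm_single]
    linarith [le_abs_self r]
  unfold J
  rw [Set.disjoint_iff_inter_eq_empty.1 h]
  simp

theorem J_lower {ℓ r : ℝ} (hℓ : 0 < ℓ) (hr0 : 0 ≤ r) (hr : r ≤ ℓ / 2) :
    1 / (40 * ℓ ^ 3) ≤ J ℓ r := by
  have h0 : Metric.ball (0 : Pt) (ℓ / 2) ⊆ Metric.ball (0 : Pt) ℓ ∩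
      Metric.ball (EuclideanSpace.single (0 : Fin 3) r) ℓ := by
    refine Set.subset_inter (Metric.ball_subset_ball (by linarith)) (Metric.ball_subset ?_)
    rw [dist_zero_left, kn_norm_single, abs_of_nonneg hr0]
    linarith
  have h1 := measureReal_mono (μ := volume) h0
    (measure_ne_top_of_subset Set.inter_subset_left (kn_ball_ne_top _ _))
  have hc := kn_c_ge
  have hc' := kn_c_le
  unfold J
  rw [kn_vol_ball 0 (by linarith : 0 ≤ ℓ / 2)] at h1
  rw [kn_vol_ball 0 hℓ.le, div_le_div_iff₀ (by positivity) (by positivity)]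
  have h3 : 0 < ℓ ^ 3 := by positivity
  have e : (ℓ / 2) ^ 3 = ℓ ^ 3 / 8 := by ring
  rw [e] at h1
  set c := Real.pi * 4 / 3
  set u := ℓ ^ 3
  have h4 := mul_le_mul_of_nonneg_right h1 (by positivity : 0 ≤ 40 * u)
  have h5 : 1 * (u * c) ^ 2 ≤ u / 8 * c * (40 * u) := by
    have : 0 ≤ u * c * u * (5 - c) := by
      have : 0 ≤ 5 - c := by linarith
      positivity
    nlinarith
  linarith

theorem kn_overlap_le {ℓ : ℝ} (hℓ : 0 < ℓ) (a b : Pt) :
    volume.real (Metric.ball (0 : Pt) ℓ ∩ Metric.ball a ℓ) ≤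
      volume.real (Metric.ball (0 : Pt) ℓ ∩ Metric.ball b ℓ) +
        ((ℓ + dist a b) ^ 3 - ℓ ^ 3) * (Real.pi * 4 / 3) := by
  have hd : 0 ≤ dist a b := dist_nonneg
  have h0 : Metric.ball (0 : Pt) ℓ ∩ Metric.ball a ℓ ⊆ (Metric.ball (0 : Pt) ℓ ∩ Metric.ball b ℓ) ∪
      (Metric.ball b (ℓ + dist a b) \ Metric.ball b ℓ) := by
    rintro y ⟨h1, h2⟩
    by_cases h : y ∈ Metric.ball b ℓ
    · exact Or.inl ⟨h1, h⟩
    · refine Or.inr ⟨?_, h⟩
      rw [Metric.mem_ball] at h2 ⊢
      linarith [dist_triangle y a b]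
  have h1 := measureReal_mono (μ := volume) h0 (measure_union_ne_top
    (measure_ne_top_of_subset Set.inter_subset_left (kn_ball_ne_top _ _))
    (measure_ne_top_of_subset Set.sdiff_subset (kn_ball_ne_top _ _)))
  have h2 := measureReal_union_le (μ := volume) (Metric.ball (0 : Pt) ℓ ∩ Metric.ball b ℓ)
    (Metric.ball b (ℓ + dist a b) \ Metric.ball b ℓ)
  have h3 := measureReal_sdiff (μ := volume) (s₁ := Metric.ball b (ℓ + dist a b))
    (s₂ := Metric.ball b ℓ) (Metric.ball_subset_ball (by linarith)) measurableSet_ball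
    (kn_ball_ne_top _ _)
  rw [kn_vol_ball b hℓ.le, kn_vol_ball b (by linarith)] at h3
  linarith

theorem continuous_J {ℓ : ℝ} (hℓ : 0 < ℓ) : Continuous (J ℓ) := by
  unfold J
  refine Continuous.div_const ?_ _
  have hs : Continuous fun r : ℝ => (EuclideanSpace.single (0 : Fin 3) r : Pt) := by
    refine LipschitzWith.continuous (K := 1) (LipschitzWith.of_dist_le_mul fun r s => ?_)
    simp
  have hf : Continuous fun a : Pt => volume.real (Metric.ball (0 : Pt) ℓ ∩ Metric.ball a ℓ) := by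
    rw [continuous_iff_continuousAt]
    intro b
    rw [ContinuousAt, tendsto_iff_dist_tendsto_zero]
    refine squeeze_zero (g := fun a : Pt => ((ℓ + dist a b) ^ 3 - ℓ ^ 3) * (Real.pi * 4 / 3))
      (fun _ => dist_nonneg) (fun a => ?_) ?_
    · rw [Real.dist_eq, abs_le]
      have h1 := kn_overlap_le hℓ a b
      have h2 := kn_overlap_le hℓ b a
      rw [dist_comm b a] at h2
      constructor <;> linarith
    · have : Continuous fun a : Pt => ((ℓ + dist a b) ^ 3 - ℓ ^ 3) * (Real.pi * 4 / 3) := by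
        fun_prop
      simpa using this.tendsto b
  exact hf.comp hs

/-- `J` at the distance of two points is the overlap of the balls around them. -/
theorem J_dist (ℓ : ℝ) (x y : Pt) :
    J ℓ (dist x y) = volume.real (Metric.ball x ℓ ∩ Metric.ball y ℓ) /
      volume.real (Metric.ball (0 : Pt) ℓ) ^ 2 := by
  unfold J
  congr 1
  have hn : ‖(EuclideanSpace.single (0 : Fin 3) (dist x y) : Pt)‖ = ‖y - x‖ := by
    rw [kn_norm_single, abs_of_nonneg dist_nonneg, dist_comm, dist_eq_norm]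
  set R : Pt ≃ₗᵢ[ℝ] Pt := Submodule.reflection
    (ℝ ∙ ((EuclideanSpace.single (0 : Fin 3) (dist x y) : Pt) - (y - x)))ᗮ with hR
  have hRe : R (EuclideanSpace.single (0 : Fin 3) (dist x y)) = y - x := Submodule.reflection_sub hn
  have hmp : MeasurePreserving (fun z : Pt => x + R z) volume volume :=
    (measurePreserving_add_left volume x).comp R.measurePreserving
  rw [← hmp.measureReal_preimage (s := Metric.ball x ℓ ∩ Metric.ball y ℓ)
    (measurableSet_ball.inter measurableSet_ball).nullMeasurableSet]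
  congr 1
  ext z
  simp only [Set.mem_inter_iff, Set.mem_preimage, Metric.mem_ball]
  have e1 : dist (x + R z) x = dist z 0 := by
    rw [dist_eq_norm, add_sub_cancel_left, R.norm_map, dist_zero_right]
  have e2 : dist (x + R z) y = dist z (EuclideanSpace.single (0 : Fin 3) (dist x y)) := by
    rw [← R.dist_map z, hRe, dist_eq_norm, dist_eq_norm]
    congr 1
    abel
  rw [e1, e2]

/-- Half-open boxes. -/
def knBox (a : Fin 3 → ℝ) (m : ℝ) : Set Pt := {z | ∀ k, a k ≤ z k ∧ z k < a k + m}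

theorem knBox_eq (a : Fin 3 → ℝ) (m : ℝ) : knBox a m =
    (WithLp.ofLp : Pt → Fin 3 → ℝ) ⁻¹' Set.pi Set.univ fun k => Set.Ico (a k) (a k + m) := by
  ext z
  simp [knBox]

theorem measurableSet_knBox (a : Fin 3 → ℝ) (m : ℝ) : MeasurableSet (knBox a m) := by
  rw [knBox_eq]
  exact (PiLp.volume_preserving_ofLp (Fin 3)).measurable
    (MeasurableSet.univ_pi fun _ => measurableSet_Ico)

theorem volume_knBox (a : Fin 3 → ℝ) (m : ℝ) : volume (knBox a m) = ENNReal.ofReal m ^ 3 := by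
  rw [knBox_eq, (PiLp.volume_preserving_ofLp (Fin 3)).measure_preimage
    (MeasurableSet.univ_pi fun _ => measurableSet_Ico).nullMeasurableSet, Real.volume_pi_Ico]
  simp

theorem volume_knBox_ne_top (a : Fin 3 → ℝ) (m : ℝ) : volume (knBox a m) ≠ ⊤ := by
  rw [volume_knBox]
  exact ENNReal.pow_ne_top ENNReal.ofReal_ne_top

theorem volumeReal_knBox (a : Fin 3 → ℝ) {m : ℝ} (hm : 0 ≤ m) :
    volume.real (knBox a m) = m ^ 3 := by
  rw [measureReal_def, volume_knBox, ENNReal.toReal_pow, ENNReal.toReal_ofReal hm]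

theorem kn_cell_eq {m : ℝ} (hm : 0 < m) (t : ℝ) (c : Fin 3 → ℤ) :
    {z : Pt | idx m t z = c} = knBox (fun k => c k * m - t) m := by
  ext z
  simp only [Set.mem_ofPred_eq, knBox, funext_iff, idx, Int.floor_eq_iff]
  refine forall_congr' fun k => ?_
  rw [le_div_iff₀ hm, div_lt_iff₀ hm]
  constructor <;> rintro ⟨h1, h2⟩ <;> constructor <;> linarith

theorem kn_dist_le {m : ℝ} (hm : 0 < m) {t : ℝ} {z w : Pt} (h : idx m t z = idx m t w) :
    dist z w ≤ 2 * m := by
  have hk : ∀ k, (z k - w k) ^ 2 ≤ m ^ 2 := by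
    intro k
    have h1 := Int.abs_sub_lt_one_of_floor_eq_floor (congrFun h k)
    have e : (z k + t) / m - (w k + t) / m = (z k - w k) / m := by ring
    rw [e, abs_div, abs_of_pos hm, div_lt_one hm] at h1
    rw [← sq_abs]
    exact pow_le_pow_left₀ (abs_nonneg _) h1.le 2
  rw [EuclideanSpace.dist_eq]
  refine Real.sqrt_le_iff.2 ⟨by positivity, ?_⟩
  simp only [Fin.sum_univ_three, Real.dist_eq, sq_abs]
  nlinarith [hk 0, hk 1, hk 2, sq_nonneg m]

/-- Cauchy-Schwarz over the cells met by a finite family. -/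
theorem kn_cs {ι κ : Type} [DecidableEq κ] (S : Finset ι) (c : ι → κ) (D : Finset κ)
    (hD : ∀ i ∈ S, c i ∈ D) :
    (S.card : ℝ) ^ 2 ≤ D.card * ∑ i ∈ S, ∑ j ∈ S, if c i = c j then (1 : ℝ) else 0 := by
  have h1 : (S.card : ℝ) = ∑ b ∈ D, ((S.filter fun a => c a = b).card : ℝ) := by
    rw [Finset.card_eq_sum_card_fiberwise (f := c) (s := S) (t := D) hD]
    push_cast
    rfl
  have h2 : ∑ i ∈ S, ∑ j ∈ S, (if c i = c j then (1 : ℝ) else 0) =
      ∑ b ∈ D, ((S.filter fun a => c a = b).card : ℝ) ^ 2 := by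
    rw [← Finset.sum_fiberwise_of_maps_to (s := S) (t := D) (g := c) hD]
    refine Finset.sum_congr rfl fun b _ => ?_
    have h3 : ∀ i ∈ S.filter (fun a => c a = b), ∑ j ∈ S, (if c i = c j then (1 : ℝ) else 0) =
        ((S.filter fun a => c a = b).card : ℝ) := by
      intro i hi
      rw [(Finset.mem_filter.1 hi).2, Finset.sum_boole]
      congr 2
      ext a
      simp [eq_comm]
    rw [Finset.sum_congr rfl h3, Finset.sum_const, nsmul_eq_mul, sq]
  rw [h1, h2]
  exact sq_sum_le_card_mul_sum_sq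

open Classical in
theorem kn_split {ι : Type} [Fintype ι] (f : ι → ι → ℝ) :
    ∑ i, ∑ j, f i j = (∑ i, ∑ j, if i = j then 0 else f i j) + ∑ i, f i i := by
  rw [← Finset.sum_add_distrib]
  refine Finset.sum_congr rfl fun i _ => ?_
  have h : f i i = ∑ j, if i = j then f i j else 0 := by simp
  rw [h, ← Finset.sum_add_distrib]
  refine Finset.sum_congr rfl fun j _ => ?_
  split_ifs <;> simp

/-- Indicator functions of sets of finite measure are integrable. -/
theorem kn_integrable {s : Set Pt} (hs : MeasurableSet s) (h : volume s ≠ ⊤) :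
    Integrable (s.indicator (1 : Pt → ℝ)) volume :=
  (integrable_indicator_iff hs).2 (integrableOn_const h)

theorem kn_sum_overlap {ι : Type} [Fintype ι] (x : ι → Pt) (ℓ : ℝ) :
    ∑ i, ∑ j, volume.real (Metric.ball (x i) ℓ ∩ Metric.ball (x j) ℓ) =
      ∫ y, ∑ i, ∑ j, (Metric.ball (x i) ℓ ∩ Metric.ball (x j) ℓ).indicator (1 : Pt → ℝ) y := by
  have hi : ∀ i j, Integrable
      ((Metric.ball (x i) ℓ ∩ Metric.ball (x j) ℓ).indicator (1 : Pt → ℝ)) volume := fun i j =>
    kn_integrable (measurableSet_ball.inter measurableSet_ball)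
      (measure_ne_top_of_subset Set.inter_subset_left (kn_ball_ne_top _ _))
  rw [integral_finsetSum _ fun i _ => integrable_finsetSum _ fun j _ => hi i j]
  refine Finset.sum_congr rfl fun i _ => ?_
  rw [integral_finsetSum _ fun j _ => hi i j]
  refine Finset.sum_congr rfl fun j _ => ?_
  rw [integral_indicator_one (measurableSet_ball.inter measurableSet_ball)]

theorem kn_integrable_overlap {ι : Type} [Fintype ι] (x : ι → Pt) (ℓ : ℝ) :
    Integrable (fun y => ∑ i, ∑ j,
      (Metric.ball (x i) ℓ ∩ Metric.ball (x j) ℓ).indicator (1 : Pt → ℝ) y) volume :=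
  integrable_finsetSum _ fun _ _ => integrable_finsetSum _ fun _ _ =>
    kn_integrable (measurableSet_ball.inter measurableSet_ball)
      (measure_ne_top_of_subset Set.inter_subset_left (kn_ball_ne_top _ _))

open Classical in
theorem kn_overlap_pointwise {ι : Type} [Fintype ι] (x : ι → Pt) (ℓ : ℝ) (y : Pt) :
    ∑ i, ∑ j, (Metric.ball (x i) ℓ ∩ Metric.ball (x j) ℓ).indicator (1 : Pt → ℝ) y =
      ((Finset.univ.filter fun i => y ∈ Metric.ball (x i) ℓ).card : ℝ) ^ 2 := by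
  rw [← Finset.sum_boole, sq, Finset.sum_mul_sum]
  refine Finset.sum_congr rfl fun i _ => Finset.sum_congr rfl fun j _ => ?_
  by_cases hi : y ∈ Metric.ball (x i) ℓ <;> by_cases hj : y ∈ Metric.ball (x j) ℓ <;>
    simp [Set.indicator, hi, hj]

theorem kn_card_cells {ℓ m : ℝ} (hℓ : 0 < ℓ) (hm : 0 < m) (t : ℝ) {ι : Type}
    (x : ι → Pt) (y : Pt) (D : Finset (Fin 3 → ℤ))
    (hD : ∀ c ∈ D, ∃ i, y ∈ Metric.ball (x i) ℓ ∧ idx m t (x i) = c) :
    (D.card : ℝ) * m ^ 3 ≤ (ℓ + 2 * m) ^ 3 * (Real.pi * 4 / 3) := by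
  have h1 := measureReal_biUnion_finset (μ := volume) (s := D)
    (f := fun c => {z : Pt | idx m t z = c})
    (fun c _ c' _ hcc' => Set.disjoint_left.2 fun z hz hz' => hcc' (hz.symm.trans hz'))
    (fun c _ => by rw [kn_cell_eq hm]; exact measurableSet_knBox _ _)
    (fun c _ => by rw [kn_cell_eq hm]; exact volume_knBox_ne_top _ _)
  have h2 : ∑ c ∈ D, volume.real {z : Pt | idx m t z = c} = D.card * m ^ 3 := by
    rw [Finset.sum_congr rfl fun c _ => by rw [kn_cell_eq hm, volumeReal_knBox _ hm.le],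
      Finset.sum_const, nsmul_eq_mul]
  have h3 : (⋃ c ∈ D, {z : Pt | idx m t z = c}) ⊆ Metric.ball y (ℓ + 2 * m) := by
    intro z hz
    simp only [Set.mem_iUnion] at hz
    obtain ⟨c, hc, hz⟩ := hz
    obtain ⟨i, h4, rfl⟩ := hD c hc
    have h5 := kn_dist_le hm (show idx m t z = idx m t (x i) from hz)
    rw [Metric.mem_ball] at h4 ⊢
    rw [dist_comm] at h4
    linarith [dist_triangle z (x i) y]
  have h4 := measureReal_mono (μ := volume) h3 (kn_ball_ne_top _ _)
  rw [h1, h2, kn_vol_ball y (by positivity)] at h4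
  exact h4

theorem same_nonneg (m t : ℝ) {ι : Type} [Fintype ι] (x : ι → Pt) : 0 ≤ same m t x := by
  unfold same
  refine Finset.sum_nonneg fun i _ => Finset.sum_nonneg fun j _ => ?_
  split_ifs <;> norm_num

theorem kn_sum_overlap_le {ℓ m : ℝ} (hℓ : 0 < ℓ) (hm : 0 < m) (t : ℝ) {ι : Type} [Fintype ι]
    (x : ι → Pt) : ∑ i, ∑ j, volume.real (Metric.ball (x i) ℓ ∩ Metric.ball (x j) ℓ) ≤
      (ℓ + 2 * m) ^ 3 * (Real.pi * 4 / 3) / m ^ 3 * (ℓ ^ 3 * (Real.pi * 4 / 3)) * same m t x := by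
  classical
  set K := (ℓ + 2 * m) ^ 3 * (Real.pi * 4 / 3) / m ^ 3 with hK
  have hK0 : 0 ≤ K := by positivity
  let w : ι → ℝ := fun i => ∑ j, if idx m t (x i) = idx m t (x j) then 1 else 0
  have hw0 : ∀ i, 0 ≤ w i := fun i => Finset.sum_nonneg fun j _ => by split_ifs <;> norm_num
  have hsame : same m t x = ∑ i, w i := by
    unfold same
    refine Finset.sum_congr rfl fun i _ => Finset.sum_congr rfl fun j _ => ?_
    split_ifs <;> rfl
  have hint : ∀ i, Integrable (fun y => K * w i * (Metric.ball (x i) ℓ).indicator (1 : Pt → ℝ) y)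
      volume := fun i => (kn_integrable measurableSet_ball (kn_ball_ne_top _ _)).const_mul _
  have h1 : ∫ y, ∑ i, K * w i * (Metric.ball (x i) ℓ).indicator (1 : Pt → ℝ) y =
      K * (ℓ ^ 3 * (Real.pi * 4 / 3)) * same m t x := by
    rw [integral_finsetSum _ fun i _ => hint i, hsame, Finset.mul_sum]
    refine Finset.sum_congr rfl fun i _ => ?_
    rw [integral_const_mul, integral_indicator_one measurableSet_ball, kn_vol_ball _ hℓ.le]
    ring
  rw [kn_sum_overlap, ← h1]
  refine integral_mono (kn_integrable_overlap x ℓ) (integrable_finsetSum _ fun i _ => hint i)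
    fun y => ?_
  simp only
  rw [kn_overlap_pointwise]
  set S := Finset.univ.filter fun i => y ∈ Metric.ball (x i) ℓ with hS
  have h2 := kn_cs S (fun i => idx m t (x i)) (S.image fun i => idx m t (x i))
    fun i hi => Finset.mem_image_of_mem _ hi
  have h3 := kn_card_cells hℓ hm t x y (S.image fun i => idx m t (x i)) fun c hc => by
    obtain ⟨i, hi, rfl⟩ := Finset.mem_image.1 hc
    exact ⟨i, (Finset.mem_filter.1 hi).2, rfl⟩
  rw [← le_div_iff₀ (by positivity), ← hK] at h3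
  have h4 : ∑ i ∈ S, ∑ j ∈ S, (if idx m t (x i) = idx m t (x j) then (1 : ℝ) else 0) ≤
      ∑ i ∈ S, w i := by
    refine Finset.sum_le_sum fun i _ => ?_
    refine Finset.sum_le_sum_of_subset_of_nonneg (Finset.subset_univ _) fun j _ _ => ?_
    split_ifs <;> norm_num
  have h5 : ∑ i, K * w i * (Metric.ball (x i) ℓ).indicator (1 : Pt → ℝ) y = K * ∑ i ∈ S, w i := by
    rw [hS, Finset.sum_filter, Finset.mul_sum]
    refine Finset.sum_congr rfl fun i _ => ?_
    by_cases hi : y ∈ Metric.ball (x i) ℓ <;> simp [Set.indicator, hi]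
  rw [h5]
  have h6 : 0 ≤ ∑ i ∈ S, ∑ j ∈ S, (if idx m t (x i) = idx m t (x j) then (1 : ℝ) else 0) :=
    Finset.sum_nonneg fun i _ => Finset.sum_nonneg fun j _ => by split_ifs <;> norm_num
  exact h2.trans (mul_le_mul h3 h4 h6 hK0)

theorem kn_two_en_J {ι : Type} [Fintype ι] (x : ι → Pt) (ℓ : ℝ) :
    2 * en (J ℓ) x = (∑ i, ∑ j, volume.real (Metric.ball (x i) ℓ ∩ Metric.ball (x j) ℓ)) /
      volume.real (Metric.ball (0 : Pt) ℓ) ^ 2 - Fintype.card ι * J ℓ 0 := by
  have h1 := kn_split fun i j => J ℓ (dist (x i) (x j))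
  have h2 : ∑ i, ∑ j, J ℓ (dist (x i) (x j)) =
      (∑ i, ∑ j, volume.real (Metric.ball (x i) ℓ ∩ Metric.ball (x j) ℓ)) /
        volume.real (Metric.ball (0 : Pt) ℓ) ^ 2 := by
    simp only [J_dist, Finset.sum_div]
  simp only [dist_self, Finset.sum_const, Finset.card_univ, nsmul_eq_mul] at h1
  rw [← h2, h1]
  unfold en
  ring

/-- Upper bound of the Kac energy by the cell occupation numbers. -/
theorem en_J_le_same {ℓ m : ℝ} (hℓ : 0 < ℓ) (hm : 0 < m) (t : ℝ) {ι : Type} [Fintype ι]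
    (x : ι → Pt) : en (J ℓ) x ≤ (1 + 2 * m / ℓ) ^ 6 / (2 * m ^ 3) * same m t x := by
  have h1 := kn_two_en_J x ℓ
  have h2 := kn_sum_overlap_le hℓ hm t x
  have h3 : 0 ≤ (Fintype.card ι : ℝ) * J ℓ 0 := mul_nonneg (Nat.cast_nonneg _) (J_nonneg _ _)
  have hs := same_nonneg m t x
  have hc : 0 < Real.pi * 4 / 3 := by positivity
  rw [kn_vol_ball 0 hℓ.le] at h1
  have h4 := div_le_div_of_nonneg_right h2 (sq_nonneg (ℓ ^ 3 * (Real.pi * 4 / 3)))
  have h5 : (ℓ + 2 * m) ^ 3 * (Real.pi * 4 / 3) / m ^ 3 * (ℓ ^ 3 * (Real.pi * 4 / 3)) * same m t x /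
      (ℓ ^ 3 * (Real.pi * 4 / 3)) ^ 2 = (1 + 2 * m / ℓ) ^ 3 / m ^ 3 * same m t x := by
    field_simp
  have h6 : (1 + 2 * m / ℓ) ^ 3 ≤ (1 + 2 * m / ℓ) ^ 6 :=
    pow_le_pow_right₀ (by have : 0 ≤ 2 * m / ℓ := by positivity
                          linarith) (by norm_num)
  have h7 : (1 + 2 * m / ℓ) ^ 3 / m ^ 3 * same m t x ≤ (1 + 2 * m / ℓ) ^ 6 / m ^ 3 * same m t x :=
    mul_le_mul_of_nonneg_right (div_le_div_of_nonneg_right h6 (by positivity)) hs
  have h8 : (1 + 2 * m / ℓ) ^ 6 / (2 * m ^ 3) * same m t x =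
      (1 + 2 * m / ℓ) ^ 6 / m ^ 3 * same m t x / 2 := by field_simp
  rw [h8]
  linarith

theorem en_J_le_X {ℓ : ℝ} (hℓ : 1 ≤ ℓ) {ι : Type} [Fintype ι] (x : ι → Pt) :
    en (J ℓ) x ≤ 256 * X x := by
  have hℓ0 : 0 < ℓ := by linarith
  refine (en_J_le_same hℓ0 (by norm_num : (0 : ℝ) < 1 / 2) 0 x).trans ?_
  refine mul_le_mul_of_nonneg_right ?_ (same_nonneg _ _ _)
  have h1 : 2 * (1 / 2) / ℓ ≤ 1 := by rw [div_le_one hℓ0]; linarith
  have h2 : (1 + 2 * (1 / 2) / ℓ) ^ 6 ≤ 2 ^ 6 :=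
    pow_le_pow_left₀ (by positivity) (by linarith) 6
  rw [div_le_iff₀ (by norm_num)]
  linarith

/-- Lower bound of the Kac energy (positive definiteness). -/
theorem en_J_ge {ℓ L : ℝ} (hℓ : 0 < ℓ) (hL : 0 ≤ L) {N : ℕ} (x : Fin N → Pt)
    (hx : ∀ i, x i ∈ cube L) :
    (N : ℝ) ^ 2 / (2 * (L + 2 * ℓ) ^ 3) - N / (2 * ℓ ^ 3) ≤ en (J ℓ) x := by
  classical
  set V := ℓ ^ 3 * (Real.pi * 4 / 3) with hV
  have hV0 : 0 < V := by positivity
  set W := (L + 2 * ℓ) ^ 3 with hW
  have hW0 : 0 < W := by positivity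
  set s := N * V / W with hs
  set Q := knBox (fun _ => -ℓ) (L + 2 * ℓ) with hQ
  have hsub : ∀ i, Metric.ball (x i) ℓ ⊆ Q := by
    intro i z hz k
    have h1 : |z k - x i k| < ℓ := by
      have := PiLp.dist_apply_le z (x i) k
      rw [Real.dist_eq] at this
      exact this.trans_lt hz
    rw [abs_lt] at h1
    have h2 := hx i k
    constructor <;> linarith [h1.1, h1.2, h2.1, h2.2]
  have hint : ∀ i, Integrable (fun y => 2 * s * (Metric.ball (x i) ℓ).indicator (1 : Pt → ℝ) y)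
      volume := fun i => (kn_integrable measurableSet_ball (kn_ball_ne_top _ _)).const_mul _
  have hintQ : Integrable (fun y => s ^ 2 * Q.indicator (1 : Pt → ℝ) y) volume :=
    (kn_integrable (measurableSet_knBox _ _) (volume_knBox_ne_top _ _)).const_mul _
  have h1 : ∫ y, ((∑ i, 2 * s * (Metric.ball (x i) ℓ).indicator (1 : Pt → ℝ) y) -
      s ^ 2 * Q.indicator (1 : Pt → ℝ) y) = N * (2 * s * V) - s ^ 2 * W := by
    rw [integral_sub (integrable_finsetSum _ fun i _ => hint i) hintQ,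
      integral_finsetSum _ fun i _ => hint i, integral_const_mul,
      integral_indicator_one (measurableSet_knBox _ _), volumeReal_knBox _ (by positivity)]
    congr 1
    rw [Finset.sum_congr rfl fun i _ => by
      rw [integral_const_mul, integral_indicator_one measurableSet_ball, kn_vol_ball _ hℓ.le]]
    simp [hV]
  have h2 : N * (2 * s * V) - s ^ 2 * W ≤
      ∑ i, ∑ j, volume.real (Metric.ball (x i) ℓ ∩ Metric.ball (x j) ℓ) := by
    rw [kn_sum_overlap, ← h1]
    refine integral_mono ((integrable_finsetSum _ fun i _ => hint i).sub hintQ)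
      (kn_integrable_overlap x ℓ) fun y => ?_
    simp only
    rw [kn_overlap_pointwise]
    set S := Finset.univ.filter fun i => y ∈ Metric.ball (x i) ℓ with hS
    have h3 : ∑ i, 2 * s * (Metric.ball (x i) ℓ).indicator (1 : Pt → ℝ) y = 2 * s * S.card := by
      rw [hS, ← Finset.sum_boole, Finset.mul_sum]
      refine Finset.sum_congr rfl fun i _ => ?_
      by_cases hi : y ∈ Metric.ball (x i) ℓ <;> simp [Set.indicator, hi]
    rw [h3]
    by_cases hy : y ∈ Q
    · rw [Set.indicator_of_mem hy, Pi.one_apply]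
      have := sq_nonneg ((S.card : ℝ) - s)
      convert_to 2 * s * S.card - s ^ 2 * 1 ≤ (S.card : ℝ) ^ 2
      nlinarith
    · have hS0 : S = ∅ := by
        rw [hS, Finset.filter_eq_empty_iff]
        exact fun i _ hi => hy (hsub i hi)
      rw [Set.indicator_of_notMem hy]
      convert_to 2 * s * S.card - s ^ 2 * 0 ≤ (S.card : ℝ) ^ 2
      rw [hS0]
      simp
  have h3 := kn_two_en_J x ℓ
  rw [kn_vol_ball 0 hℓ.le, ← hV, Fintype.card_fin] at h3
  have h4 := div_le_div_of_nonneg_right h2 (sq_nonneg V)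
  have h5 : (N * (2 * s * V) - s ^ 2 * W) / V ^ 2 = (N : ℝ) ^ 2 / W := by
    rw [hs]; field_simp; ring
  have h6 : (N : ℝ) * J ℓ 0 ≤ N * (1 / ℓ ^ 3) :=
    mul_le_mul_of_nonneg_left (J_le hℓ 0) (Nat.cast_nonneg _)
  have h7 : (N : ℝ) ^ 2 / (2 * W) = (N : ℝ) ^ 2 / W / 2 := by field_simp
  have h8 : (N : ℝ) / (2 * ℓ ^ 3) = N * (1 / ℓ ^ 3) / 2 := by field_simp
  rw [h7, h8]
  linarith

theorem sq_le_X {L : ℝ} (hL : 0 ≤ L) {N : ℕ} (x : Fin N → Pt) (hx : ∀ i, x i ∈ cube L) :
    (N : ℝ) ^ 2 ≤ (2 * L + 1) ^ 3 * X x := by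
  classical
  have h1 := kn_cs (Finset.univ : Finset (Fin N)) (fun i => idx (1 / 2) 0 (x i))
    (Finset.univ.image fun i => idx (1 / 2) 0 (x i)) fun i hi => Finset.mem_image_of_mem _ hi
  rw [Finset.card_univ, Fintype.card_fin] at h1
  have hsub : ∀ D : Finset (Fin 3 → ℤ), (∀ c ∈ D, ∃ i, idx (1 / 2) 0 (x i) = c) →
      (D.card : ℝ) ≤ (2 * L + 1) ^ 3 := by
    intro D hD
    have h2 : D ⊆ Fintype.piFinset fun _ : Fin 3 => Finset.Icc (0 : ℤ) ⌊2 * L⌋ := by
      intro c hc
      obtain ⟨i, rfl⟩ := hD c hc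
      rw [Fintype.mem_piFinset]
      intro k
      have h3 := hx i k
      simp only [idx, Finset.mem_Icc]
      exact ⟨Int.floor_nonneg.2 (by linarith [h3.1]), Int.floor_mono (by linarith [h3.2])⟩
    have h3 := Finset.card_le_card h2
    rw [Fintype.card_piFinset] at h3
    simp only [Int.card_Icc, sub_zero, Finset.prod_const, Finset.card_univ, Fintype.card_fin] at h3
    have h4 : (((⌊2 * L⌋ + 1).toNat : ℕ) : ℝ) ≤ 2 * L + 1 := by
      have h5 : 0 ≤ ⌊2 * L⌋ + 1 := by
        have := Int.floor_nonneg.2 (show 0 ≤ 2 * L by linarith)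
        omega
      have h6 : (((⌊2 * L⌋ + 1).toNat : ℕ) : ℝ) = ((⌊2 * L⌋ + 1 : ℤ) : ℝ) := by
        exact_mod_cast Int.toNat_of_nonneg h5
      rw [h6]
      push_cast
      linarith [Int.floor_le (2 * L)]
    calc (D.card : ℝ) ≤ (((⌊2 * L⌋ + 1).toNat ^ 3 : ℕ) : ℝ) := by exact_mod_cast h3
      _ ≤ (2 * L + 1) ^ 3 := by
        push_cast
        exact pow_le_pow_left₀ (Nat.cast_nonneg _) h4 3
  refine h1.trans ?_
  refine mul_le_mul (hsub _ fun c hc => ?_) (le_of_eq ?_) ?_ (by positivity)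
  · obtain ⟨i, -, hi⟩ := Finset.mem_image.1 hc
    exact ⟨i, hi⟩
  · unfold X same
    refine Finset.sum_congr rfl fun i _ => Finset.sum_congr rfl fun j _ => ?_
    split_ifs <;> rfl
  · exact Finset.sum_nonneg fun i _ => Finset.sum_nonneg fun j _ => by split_ifs <;> norm_num

open Classical in
theorem kn_same_le {ι : Type} [Fintype ι] (m t : ℝ) (x : ι → Pt) (ψ : ℝ → ℝ)
    (hψ0 : ∀ r, 0 ≤ ψ r)
    (hψ : ∀ i j, idx m t (x i) = idx m t (x j) → 1 ≤ ψ (dist (x i) (x j))) :
    same m t x ≤ Fintype.card ι + 2 * en ψ x := by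
  have h1 := kn_split fun i j => if idx m t (x i) = idx m t (x j) then (1 : ℝ) else 0
  simp only [if_true, Finset.sum_const, Finset.card_univ, nsmul_eq_mul, mul_one] at h1
  have h2 : (∑ i, ∑ j, if i = j then 0 else
      if idx m t (x i) = idx m t (x j) then (1 : ℝ) else 0) ≤ 2 * en ψ x := by
    unfold en
    rw [← mul_assoc, show (2 : ℝ) * (1 / 2) = 1 by norm_num, one_mul]
    refine Finset.sum_le_sum fun i _ => Finset.sum_le_sum fun j _ => ?_
    split_ifs with h h'
    · exact le_rfl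
    · exact hψ i j h'
    · exact hψ0 _
  unfold same
  linarith

theorem core_superstable {φ₀ : ℝ → ℝ} {δ η H : ℝ} (h : Core φ₀ δ η H) (hδ : 0 < δ) (hH : 0 ≤ H)
    {N : ℕ} (x : Fin N → Pt) : H / (2 * Mc) * X x - H / 2 * N ≤ en φ₀ x := by
  classical
  let p : ℝ → ℝ := fun r => if H ≤ φ₀ r then 1 else 0
  have hp0 : ∀ r, 0 ≤ p r := fun r => by simp only [p]; split_ifs <;> norm_num
  have hpe : H * en p x ≤ en φ₀ x := by
    unfold en
    rw [mul_left_comm]
    refine mul_le_mul_of_nonneg_left ?_ (by norm_num)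
    rw [Finset.mul_sum]
    refine Finset.sum_le_sum fun i _ => ?_
    rw [Finset.mul_sum]
    refine Finset.sum_le_sum fun j _ => ?_
    simp only [p]
    split_ifs with h1 h2
    · simp
    · simpa using h2
    · simpa using h.nonneg _
  have hp : 0 ≤ en p x := by
    unfold en
    refine mul_nonneg (by norm_num) (Finset.sum_nonneg fun i _ => Finset.sum_nonneg fun j _ => ?_)
    split_ifs
    · exact le_rfl
    · exact hp0 _
  have hY : same (δ / 8) 0 x ≤ N + 2 * en p x := by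
    have := kn_same_le (δ / 8) 0 x p hp0 fun i j hij => by
      have h1 := kn_dist_le (by positivity) hij
      simp only [p]
      rw [if_pos (h.hard₁ _ dist_nonneg (by linarith))]
    rwa [Fintype.card_fin] at this
  have hℓ : 0 < 4 * δ := by positivity
  have hX : X x ≤ N + 2 * en (fun r => p r + 40 * (4 * δ) ^ 3 * J (4 * δ) r) x := by
    have := kn_same_le (1 / 2) 0 x (fun r => p r + 40 * (4 * δ) ^ 3 * J (4 * δ) r)
      (fun r => add_nonneg (hp0 r) (mul_nonneg (by positivity) (J_nonneg _ _))) fun i j hij => by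
      have h1 := kn_dist_le (by norm_num) hij
      by_cases h2 : 2 * δ ≤ dist (x i) (x j)
      · have h3 : p (dist (x i) (x j)) = 1 := by
          simp only [p]
          rw [if_pos (h.hard₂ _ h2 (by linarith))]
        have h4 : 0 ≤ 40 * (4 * δ) ^ 3 * J (4 * δ) (dist (x i) (x j)) :=
          mul_nonneg (by positivity) (J_nonneg _ _)
        linarith
      · have h3 := J_lower hℓ (dist_nonneg (x := x i) (y := x j)) (by linarith [not_le.1 h2])
        rw [div_le_iff₀ (by positivity)] at h3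
        have h4 := hp0 (dist (x i) (x j))
        linarith
    rwa [Fintype.card_fin] at this
  have hsplit : en (fun r => p r + 40 * (4 * δ) ^ 3 * J (4 * δ) r) x =
      en p x + 40 * (4 * δ) ^ 3 * en (J (4 * δ)) x := by
    unfold en
    rw [mul_left_comm, ← mul_add]
    congr 1
    rw [Finset.mul_sum, ← Finset.sum_add_distrib]
    refine Finset.sum_congr rfl fun i _ => ?_
    rw [Finset.mul_sum, ← Finset.sum_add_distrib]
    refine Finset.sum_congr rfl fun j _ => ?_
    split_ifs <;> simp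
  have hJ := en_J_le_same hℓ (by positivity : 0 < δ / 8) 0 x
  have hY0 := same_nonneg (δ / 8) 0 x
  have hJ' : 2 * (40 * (4 * δ) ^ 3 * en (J (4 * δ)) x) ≤ 2000000 * same (δ / 8) 0 x := by
    have h1 := mul_le_mul_of_nonneg_left hJ (by positivity : 0 ≤ 2 * (40 * (4 * δ) ^ 3))
    have h2 : 2 * (40 * (4 * δ) ^ 3) * ((1 + 2 * (δ / 8) / (4 * δ)) ^ 6 / (2 * (δ / 8) ^ 3) *
        same (δ / 8) 0 x) = 40 * 32 ^ 3 * (17 / 16) ^ 6 * same (δ / 8) 0 x := by
      field_simp
      ring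
    have h3 : (40 * 32 ^ 3 * (17 / 16) ^ 6 : ℝ) ≤ 2000000 := by norm_num
    have h4 := mul_le_mul_of_nonneg_right h3 hY0
    linarith
  have hXM : X x ≤ Mc * (N + 2 * en p x) := by
    unfold Mc
    linarith
  have hM : 0 < Mc := by unfold Mc; norm_num
  have h1 := mul_le_mul_of_nonneg_left hXM (by positivity : 0 ≤ H / (2 * Mc))
  have h2 : H / (2 * Mc) * (Mc * (N + 2 * en p x)) = H / 2 * N + H * en p x := by
    field_simp
  linarith

end Crest.Agent.R149
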