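import Crest.Agent.R149.Thermo
import Crest.Agent.R149.Kernel
import Crest.Agent.R149.Cells

/-! # Row 149: infinite-volume comparison inequalities (quantitative Lebowitz-Penrose step) -/

namespace Crest.Agent.R149

open MeasureTheory Crest.ProbabilityR.Continuum Filter Topology

theorem lp_tendsto_N {ρ : ℝ} (hρ : 0 ≤ ρ) :
    Tendsto (fun L : ℝ => (⌊ρ * L ^ 3⌋₊ : ℝ) / L ^ 3) atTop (𝓝 ρ) :=
  (tendsto_nat_floor_mul_div_atTop hρ).comp (tendsto_pow_atTop (by norm_num))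

theorem lp_tendsto_const (c : ℝ) : Tendsto (fun L : ℝ => c / L ^ 3) atTop (𝓝 0) :=
  tendsto_const_nhds.div_atTop (tendsto_pow_atTop (by norm_num))

theorem lp_tendsto_ratio {p : ℝ} (hp : 0 < p) (q : ℝ) :
    Tendsto (fun L : ℝ => L ^ 3 / (p * L + q) ^ 3) atTop (𝓝 (1 / p ^ 3)) := by
  have h1 : Tendsto (fun L : ℝ => p + q / L) atTop (𝓝 (p + 0)) :=
    tendsto_const_nhds.add (tendsto_const_nhds.div_atTop tendsto_id)
  rw [add_zero] at h1
  have h2 : Tendsto (fun L : ℝ => 1 / (p + q / L) ^ 3) atTop (𝓝 (1 / p ^ 3)) :=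
    tendsto_const_nhds.div (h1.pow 3) (by positivity)
  refine h2.congr' ?_
  filter_upwards [eventually_gt_atTop 0] with L hL
  have : p * L + q = (p + q / L) * L := by field_simp
  rw [this, mul_pow]
  by_cases h : p + q / L = 0
  · simp [h]
  · field_simp

theorem lp_tendsto_cells {m : ℝ} (hm : 0 < m) :
    Tendsto (fun L : ℝ => ((⌊L / m⌋₊ + 2 : ℕ) : ℝ) ^ 3 / L ^ 3) atTop (𝓝 (1 / m ^ 3)) := by
  have h1 : Tendsto (fun L : ℝ => (⌊m⁻¹ * L⌋₊ : ℝ) / L + 2 / L) atTop (𝓝 (m⁻¹ + 0)) :=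
    (tendsto_nat_floor_mul_div_atTop (by positivity)).add
      (tendsto_const_nhds.div_atTop tendsto_id)
  rw [add_zero] at h1
  have h2 := h1.pow 3
  rw [inv_pow] at h2
  rw [one_div]
  refine h2.congr fun L => ?_
  rw [← div_pow, ← add_div, mul_comm m⁻¹ L, ← div_eq_mul_inv]
  push_cast
  rfl

/-- Splitting the configurations into a bad part (bounded by a constant) and a good part. -/
theorem lp_two {φ : ℝ → ℝ} {B : ℝ} (h : Adm φ B) {β L : ℝ} (hβ : 0 ≤ β) (hL : 0 < L) {N : ℕ}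
    {c d : ℝ} (F : (Fin N → Pt) → ENNReal)
    (hF : ∀ x : Fin N → Pt, (∀ i, x i ∈ cube L) →
      -β * en φ x ≤ c ∨ ENNReal.ofReal (Real.exp (-β * en φ x)) ≤ F x)
    (hd : ∫⁻ x in Set.pi Set.univ (fun _ : Fin N => cube L), F x ≤
      ENNReal.ofReal (N.factorial * Real.exp d)) :
    -G φ β L N ≤ Real.log 2 + max (L ^ 3 + c) d := by
  have key : -(Real.log 2 + max (L ^ 3 + c) d) ≤ G φ β L N := by
    refine le_G_of_I_le h hβ hL ?_
    unfold I
    calc ∫⁻ x in Set.pi Set.univ (fun _ : Fin N => cube L), ENNReal.ofReal (Real.exp (-β * en φ x))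
        ≤ ∫⁻ x in Set.pi Set.univ (fun _ : Fin N => cube L),
            (ENNReal.ofReal (Real.exp c) + F x) := by
          refine setLIntegral_mono' (MeasurableSet.univ_pi fun _ => measurableSet_cube L)
            fun x hx => ?_
          rcases hF x (fun i => hx i (Set.mem_univ i)) with h1 | h1
          · exact le_add_right (ENNReal.ofReal_le_ofReal (Real.exp_le_exp.2 h1))
          · exact le_add_left h1
      _ = ENNReal.ofReal (Real.exp c * (L ^ 3) ^ N) +
            ∫⁻ x in Set.pi Set.univ (fun _ : Fin N => cube L), F x := by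
          rw [lintegral_add_left measurable_const, setLIntegral_const, volume_pi_cube hL.le,
            Fintype.card_fin, ENNReal.ofReal_mul (Real.exp_pos _).le]
      _ ≤ ENNReal.ofReal (Real.exp c * (L ^ 3) ^ N) +
            ENNReal.ofReal (N.factorial * Real.exp d) := by gcongr
      _ ≤ _ := by
          rw [← ENNReal.ofReal_add (by positivity) (by positivity)]
          refine ENNReal.ofReal_le_ofReal ?_
          have h1 := Real.pow_div_factorial_le_exp (L ^ 3) (by positivity) N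
          rw [div_le_iff₀ (by positivity)] at h1
          have h2 := mul_le_mul_of_nonneg_left h1 (Real.exp_pos c).le
          have h3 : Real.exp c * Real.exp (L ^ 3) ≤ Real.exp (max (L ^ 3 + c) d) := by
            rw [← Real.exp_add, add_comm]; exact Real.exp_le_exp.2 (le_max_left _ _)
          have h4 : Real.exp d ≤ Real.exp (max (L ^ 3 + c) d) :=
            Real.exp_le_exp.2 (le_max_right _ _)
          have h5 : (0 : ℝ) < N.factorial := by positivity
          rw [neg_neg, Real.exp_add, Real.exp_log (by norm_num)]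
          nlinarith
  linarith

theorem g_mono {φ ψ : ℝ → ℝ} {B B' : ℝ} (h : Adm φ B) (h' : Adm ψ B') (hle : ∀ r, φ r ≤ ψ r)
    {β ρ : ℝ} (hβ : 0 < β) (hρ : 0 ≤ ρ) : g φ β ρ ≤ g ψ β ρ := by
  refine le_of_tendsto_of_tendsto (tendsto_g h hβ hρ) (tendsto_g h' hβ hρ) ?_
  filter_upwards [eventually_gt_atTop 0] with L hL
  have := G_compare h h' hβ.le hβ.le hL (N := ⌊ρ * L ^ 3⌋₊) (w := 0) fun x _ => by
    have := mul_le_mul_of_nonneg_left (en_mono hle x) hβ.le
    linarith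
  rw [add_zero] at this
  exact div_le_div_of_nonneg_right this (by positivity)

theorem g_mono_beta {φ : ℝ → ℝ} {B : ℝ} (h : Adm φ B) (h0 : ∀ r, 0 ≤ φ r) {β β' ρ : ℝ}
    (hβ : 0 < β) (hββ' : β ≤ β') (hρ : 0 ≤ ρ) : g φ β ρ ≤ g φ β' ρ := by
  have hβ' : 0 < β' := hβ.trans_le hββ'
  refine le_of_tendsto_of_tendsto (tendsto_g h hβ hρ) (tendsto_g h hβ' hρ) ?_
  filter_upwards [eventually_gt_atTop 0] with L hL
  have := G_compare h h hβ.le hβ'.le hL (N := ⌊ρ * L ^ 3⌋₊) (w := 0) fun x _ => by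
    have := mul_le_mul_of_nonneg_right hββ' (en_nonneg h0 x)
    linarith
  rw [add_zero] at this
  exact div_le_div_of_nonneg_right this (by positivity)

theorem g_lower_superstable {φ : ℝ → ℝ} {B κ : ℝ} (h : Adm φ B) (hκ : 0 ≤ κ)
    (hss : ∀ (N : ℕ) (x : Fin N → Pt), κ * X x - B * N ≤ en φ x) {β ρ : ℝ} (hβ : 0 < β)
    (hρ : 0 ≤ ρ) : -1 + β * (κ * ρ ^ 2 / 8 - B * ρ) ≤ g φ β ρ := by
  have hN := lp_tendsto_N hρ
  have hr := lp_tendsto_ratio (p := 2) (by norm_num) 1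
  have lim : Tendsto (fun L : ℝ => -1 + β * (κ * (((⌊ρ * L ^ 3⌋₊ : ℝ) / L ^ 3) ^ 2 *
      (L ^ 3 / (2 * L + 1) ^ 3)) - B * ((⌊ρ * L ^ 3⌋₊ : ℝ) / L ^ 3))) atTop
      (𝓝 (-1 + β * (κ * (ρ ^ 2 * (1 / 2 ^ 3)) - B * ρ))) :=
    tendsto_const_nhds.add (((((hN.pow 2).mul hr).const_mul κ).sub (hN.const_mul B)).const_mul β)
  have e : -1 + β * (κ * ρ ^ 2 / 8 - B * ρ) = -1 + β * (κ * (ρ ^ 2 * (1 / 2 ^ 3)) - B * ρ) := by
    ring
  rw [e]
  refine le_of_tendsto_of_tendsto lim (tendsto_g h hβ hρ) ?_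
  filter_upwards [eventually_gt_atTop 0] with L hL
  set N := ⌊ρ * L ^ 3⌋₊
  have := G_lower h hβ.le hL (N := N) (E := κ * ((N : ℝ) ^ 2 / (2 * L + 1) ^ 3) - B * N)
    fun x hx => by
      refine le_trans ?_ (hss N x)
      have h1 := sq_le_X hL.le x hx
      have h2 : (N : ℝ) ^ 2 / (2 * L + 1) ^ 3 ≤ X x := by
        rw [div_le_iff₀ (by positivity)]; linarith
      have := mul_le_mul_of_nonneg_left h2 hκ
      linarith
  refine le_trans (le_of_eq ?_) (div_le_div_of_nonneg_right this (by positivity))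
  field_simp

/-- Lebowitz-Penrose, easy direction. -/
theorem lp_lower {φ : ℝ → ℝ} {B B' a ℓ : ℝ} (h : Adm φ B) (h' : Adm (fun r => φ r - a * J ℓ r) B')
    (ha : 0 ≤ a) (hℓ : 0 < ℓ) {β ρ : ℝ} (hβ : 0 < β) (hρ : 0 ≤ ρ) :
    g (fun r => φ r - a * J ℓ r) β ρ ≤ g φ β ρ - β * a * ρ ^ 2 / 2 + β * a * ρ / (2 * ℓ ^ 3) := by
  have hN := lp_tendsto_N hρ
  have hr := lp_tendsto_ratio (p := 1) (by norm_num) (2 * ℓ)
  have lim : Tendsto (fun L : ℝ => G φ β L ⌊ρ * L ^ 3⌋₊ / L ^ 3 -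
      β * a * ((((⌊ρ * L ^ 3⌋₊ : ℝ) / L ^ 3) ^ 2 * (L ^ 3 / (1 * L + 2 * ℓ) ^ 3)) / 2 -
        ((⌊ρ * L ^ 3⌋₊ : ℝ) / L ^ 3) / (2 * ℓ ^ 3))) atTop
      (𝓝 (g φ β ρ - β * a * ((ρ ^ 2 * (1 / 1 ^ 3)) / 2 - ρ / (2 * ℓ ^ 3)))) :=
    (tendsto_g h hβ hρ).sub
      (((((hN.pow 2).mul hr).div_const 2).sub (hN.div_const _)).const_mul (β * a))
  have e : g φ β ρ - β * a * ρ ^ 2 / 2 + β * a * ρ / (2 * ℓ ^ 3) =
      g φ β ρ - β * a * ((ρ ^ 2 * (1 / 1 ^ 3)) / 2 - ρ / (2 * ℓ ^ 3)) := by ring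
  rw [e]
  refine le_of_tendsto_of_tendsto (tendsto_g h' hβ hρ) lim ?_
  filter_upwards [eventually_gt_atTop 0] with L hL
  set N := ⌊ρ * L ^ 3⌋₊
  have := G_compare h' h hβ.le hβ.le hL (N := N)
    (w := -(β * a * ((N : ℝ) ^ 2 / (2 * (L + 2 * ℓ) ^ 3) - N / (2 * ℓ ^ 3)))) fun x hx => by
      rw [en_sub φ (fun r => a * J ℓ r), en_mul]
      have h1 := mul_le_mul_of_nonneg_left (en_J_ge hℓ hL.le x hx) (mul_nonneg hβ.le ha)
      nlinarith
  refine le_trans (div_le_div_of_nonneg_right this (by positivity)) (le_of_eq ?_)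
  field_simp
  ring

/-- Removing a weak attractive tail. -/
theorem lp_tail {φ ψ : ℝ → ℝ} {B B' κ t K : ℝ} (h : Adm φ B') (h' : Adm (fun r => φ r - ψ r) B)
    (hκ : 0 ≤ κ) (ht : 0 ≤ t) (hK : 0 ≤ K)
    (hss : ∀ (N : ℕ) (x : Fin N → Pt), κ * X x - B * N ≤ en (fun r => φ r - ψ r) x)
    (hψ : ∀ (N : ℕ) (x : Fin N → Pt), en ψ x ≤ t * X x) {β ρ : ℝ} (hβ : 0 < β) (hρ : 0 ≤ ρ) :
    -g (fun r => φ r - ψ r) β ρ ≤ max (1 - β * κ * K + β * B * ρ) (-g φ β ρ + β * t * K) := by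
  have hN := lp_tendsto_N hρ
  have lim : Tendsto (fun L : ℝ => Real.log 2 / L ^ 3 +
      max (1 - β * κ * K + β * B * ((⌊ρ * L ^ 3⌋₊ : ℝ) / L ^ 3))
        (-(G φ β L ⌊ρ * L ^ 3⌋₊ / L ^ 3) + β * t * K)) atTop
      (𝓝 (0 + max (1 - β * κ * K + β * B * ρ) (-g φ β ρ + β * t * K))) :=
    (lp_tendsto_const _).add ((tendsto_const_nhds.add (hN.const_mul _)).max
      ((tendsto_g h hβ hρ).neg.add tendsto_const_nhds))
  rw [zero_add] at lim
  refine le_of_tendsto_of_tendsto (tendsto_g h' hβ hρ).neg lim ?_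
  filter_upwards [eventually_gt_atTop 0] with L hL
  set N := ⌊ρ * L ^ 3⌋₊
  have hV : 0 < L ^ 3 := by positivity
  have := lp_two h' hβ.le hL (N := N) (c := -β * (κ * (K * L ^ 3) - B * N))
    (d := β * t * K * L ^ 3 - G φ β L N)
    (fun x => ENNReal.ofReal (Real.exp (β * t * K * L ^ 3)) *
      ENNReal.ofReal (Real.exp (-β * en φ x))) (fun x _ => by
      by_cases hX : X x ≤ K * L ^ 3
      · right
        rw [← ENNReal.ofReal_mul (Real.exp_pos _).le, ← Real.exp_add]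
        refine ENNReal.ofReal_le_ofReal (Real.exp_le_exp.2 ?_)
        rw [en_sub]
        have h1 := (hψ N x).trans (mul_le_mul_of_nonneg_left hX ht)
        have h2 := mul_le_mul_of_nonneg_left h1 hβ.le
        linarith
      · left
        have h1 := mul_le_mul_of_nonneg_left (not_le.1 hX).le hκ
        have h2 := hss N x
        have h3 : κ * (K * L ^ 3) - B * N ≤ en (fun r => φ r - ψ r) x := by linarith
        have h4 := mul_le_mul_of_nonneg_left h3 hβ.le
        linarith) (by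
      rw [lintegral_const_mul _ (bs_measurable_weight h.meas β _)]
      change _ * I φ β (cube L) (Fin N) ≤ _
      rw [I_eq h hβ.le hL, ← ENNReal.ofReal_mul (Real.exp_pos _).le, sub_eq_add_neg, Real.exp_add]
      exact le_of_eq (by congr 1; ring))
  have h2 := div_le_div_of_nonneg_right this hV.le
  rw [add_div, ← max_div_div_right hV.le, neg_div] at h2
  refine h2.trans (le_of_eq ?_)
  congr 2 <;> field_simp <;> ring

/-- Lebowitz-Penrose, hard direction. -/
theorem lp_upper {φ ψ : ℝ → ℝ} {B B' a ℓ κ A K h : ℝ} {w : ℕ} (hφ : Adm φ B')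
    (hφ' : Adm (fun r => φ r - a * J ℓ r) B) (ha : 0 ≤ a) (hℓ : 0 < ℓ) (hκ : 0 ≤ κ) (hA : 0 ≤ A)
    (hK : 0 ≤ K) (hh : 1 ≤ h) (hw : 0 < w)
    (hss : ∀ (N : ℕ) (x : Fin N → Pt), κ * X x - B * N ≤ en (fun r => φ r - a * J ℓ r) x)
    (hψ0 : ∀ r, 0 ≤ ψ r) (hψh : ∀ r, h ≤ r → ψ r = 0) (hφψ : ∀ r, -ψ r ≤ φ r)
    (hψA : ∀ (N : ℕ) (x : Fin N → Pt), en ψ x ≤ A * X x)
    (hJA : ∀ (N : ℕ) (x : Fin N → Pt), a * en (J ℓ) x ≤ A * X x)
    {β ν S ρ : ℝ} (hβ : 0 < β) (hρ : 0 ≤ ρ)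
    (hS : ∀ ρ' : ℝ, 0 ≤ ρ' → ν * ρ' + β * a * ρ' ^ 2 / 2 - g φ β ρ' ≤ S) :
    ν * ρ - g (fun r => φ r - a * J ℓ r) β ρ ≤
      max (1 + ν * ρ - β * κ * K + β * B * ρ)
        (β * A * K * (3 / w + 12 * (w * h) / ℓ + 6 / (w * h)) + (ρ + 2) / (w * h) +
          (1 + 26 / (w * h)) * S) := by
  have hN := lp_tendsto_N hρ
  have hw1 : (1 : ℝ) ≤ w := by exact_mod_cast hw
  have hh0 : 0 < h := by linarith
  set m : ℝ := w * h with hm
  have hm1 : 1 ≤ m := by rw [hm]; nlinarith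
  have hm0 : 0 < m := by linarith
  set τJ : ℝ := 12 * m / ℓ + 6 / m with hτJ
  have hτJ0 : 0 ≤ τJ := by positivity
  set γ : ℝ := β * a / (2 * (m + 2) ^ 3) with hγ
  have hS0 : 0 ≤ S := by simpa [g_zero] using hS 0 le_rfl
  have hS' : ∀ n : ℕ, ν * n + γ * (n : ℝ) ^ 2 - G φ β m n ≤ (m + 2) ^ 3 * S := by
    intro n
    have hp : 0 < (m + 2) ^ 3 := by positivity
    have h1 := hS (n / (m + 2) ^ 3) (by positivity)
    have h2 := g_le_finite hφ hβ hm0 n
    have h3 : ν * (n / (m + 2) ^ 3) + β * a * (n / (m + 2) ^ 3) ^ 2 / 2 -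
        G φ β m n / (m + 2) ^ 3 ≤ S := by linarith
    have h4 := mul_le_mul_of_nonneg_left h3 hp.le
    refine le_trans (le_of_eq ?_) h4
    rw [hγ]; field_simp
  have hcoef : (1 - τJ) * ((1 + 2 * m / ℓ) ^ 6 / (2 * m ^ 3)) ≤ 1 / (2 * (m + 2) ^ 3) := by
    have e1 : 1 - τJ ≤ Real.exp (-τJ) := by have := Real.add_one_le_exp (-τJ); linarith
    have e2 : (1 + 2 * m / ℓ) ^ 6 ≤ Real.exp (12 * m / ℓ) := by
      have h1 : 1 + 2 * m / ℓ ≤ Real.exp (2 * m / ℓ) := by
        have := Real.add_one_le_exp (2 * m / ℓ); linarith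
      have h2 := pow_le_pow_left₀ (by positivity) h1 6
      rw [← Real.exp_nat_mul] at h2
      refine h2.trans (le_of_eq ?_); congr 1; push_cast; ring
    have e3 : (1 + 2 / m) ^ 3 ≤ Real.exp (6 / m) := by
      have h1 : 1 + 2 / m ≤ Real.exp (2 / m) := by
        have := Real.add_one_le_exp (2 / m); linarith
      have h2 := pow_le_pow_left₀ (by positivity) h1 3
      rw [← Real.exp_nat_mul] at h2
      refine h2.trans (le_of_eq ?_); congr 1; push_cast; ring
    have e4 : (1 - τJ) * ((1 + 2 * m / ℓ) ^ 6 * (1 + 2 / m) ^ 3) ≤ 1 := by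
      calc (1 - τJ) * ((1 + 2 * m / ℓ) ^ 6 * (1 + 2 / m) ^ 3)
          ≤ Real.exp (-τJ) * ((1 + 2 * m / ℓ) ^ 6 * (1 + 2 / m) ^ 3) :=
            mul_le_mul_of_nonneg_right e1 (by positivity)
        _ ≤ Real.exp (-τJ) * (Real.exp (12 * m / ℓ) * Real.exp (6 / m)) := by gcongr
        _ = 1 := by rw [← Real.exp_add, ← Real.exp_add, ← hτJ, neg_add_cancel, Real.exp_zero]
    have e5 : (1 - τJ) * ((1 + 2 * m / ℓ) ^ 6 / (2 * m ^ 3)) =
        (1 - τJ) * ((1 + 2 * m / ℓ) ^ 6 * (1 + 2 / m) ^ 3) * (1 / (2 * (m + 2) ^ 3)) := by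
      field_simp
    rw [e5]
    exact mul_le_of_le_one_left (by positivity) e4
  set P : ℝ := β * A * K * (3 / w + τJ) with hP
  have hM := lp_tendsto_cells hm0
  have lim : Tendsto (fun L : ℝ => Real.log 2 / L ^ 3 +
      max (1 + ν * ((⌊ρ * L ^ 3⌋₊ : ℝ) / L ^ 3) - β * κ * K + β * B * ((⌊ρ * L ^ 3⌋₊ : ℝ) / L ^ 3))
        (Real.log w / L ^ 3 + P +
          (((⌊ρ * L ^ 3⌋₊ : ℝ) / L ^ 3) + ((⌊L / m⌋₊ + 2 : ℕ) : ℝ) ^ 3 / L ^ 3) * (1 / m) +
          (((⌊L / m⌋₊ + 2 : ℕ) : ℝ) ^ 3 / L ^ 3) * ((m + 2) ^ 3 * S - Real.log (1 / m)))) atTop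
      (𝓝 (0 + max (1 + ν * ρ - β * κ * K + β * B * ρ)
        (0 + P + (ρ + 1 / m ^ 3) * (1 / m) + (1 / m ^ 3) * ((m + 2) ^ 3 * S - Real.log (1 / m))))) :=
    (lp_tendsto_const _).add
      ((((tendsto_const_nhds.add (hN.const_mul _)).sub tendsto_const_nhds).add
        (hN.const_mul _)).max
      ((((lp_tendsto_const _).add tendsto_const_nhds).add ((hN.add hM).mul_const _)).add
        (hM.mul_const _)))
  have main : ν * ρ - g (fun r => φ r - a * J ℓ r) β ρ ≤ 0 + max (1 + ν * ρ - β * κ * K + β * B * ρ)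
      (0 + P + (ρ + 1 / m ^ 3) * (1 / m) + (1 / m ^ 3) * ((m + 2) ^ 3 * S - Real.log (1 / m))) := by
    refine le_of_tendsto_of_tendsto ((hN.const_mul ν).sub (tendsto_g hφ' hβ hρ)) lim ?_
    filter_upwards [eventually_gt_atTop 0] with L hL
    set N := ⌊ρ * L ^ 3⌋₊
    set M : ℝ := ((⌊L / m⌋₊ + 2 : ℕ) : ℝ) ^ 3 with hMdef
    have hV : 0 < L ^ 3 := by positivity
    have hmeas : ∀ s : ℕ, Measurable fun x : Fin N → Pt => ENNReal.ofReal
        (Real.exp (ν * N - β * enSame φ m (s * h) x + γ * same m (s * h) x)) := by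
      intro s
      have h1 := measurable_enSame hφ.meas m (s * h) (Fin N)
      have h2 := measurable_same m (s * h) (Fin N)
      exact ((measurable_const.sub (h1.const_mul β)).add (h2.const_mul γ)).exp.ennreal_ofReal
    have := lp_two hφ' hβ.le hL (N := N) (c := -β * (κ * (K * L ^ 3) - B * N))
      (d := Real.log w + (P * L ^ 3 - ν * N) +
        ((N + M) * (1 / m) + M * ((m + 2) ^ 3 * S - Real.log (1 / m))))
      (fun x => ∑ s ∈ Finset.range w, ENNReal.ofReal (Real.exp (P * L ^ 3 - ν * N)) *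
        ENNReal.ofReal (Real.exp (ν * N - β * enSame φ m (s * h) x + γ * same m (s * h) x)))
      (fun x _ => by
        by_cases hX : X x ≤ K * L ^ 3
        · right
          obtain ⟨s, hs, hsh⟩ := exists_shift hψ0 hh0 hψh hw x
          refine le_trans ?_ (Finset.single_le_sum (f := fun s : ℕ =>
            ENNReal.ofReal (Real.exp (P * L ^ 3 - ν * N)) * ENNReal.ofReal
              (Real.exp (ν * N - β * enSame φ m (s * h) x + γ * same m (s * h) x)))
            (fun _ _ => zero_le) (Finset.mem_range.2 hs))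
          rw [← ENNReal.ofReal_mul (Real.exp_pos _).le, ← Real.exp_add]
          refine ENNReal.ofReal_le_ofReal (Real.exp_le_exp.2 ?_)
          rw [en_sub φ (fun r => a * J ℓ r), en_mul]
          have hAX : A * X x ≤ A * (K * L ^ 3) := mul_le_mul_of_nonneg_left hX hA
          have h1 := enSame_sub_le_en hφψ m (s * h) x
          have h2 : 3 / w * en ψ x ≤ 3 / w * (A * (K * L ^ 3)) :=
            mul_le_mul_of_nonneg_left ((hψA N x).trans hAX) (by positivity)
          have h3 : τJ * (a * en (J ℓ) x) ≤ τJ * (A * (K * L ^ 3)) :=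
            mul_le_mul_of_nonneg_left ((hJA N x).trans hAX) hτJ0
          have hsn := same_nonneg m (s * h) x
          have h4 : (1 - τJ) * en (J ℓ) x ≤ 1 / (2 * (m + 2) ^ 3) * same m (s * h) x := by
            by_cases hc : τJ ≤ 1
            · have h5 := mul_le_mul_of_nonneg_left (en_J_le_same hℓ hm0 (s * h) x)
                (sub_nonneg.2 hc)
              have h6 := mul_le_mul_of_nonneg_right hcoef hsn
              rw [← mul_assoc] at h5
              exact h5.trans h6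
            · have h5 : 0 ≤ en (J ℓ) x := en_nonneg (J_nonneg ℓ) x
              have h6 : 0 ≤ 1 / (2 * (m + 2) ^ 3) * same m (s * h) x := by positivity
              nlinarith
          have h5 := mul_le_mul_of_nonneg_left h4 ha
          have h6 : enSame φ m (s * h) x - (3 / w + τJ) * (A * (K * L ^ 3)) -
              a * (1 / (2 * (m + 2) ^ 3) * same m (s * h) x) ≤ en φ x - a * en (J ℓ) x := by
            rw [← hm] at hsh
            nlinarith
          have h7 := mul_le_mul_of_nonneg_left h6 hβ.le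
          have e1 : γ * same m (s * h) x = β * (a * (1 / (2 * (m + 2) ^ 3) * same m (s * h) x)) := by
            rw [hγ]; ring
          have e2 : P * L ^ 3 = β * ((3 / w + τJ) * (A * (K * L ^ 3))) := by rw [hP]; ring
          rw [e1, e2]
          linarith
        · left
          have h1 := mul_le_mul_of_nonneg_left (not_le.1 hX).le hκ
          have h2 := hss N x
          have h3 : κ * (K * L ^ 3) - B * N ≤ en (fun r => φ r - a * J ℓ r) x := by linarith
          have h4 := mul_le_mul_of_nonneg_left h3 hβ.le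
          linarith) (by
        rw [lintegral_finsetSum _ fun s _ => (hmeas s).const_mul _]
        have h1 : ∀ s ∈ Finset.range w, ∫⁻ x in Set.pi Set.univ (fun _ : Fin N => cube L),
            ENNReal.ofReal (Real.exp (P * L ^ 3 - ν * N)) * ENNReal.ofReal
              (Real.exp (ν * N - β * enSame φ m (s * h) x + γ * same m (s * h) x)) ≤
            ENNReal.ofReal (Real.exp (P * L ^ 3 - ν * N)) * ENNReal.ofReal (N.factorial *
              Real.exp ((N + M) * (1 / m) + M * ((m + 2) ^ 3 * S - Real.log (1 / m)))) := by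
          intro s hs
          rw [lintegral_const_mul _ (hmeas s)]
          have hsw : (s : ℝ) ≤ w := by exact_mod_cast (Finset.mem_range.1 hs).le
          exact mul_le_mul_right (cells_upper hφ hβ.le hm0 (by positivity)
            (mul_le_mul_of_nonneg_right hsw hh0.le) hL (by positivity) hS' N) _
        refine (Finset.sum_le_card_nsmul _ _ _ h1).trans (le_of_eq ?_)
        rw [Finset.card_range, nsmul_eq_mul, ← ENNReal.ofReal_natCast,
          ← ENNReal.ofReal_mul (Real.exp_pos _).le, ← ENNReal.ofReal_mul (by positivity),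
          Real.exp_add (Real.log w + _), Real.exp_add (Real.log w), Real.exp_log (by positivity)]
        congr 1; ring)
    have h2 : ν * N - G (fun r => φ r - a * J ℓ r) β L N ≤ Real.log 2 +
        max (ν * N + (L ^ 3 + -β * (κ * (K * L ^ 3) - B * N)))
          (ν * N + (Real.log w + (P * L ^ 3 - ν * N) +
            ((N + M) * (1 / m) + M * ((m + 2) ^ 3 * S - Real.log (1 / m))))) := by
      rw [max_add_add_left]; linarith
    have h3 := div_le_div_of_nonneg_right h2 hV.le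
    rw [add_div, ← max_div_div_right hV.le, sub_div, mul_div_assoc] at h3
    refine h3.trans (le_of_eq ?_)
    congr 2 <;> field_simp <;> ring
  rw [zero_add, zero_add] at main
  refine main.trans (max_le_max le_rfl ?_)
  have e1 : 3 / (w : ℝ) + 12 * m / ℓ + 6 / m = 3 / w + τJ := by rw [hτJ]; ring
  rw [e1, ← hP]
  set u : ℝ := 1 / m with hu
  have hu0 : 0 < u := by positivity
  have hu1 : u ≤ 1 := by rw [hu, div_le_one hm0]; exact hm1
  have e2 : 1 / m ^ 3 = u ^ 3 := by rw [hu]; field_simp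
  have e3 : u ^ 3 * (m + 2) ^ 3 = (1 + 2 * u) ^ 3 := by rw [hu]; field_simp
  have e4 : -Real.log u ≤ m := by
    rw [hu, one_div, Real.log_inv, neg_neg]
    have := Real.log_le_sub_one_of_pos hm0
    linarith
  have e5 : u ^ 3 * m = u ^ 2 := by rw [hu]; field_simp
  have e6 : (ρ + 2) / m = (ρ + 2) * u := by rw [hu]; ring
  have e7 : 26 / m = 26 * u := by rw [hu]; ring
  have p2 : u ^ 2 ≤ u := by nlinarith
  have p3 : u ^ 3 ≤ u := by nlinarith
  have p4 : u ^ 3 * u ≤ u := by nlinarith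
  have p5 : (1 + 2 * u) ^ 3 ≤ 1 + 26 * u := by nlinarith
  have p6 := mul_le_mul_of_nonneg_right p5 hS0
  have p7 := mul_le_mul_of_nonneg_left e4 (by positivity : 0 ≤ u ^ 3)
  rw [e2, e6, e7, mul_sub, ← mul_assoc, e3]
  nlinarith

end Crest.Agent.R149
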