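import Crest.Agent.R149.Scheme

/-! # Row 149: choice of the parameters and the main theorem -/

namespace Crest.Agent.R149

open MeasureTheory Crest.ProbabilityR.Continuum Filter Topology Set

theorem exists_small {Λ : ℝ} (hΛ : 2 ≤ Λ) : ∃ θ β' ε₀, Small Λ θ β' ε₀ ∧ ε₀ ≤ 1 := by
  have hΛ0 : 0 < Λ := by linarith
  have hs : Small Λ (1 / (1000 * Λ ^ 2)) (1 / (1000 * Λ ^ 3))
      (1 / (1000 * Λ ^ 2) / (100 * Λ ^ 3)) :=
    ⟨hΛ, by positivity, le_of_eq (by field_simp), by positivity, le_of_eq (by field_simp),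
      by positivity, le_of_eq (by field_simp)⟩
  refine ⟨_, _, _, hs, ?_⟩
  obtain ⟨f1, f2, -⟩ := hs.facts
  linarith [hs.ε₀le, hs.ε₀pos]

/-- The doubly exponential scales. -/
noncomputable def yy (μ k : ℕ) : ℝ := (μ : ℝ) ^ (2 ^ k)

theorem yy_succ (μ k : ℕ) : yy μ (k + 1) = yy μ k ^ 2 := by
  unfold yy; rw [← pow_mul, pow_succ]

theorem yy_zero (μ : ℕ) : yy μ 0 = μ := by simp [yy]

theorem le_yy {μ : ℕ} (hμ : 2 ≤ μ) (k : ℕ) : (μ : ℝ) * 2 ^ k ≤ yy μ k := by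
  have h2 : (2 : ℝ) ≤ μ := by exact_mod_cast hμ
  induction k with
  | zero => simp [yy]
  | succ k ih =>
    rw [yy_succ, pow_succ, sq]
    have h3 : (1 : ℝ) ≤ 2 ^ k := one_le_pow₀ (by norm_num)
    have h4 : (2 : ℝ) ≤ μ * 2 ^ k := by nlinarith
    have h5 : (μ : ℝ) * 2 ^ k * 2 ≤ yy μ k * yy μ k :=
      mul_le_mul ih (h4.trans ih) (by norm_num) (by linarith)
    linarith

theorem yy_sq_le {μ : ℕ} (hμ : 2 ≤ μ) {j k : ℕ} (h : j < k) : yy μ j ^ 2 ≤ yy μ k := by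
  rw [← yy_succ]
  have h2 : (1 : ℝ) ≤ μ := by exact_mod_cast (by omega : 1 ≤ μ)
  exact pow_le_pow_right₀ h2 (Nat.pow_le_pow_right (by norm_num) h)

theorem kac_decay {a ℓ : ℕ → ℝ} (ha : ∀ j, 0 ≤ a j) (hs : Summable a) (hℓ : ∀ j, 1 ≤ ℓ j) {C : ℝ}
    (hC : ∀ j, a j * ℓ j ^ (1 / 32 : ℝ) ≤ C * (1 / 2) ^ j) {r : ℝ} (hr : 0 < r) :
    kac a ℓ r ≤ 2 * C * 2 ^ (3 + 1 / 32 : ℝ) * r ^ (-(3 + 1 / 32 : ℝ)) := by
  have hC0 : 0 ≤ C := by
    have h1 := hC 0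
    have h2 : 0 ≤ a 0 * ℓ 0 ^ (1 / 32 : ℝ) := mul_nonneg (ha 0) (Real.rpow_nonneg (by linarith [hℓ 0]) _)
    simpa using h2.trans h1
  set D := (r / 2) ^ (-(3 + 1 / 32 : ℝ)) with hD
  have hD0 : 0 ≤ D := Real.rpow_nonneg (by linarith) _
  have hterm : ∀ j, a j * J (ℓ j) r ≤ C * D * (1 / 2) ^ j := by
    intro j
    have hℓ0 : 0 < ℓ j := by linarith [hℓ j]
    rcases le_or_gt (2 * ℓ j) r with h | h
    · rw [J_eq_zero h, mul_zero]; positivity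
    · have h1 : ℓ j ^ (-(3 + 1 / 32 : ℝ)) ≤ D :=
        Real.rpow_le_rpow_of_nonpos (by linarith) (by linarith) (by norm_num)
      have h2 : 1 / ℓ j ^ 3 = ℓ j ^ (1 / 32 : ℝ) * ℓ j ^ (-(3 + 1 / 32 : ℝ)) := by
        rw [← Real.rpow_add hℓ0, show (1 / 32 : ℝ) + -(3 + 1 / 32) = -((3 : ℕ) : ℝ) by norm_num,
          Real.rpow_neg hℓ0.le, Real.rpow_natCast, one_div]
      calc a j * J (ℓ j) r ≤ a j * (1 / ℓ j ^ 3) := mul_le_mul_of_nonneg_left (J_le hℓ0 r) (ha j)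
        _ = (a j * ℓ j ^ (1 / 32 : ℝ)) * ℓ j ^ (-(3 + 1 / 32 : ℝ)) := by rw [h2]; ring
        _ ≤ (C * (1 / 2) ^ j) * D :=
          mul_le_mul (hC j) h1 (Real.rpow_nonneg hℓ0.le _) (by positivity)
        _ = C * D * (1 / 2) ^ j := by ring
  have h3 : kac a ℓ r ≤ ∑' j : ℕ, C * D * (1 / 2 : ℝ) ^ j :=
    (summable_kac ha hs hℓ r).tsum_le_tsum hterm (summable_geometric_two.mul_left _)
  rw [tsum_mul_left, tsum_geometric_two] at h3
  refine h3.trans (le_of_eq ?_)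
  rw [hD, Real.div_rpow hr.le (by norm_num), Real.rpow_neg (by norm_num : (0 : ℝ) ≤ 2)]
  field_simp

theorem exists_params : ∃ (p δ η H q T A K S₀ Λ θ β' ε₀ C' : ℝ) (a ℓ hh ε : ℕ → ℝ) (w : ℕ → ℕ),
    1 ≤ p ∧ Small Λ θ β' ε₀ ∧ Params p δ η H q T A K S₀ Λ β' ε₀ a ℓ hh ε w ∧ δ ≤ η / 2 ∧ 0 < H ∧
    6 ≤ ℓ 0 ∧ (∀ j, a j * ℓ j ^ (1 / 32 : ℝ) ≤ C' * (1 / 2) ^ j) ∧
    ∀ φ₀, Core φ₀ δ η H → (∀ β, 0 < β → g φ₀ β q ≤ q * T * ε₀) ∧
      (∀ β, 0 < β → g φ₀ β (2 * q) ≤ q * T * (1 + ε₀)) := by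
  obtain ⟨p, hp1, hp⟩ := exists_packing_density
  have hM := Mc_pos
  have hM1 := one_le_Mc
  obtain ⟨Λ, hΛ⟩ : ∃ Λ : ℝ, Λ = 64 * Mc := ⟨_, rfl⟩
  have hΛ0 : 0 < Λ := by linarith
  obtain ⟨θ, β', ε₀, hs, hε1⟩ := exists_small (Λ := Λ) (by linarith)
  have hε₀ := hs.ε₀pos
  have hβ' := hs.β'pos
  obtain ⟨η, q, C, hη0, hη1, hq, hpq, hup⟩ := core_upper (by linarith) hp (ε := ε₀ / 4) (by linarith)
  have hq2 : 1 / 2 ≤ q := by nlinarith
  obtain ⟨T, hT⟩ : ∃ T : ℝ, T = 1 + 6 / η + 4 * (p + 1) / ε₀ + 2 * (6 * q + |C|) / ε₀ := ⟨_, rfl⟩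
  have t1 : 0 < 6 / η := by positivity
  have t2 : 0 < 4 * (p + 1) / ε₀ := by positivity
  have t3 : 0 < 2 * (6 * q + |C|) / ε₀ := by positivity
  have hT0 : 0 < T := by linarith
  have hTη : 6 ≤ T * η := by rw [← div_le_iff₀ hη0]; linarith
  have hTp : 4 * (p + 1) ≤ T * ε₀ := by rw [← div_le_iff₀ hε₀]; linarith
  have hTC : 2 * (6 * q + |C|) ≤ T * ε₀ := by rw [← div_le_iff₀ hε₀]; linarith
  have hqTε : T * ε₀ / 2 ≤ q * T * ε₀ := by
    have := mul_le_mul_of_nonneg_right hq2 (show 0 ≤ T * ε₀ by positivity); linarith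
  obtain ⟨δ, hδ⟩ : ∃ δ : ℝ, δ = Real.exp (-(T / 3 + 2)) := ⟨_, rfl⟩
  have hδ0 : 0 < δ := by rw [hδ]; exact Real.exp_pos _
  have hδ3 : δ ^ 3 = Real.exp (-(T + 6)) := by
    rw [hδ, ← Real.exp_nat_mul]; congr 1; push_cast; ring
  have hδη : δ ≤ η / 2 := by
    have h1 := Real.add_one_le_exp (T / 3 + 2)
    rw [hδ, Real.exp_neg, inv_le_comm₀ (Real.exp_pos _) (by positivity)]
    refine le_trans ?_ h1
    rw [inv_div, div_le_iff₀ hη0]
    nlinarith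
  have hlog : -3 * Real.log δ = T + 6 := by rw [hδ, Real.log_exp]; ring
  obtain ⟨A, hA⟩ : ∃ A : ℝ, A = 2 * (T / q) := ⟨_, rfl⟩
  have hA0 : 0 < A := by rw [hA]; positivity
  obtain ⟨H, hH⟩ : ∃ H : ℝ, H = 1056 * Mc * A + 2 * (2 * T + 1) / β' + (T + 6) / β' := ⟨_, rfl⟩
  have s1 : 0 < 1056 * Mc * A := by positivity
  have s2 : 0 < 2 * (2 * T + 1) / β' := by positivity
  have s3 : 0 < (T + 6) / β' := by positivity
  have hH0 : 0 < H := by linarith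
  have hH1 : 2 * (2 * T + 1) ≤ H * β' := by rw [← div_le_iff₀ hβ']; linarith
  have hH2 : T + 6 ≤ H * β' := by rw [← div_le_iff₀ hβ']; linarith
  have hκ : 0 < H / (2 * Mc) - 256 * A := by
    rw [sub_pos, lt_div_iff₀ (by positivity)]
    have : 0 < Mc * A := by positivity
    linarith
  obtain ⟨K, hK⟩ : ∃ K : ℝ, K = (1 + T * (q * Λ) + 3 * (H / 2) * (q * Λ)) /
    (β' * (H / (2 * Mc) - 256 * A)) := ⟨_, rfl⟩
  have hK0 : 0 < K := by rw [hK]; positivity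
  obtain ⟨S₀, hS₀⟩ : ∃ S₀ : ℝ,
    S₀ = T * (q * Λ) + 3 * A * (q * Λ) ^ 2 / 2 + 1 + 3 * (H / 2) * (q * Λ) := ⟨_, rfl⟩
  have hS₀0 : 0 < S₀ := by rw [hS₀]; positivity
  obtain ⟨C₁, hC₁⟩ : ∃ C₁ : ℝ,
    C₁ = (3 * (256 * A) * K * 30 + (q * Λ + 2 + 26 * S₀) + 3 * A * (q * Λ)) / (q * T) := ⟨_, rfl⟩
  have hC₁0 : 0 < C₁ := by rw [hC₁]; positivity
  have hC₁' : q * T * C₁ = 3 * (256 * A) * K * 30 + (q * Λ + 2 + 26 * S₀) + 3 * A * (q * Λ) := by
    rw [hC₁]; field_simp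
  obtain ⟨μ, hμ⟩ := exists_nat_ge (6 + 1 / ε₀ + C₁ + 768 * K / (q * q * ε₀))
  have u1 : 0 < 1 / ε₀ := by positivity
  have u2 : 0 < 768 * K / (q * q * ε₀) := by positivity
  have hμ6 : (6 : ℝ) ≤ μ := by linarith
  have hμ2 : 2 ≤ μ := by exact_mod_cast (show (2 : ℝ) ≤ μ by linarith)
  have hμ0 : (0 : ℝ) < μ := by linarith
  have hμε : 1 ≤ μ * ε₀ := by rw [← div_le_iff₀ hε₀]; linarith
  have hμK : 768 * K ≤ μ * (q * q * ε₀) := by rw [← div_le_iff₀ (by positivity)]; linarith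
  have hy := le_yy hμ2
  have h2k : ∀ k : ℕ, (1 : ℝ) ≤ 2 ^ k := fun k => one_le_pow₀ (by norm_num)
  have hyμ : ∀ k, (μ : ℝ) ≤ yy μ k := fun k =>
    (le_mul_of_one_le_right hμ0.le (h2k k)).trans (hy k)
  have hy1 : ∀ k, 1 ≤ yy μ k := fun k => by linarith [hyμ k]
  have hy0 : ∀ k, 0 < yy μ k := fun k => by linarith [hy1 k]
  have hTq : 0 < T / q := by positivity
  set a : ℕ → ℝ := fun k => if k = 0 then T / q else T / q / yy μ k ^ 3 with ha
  have ha1 : ∀ k, 1 ≤ k → a k = T / q / yy μ k ^ 3 := fun k hk => if_neg (by omega)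
  have ha0 : a 0 = T / q := if_pos rfl
  have hapos : ∀ k, 0 < a k := by
    intro k
    rcases Nat.eq_zero_or_pos k with rfl | hk
    · rw [ha0]; exact hTq
    · rw [ha1 k hk]; have := hy0 k; positivity
  have hinvy : ∀ k, 1 / yy μ k ≤ 1 / μ * (1 / 2) ^ k := by
    intro k
    rw [one_div_pow, div_mul_div_comm, one_mul]
    exact one_div_le_one_div_of_le (by positivity) (hy k)
  have hinv3 : ∀ k, 1 / yy μ k ^ 3 ≤ 1 / μ * (1 / 2) ^ k := fun k =>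
    (one_div_le_one_div_of_le (hy0 k) (le_self_pow₀ (hy1 k) (by norm_num))).trans (hinvy k)
  have hale : ∀ k, 1 ≤ k → a k ≤ T / q * (1 / μ * (1 / 2) ^ k) := by
    intro k hk
    rw [ha1 k hk, div_eq_mul_one_div (T / q)]
    exact mul_le_mul_of_nonneg_left (hinv3 k) hTq.le
  have hμinv : (1 : ℝ) / μ ≤ 1 := by rw [div_le_one hμ0]; linarith
  have hale' : ∀ k, a k ≤ T / q * (1 / 2) ^ k := by
    intro k
    rcases Nat.eq_zero_or_pos k with rfl | hk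
    · rw [ha0]; simp
    · refine (hale k hk).trans (mul_le_mul_of_nonneg_left ?_ hTq.le)
      exact mul_le_of_le_one_left (by positivity) hμinv
  have hasum : Summable a :=
    Summable.of_nonneg_of_le (fun k => (hapos k).le) hale' (summable_geometric_two.mul_left _)
  have hb : ∀ k, 1 ≤ k → a k * q / T = 1 / yy μ k ^ 3 := by
    intro k hk; rw [ha1 k hk]; field_simp
  refine ⟨p, δ, η, H, q, T, A, K, S₀, Λ, θ, β', ε₀, T / q * μ ^ 2, a, fun k => yy μ k ^ 64,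
    fun k => 2 * yy μ k ^ 32, fun k => C₁ / yy μ k ^ 8, fun k => (μ ^ (2 ^ k)) ^ 16, hp1, hs,
    ?_, hδη, hH0, ?_, ?_, ?_⟩
  · have hw : ∀ k, (((μ ^ (2 ^ k)) ^ 16 : ℕ) : ℝ) = yy μ k ^ 16 := by
      intro k; push_cast; rfl
    refine ⟨hp, hδ0, hη1, hq2, hT0, hβ', hΛ.ge, hapos, hasum, ?_, ha0, ?_, ?_, ?_, ?_, ?_, ?_, ?_,
      by linarith, by linarith, ?_, ?_, hK0.le, ?_, hS₀.ge, ?_, ?_, hpq, by linarith,
      by linarith, ?_⟩
    · have := hasum.tsum_le_tsum hale' (summable_geometric_two.mul_left _)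
      rw [tsum_mul_left, tsum_geometric_two] at this
      linarith
    · intro k hk
      rw [hb k hk]
      refine (hinv3 k).trans ?_
      rw [one_div_pow, div_eq_mul_one_div ε₀]
      refine mul_le_mul_of_nonneg_right ?_ (by positivity)
      rw [div_le_iff₀ hμ0]; linarith
    · intro k; have := hy0 k; positivity
    · intro k hk
      rw [hb k hk]
      have h0 := hy0 k
      have h1 : 1 ≤ ε₀ / 2 ^ k * yy μ k := by
        rw [div_mul_eq_mul_div, le_div_iff₀ (by positivity)]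
        have b1 := mul_le_mul_of_nonneg_left (hy k) hε₀.le
        have b2 := mul_le_mul_of_nonneg_right hμε (show (0 : ℝ) ≤ 2 ^ k by positivity)
        linarith
      have h2 : 1 ≤ (ε₀ / 2 ^ k * yy μ k) ^ 4 := one_le_pow₀ h1
      have h3 : C₁ ≤ (ε₀ / 2 ^ k * yy μ k) ^ 4 * yy μ k := by
        have := mul_le_mul_of_nonneg_right h2 h0.le
        linarith [hyμ k]
      rw [div_le_iff₀ (by positivity)]
      refine h3.trans (le_of_eq ?_)
      field_simp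
    · intro k; exact one_le_pow₀ (hy1 k)
    · intro k
      have : 1 ≤ yy μ k ^ 32 := one_le_pow₀ (hy1 k)
      linarith
    · intro k; positivity
    · intro k j hj
      have := pow_le_pow_left₀ (sq_nonneg _) (yy_sq_le hμ2 hj) 32
      rw [← pow_mul, show 2 * 32 = 64 from rfl] at this
      linarith
    · rw [hδ3]; exact Real.exp_le_exp.mpr (by linarith)
    · rw [hδ3, neg_add, Real.exp_add]
      have h1 : 72 ≤ Real.exp 6 := by
        have := Real.add_one_le_exp 1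
        have h2 : Real.exp 6 = Real.exp 1 ^ 6 := by rw [← Real.exp_nat_mul]; norm_num
        have h3 : (2.7 : ℝ) ≤ Real.exp 1 := by linarith [Real.exp_one_gt_d9]
        rw [h2]
        refine le_trans (by norm_num) (pow_le_pow_left₀ (by norm_num) h3 6)
      have h4 : 72 * Real.exp (-6) ≤ 1 := by
        rw [Real.exp_neg, ← div_eq_mul_inv, div_le_one (Real.exp_pos _)]; exact h1
      have := mul_le_mul_of_nonneg_left h4 (Real.exp_pos (-T)).le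
      linarith
    · rw [hK, mul_div_cancel₀ _ (mul_pos hβ' hκ).ne']
    · intro k
      rw [hw k, yy_succ, ← pow_mul]
      have h0 := hy0 k
      have h16 : yy μ k ^ 16 ≤ yy μ k ^ 16 * (2 * yy μ k ^ 32) := by
        refine le_mul_of_one_le_right (by positivity) ?_
        have : 1 ≤ yy μ k ^ 32 := one_le_pow₀ (hy1 k)
        linarith
      have h16' : 2 * yy μ k ^ 16 ≤ yy μ k ^ 16 * (2 * yy μ k ^ 32) := by
        have h1 : 1 ≤ yy μ k ^ 32 := one_le_pow₀ (hy1 k)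
        have := mul_le_mul_of_nonneg_left h1 (show 0 ≤ yy μ k ^ 16 by positivity)
        linarith
      have e1 : 12 * (yy μ k ^ 16 * (2 * yy μ k ^ 32)) / yy μ k ^ 64 = 24 / yy μ k ^ 16 := by
        field_simp; norm_num
      have e2 : 6 / (yy μ k ^ 16 * (2 * yy μ k ^ 32)) ≤ 3 / yy μ k ^ 16 := by
        rw [div_le_div_iff₀ (by positivity) (by positivity)]; linarith
      have e3 : (q * Λ + 2 + 26 * S₀) / (yy μ k ^ 16 * (2 * yy μ k ^ 32)) ≤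
          (q * Λ + 2 + 26 * S₀) / yy μ k ^ 16 :=
        div_le_div_of_nonneg_left (by positivity) (by positivity) h16
      have e4 : 3 / yy μ k ^ 16 + 12 * (yy μ k ^ 16 * (2 * yy μ k ^ 32)) / yy μ k ^ 64 +
          6 / (yy μ k ^ 16 * (2 * yy μ k ^ 32)) ≤ 30 / yy μ k ^ 16 := by
        rw [e1]
        have : 30 / yy μ k ^ 16 = 3 / yy μ k ^ 16 + 24 / yy μ k ^ 16 + 3 / yy μ k ^ 16 := by ring
        linarith
      have e5 := mul_le_mul_of_nonneg_left e4 (show 0 ≤ 3 * (256 * A) * K by positivity)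
      have e6 : q * T * (C₁ / yy μ k ^ (2 * 8)) = 3 * (256 * A) * K * (30 / yy μ k ^ 16) +
          (q * Λ + 2 + 26 * S₀) / yy μ k ^ 16 + 3 * A * (q * Λ) / yy μ k ^ 16 := by
        rw [← mul_div_assoc, hC₁']; ring
      have e7 : 0 ≤ 3 * A * (q * Λ) / yy μ k ^ 16 := by positivity
      linarith
    · intro k
      rw [yy_succ, ← pow_mul, ← pow_mul, ← mul_div_assoc, hC₁']
      have h0 := hy0 k
      have e1 : yy μ k ^ (2 * 8) ≤ 2 * yy μ k ^ (64 * 3) := by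
        have : yy μ k ^ (2 * 8) ≤ yy μ k ^ (64 * 3) := pow_le_pow_right₀ (hy1 k) (by norm_num)
        have : 0 ≤ yy μ k ^ (64 * 3) := by positivity
        linarith
      refine (div_le_div_of_nonneg_left (by positivity) (by positivity) e1).trans ?_
      refine div_le_div_of_nonneg_right ?_ (by positivity)
      have : 0 ≤ 3 * (256 * A) * K * 30 + (q * Λ + 2 + 26 * S₀) := by positivity
      linarith
    · have h1 : ∑' j, a (j + 1) ≤ ∑' j : ℕ, T / q * (1 / μ) / 2 * (1 / 2 : ℝ) ^ j := by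
        refine ((summable_nat_add_iff 1).mpr hasum).tsum_le_tsum (fun j => ?_)
          (summable_geometric_two.mul_left _)
        refine (hale (j + 1) (by omega)).trans (le_of_eq ?_)
        ring
      rw [tsum_mul_left, tsum_geometric_two] at h1
      have h2 : 3 * (256 * ∑' j, a (j + 1)) * K ≤ 3 * (256 * (T / q * (1 / μ) / 2 * 2)) * K := by
        gcongr
      refine h2.trans ?_
      have h3 : 3 * (256 * (T / q * (1 / μ) / 2 * 2)) * K = T * (768 * K) / (q * μ) := by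
        field_simp; norm_num
      rw [h3, div_le_iff₀ (by positivity)]
      have := mul_le_mul_of_nonneg_left hμK hT0.le
      linarith
  · exact hμ6.trans ((hyμ 0).trans (le_self_pow₀ (hy1 0) (by norm_num)))
  · intro j
    have h0 := hy0 j
    have e1 : (yy μ j ^ 64) ^ (1 / 32 : ℝ) = yy μ j ^ 2 := by
      rw [← Real.rpow_natCast, ← Real.rpow_mul h0.le, ← Real.rpow_natCast]; norm_num
    simp only
    rw [e1]
    rcases Nat.eq_zero_or_pos j with rfl | hj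
    · rw [ha0, yy_zero]; simp
    · rw [ha1 j hj]
      have e2 : T / q / yy μ j ^ 3 * yy μ j ^ 2 = T / q * (1 / yy μ j) := by field_simp
      rw [e2, mul_assoc]
      refine mul_le_mul_of_nonneg_left ((hinvy j).trans ?_) hTq.le
      refine mul_le_mul_of_nonneg_right (hμinv.trans (one_le_pow₀ (by linarith))) (by positivity)
  · intro φ₀ hc
    have hC := le_abs_self C
    refine ⟨fun β hβ => ?_, fun β hβ => ?_⟩
    · linarith [(hup φ₀ δ H hδ0 hδη hc β hβ).1]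
    · have := (hup φ₀ δ H hδ0 hδη hc β hβ).2
      rw [hlog] at this
      linarith

theorem main : ∃ (p δ η H q : ℝ) (ψ : ℝ → ℝ), 1 ≤ p ∧
    Tendsto (fun L : ℝ => (packingNumber L : ℝ) / L ^ 3) atTop (𝓝 p) ∧ 0 < δ ∧ δ ≤ η / 2 ∧ η ≤ 1 ∧
    0 < H ∧ 0 < q ∧ Continuous ψ ∧ (∀ r, 0 ≤ ψ r) ∧ (∃ M, ∀ r, ψ r ≤ M) ∧
    (∃ C, ∀ r, 0 < r → ψ r ≤ C * r ^ (-(3 + 1 / 32 : ℝ))) ∧
    (∃ c, 0 < c ∧ ∀ r, 2 ≤ r → r ≤ 3 → c ≤ ψ r) ∧
    ∀ φ₀, Core φ₀ δ η H → ∃ B βc, Adm (fun r => φ₀ r - ψ r) B ∧ 0 < βc ∧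
      ∀ ρ, q / 3 < ρ → ρ < 2 * q / 3 → ∃ Dl Dr : ℝ,
        HasDerivWithinAt (fun β => g (fun r => φ₀ r - ψ r) β ρ) Dl (Iio βc) βc ∧
        HasDerivWithinAt (fun β => g (fun r => φ₀ r - ψ r) β ρ) Dr (Ioi βc) βc ∧ Dr < Dl := by
  obtain ⟨p, δ, η, H, q, T, A, K, S₀, Λ, θ, β', ε₀, C', a, ℓ, hh, ε, w, hp1, hs, P, hδη, hH, hℓ0,
    hdec, hup⟩ := exists_params
  have ha0 : ∀ j, 0 ≤ a j := fun j => (P.apos j).le
  have hq : 0 < q := by linarith [P.qhalf]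
  have hqT : 0 < q * T := mul_pos hq P.Tpos
  refine ⟨p, δ, η, H, q, kac a ℓ, hp1, P.plim, P.δpos, hδη, P.η1, hH, hq,
    continuous_kac ha0 P.asum P.ℓ1, kac_nonneg ha0, ⟨_, kac_le ha0 P.asum P.ℓ1⟩,
    ⟨_, fun r hr => kac_decay ha0 P.asum P.ℓ1 hdec hr⟩, ?_, ?_⟩
  · have hl : 0 < ℓ 0 := by linarith
    refine ⟨a 0 * (1 / (40 * ℓ 0 ^ 3)), mul_pos (P.apos 0) (by positivity), fun r h1 h2 => ?_⟩
    refine le_trans (mul_le_mul_of_nonneg_left (J_lower hl (by linarith) (by linarith)) (ha0 0)) ?_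
    exact (summable_kac ha0 P.asum P.ℓ1 r).le_tsum 0 (fun j _ => mul_nonneg (ha0 j) (J_nonneg _ _))
  · intro φ₀ hc
    obtain ⟨hadm, hsch⟩ := scheme_of_params P hc (hup φ₀ hc).1 (hup φ₀ hc).2
    obtain ⟨βc, hβc, hk⟩ := hsch.kink hs
    refine ⟨_, βc, hadm, hβc, fun ρ h1 h2 => ?_⟩
    obtain ⟨Dl, Dr, hl, hr, hlt⟩ := hk (ρ / q) (by rw [lt_div_iff₀ hq]; linarith)
      (by rw [div_lt_iff₀ hq]; linarith)
    have hl' := hl.mul_const (q * T)
    have hr' := hr.mul_const (q * T)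
    simp only [mul_div_cancel₀ _ hq.ne', div_mul_cancel₀ _ hqT.ne'] at hl' hr'
    exact ⟨_, _, hl', hr', mul_lt_mul_of_pos_right hlt hqT⟩

end Crest.Agent.R149
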