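import Crest.Agent.R149.KacSum
import Crest.Agent.R149.Abstract3

/-! # Row 149: the physical system satisfies the hypotheses of the abstract theorem -/

namespace Crest.Agent.R149

open MeasureTheory Crest.ProbabilityR.Continuum Filter Topology Set

/-- All the inequalities between the parameters that the proof uses. -/
structure Params (p δ η H q T A K S₀ Λ β' ε₀ : ℝ) (a ℓ hh ε : ℕ → ℝ) (w : ℕ → ℕ) : Prop where
  plim : Tendsto (fun L : ℝ => (packingNumber L : ℝ) / L ^ 3) atTop (𝓝 p)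
  δpos : 0 < δ
  η1 : η ≤ 1
  qhalf : 1 / 2 ≤ q
  Tpos : 0 < T
  β'pos : 0 < β'
  ΛMc : 64 * Mc ≤ Λ
  apos : ∀ j, 0 < a j
  asum : Summable a
  aA : ∑' j, a j ≤ A
  a0 : a 0 = T / q
  ale : ∀ k, 1 ≤ k → a k * q / T ≤ ε₀ / 2 ^ k
  εpos : ∀ k, 0 < ε k
  εle : ∀ k, 1 ≤ k → ε k ≤ (ε₀ / 2 ^ k) ^ 4 * (a k * q / T)
  ℓ1 : ∀ j, 1 ≤ ℓ j
  hh1 : ∀ k, 1 ≤ hh k
  wpos : ∀ k, 0 < w k
  range : ∀ k j, j < k → 2 * ℓ j ≤ hh k
  HA : 1056 * Mc * A ≤ H
  HT : 2 * T + 1 ≤ β' * H / 2
  Hδ : Real.exp (-(β' * H)) ≤ δ ^ 3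
  δT : 72 * δ ^ 3 ≤ Real.exp (-T)
  K0 : 0 ≤ K
  Kbig : 1 + T * (q * Λ) + 3 * (H / 2) * (q * Λ) ≤ β' * (H / (2 * Mc) - 256 * A) * K
  S₀big : T * (q * Λ) + 3 * A * (q * Λ) ^ 2 / 2 + 1 + 3 * (H / 2) * (q * Λ) ≤ S₀
  errU : ∀ k, 3 * (256 * A) * K * (3 / w k + 12 * (w k * hh k) / ℓ k + 6 / (w k * hh k)) +
    (q * Λ + 2 + 26 * S₀) / (w k * hh k) ≤ q * T * ε (k + 1)
  errL : ∀ k, 3 * A * (q * Λ) / (2 * ℓ k ^ 3) ≤ q * T * ε (k + 1)
  pq : p ≤ (1 + ε₀ / 4) * q
  pT : p + 1 ≤ q * T * ε₀ / 2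
  oneT : 1 ≤ q * T * ε₀
  tail : 3 * (256 * ∑' j, a (j + 1)) * K ≤ q * T * ε₀

theorem scheme_of_params {p δ η H q T A K S₀ Λ β' ε₀ : ℝ} {a ℓ hh ε : ℕ → ℝ} {w : ℕ → ℕ}
    (P : Params p δ η H q T A K S₀ Λ β' ε₀ a ℓ hh ε w) {φ₀ : ℝ → ℝ} (hc : Core φ₀ δ η H)
    (up1 : ∀ β, 0 < β → g φ₀ β q ≤ q * T * ε₀)
    (up2 : ∀ β, 0 < β → g φ₀ β (2 * q) ≤ q * T * (1 + ε₀)) :
    Adm (fun r => φ₀ r - kac a ℓ r) (H / 2) ∧
    Scheme Λ β' ε₀ (fun k β ρ => g (fun r => φ₀ r - kacFin a ℓ k r) β (q * ρ) / (q * T))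
      (fun β ρ => g (fun r => φ₀ r - kac a ℓ r) β (q * ρ) / (q * T))
      (fun k => a k * q / T) ε (fun k => 3 * (256 * ∑' j, a (j + k)) * K / (q * T)) := by
  have hM := Mc_pos
  have hM1 := one_le_Mc
  have hq : 0 < q := by linarith [P.qhalf]
  have hT := P.Tpos
  have hqT : 0 < q * T := by positivity
  have ha0 : ∀ j, 0 ≤ a j := fun j => (P.apos j).le
  have hΛ0 : 0 < Λ := by linarith [P.ΛMc]
  have haA : ∀ k, a k ≤ A := fun k =>
    (P.asum.le_tsum k (fun j _ => ha0 j)).trans P.aA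
  have hA : 0 ≤ A := (ha0 0).trans (haA 0)
  have hH : 0 ≤ H := le_trans (by positivity) P.HA
  have hκ : 256 * A ≤ H / (2 * Mc) := by
    rw [le_div_iff₀ (by positivity)]
    have : 0 ≤ Mc * A := by positivity
    linarith [P.HA]
  have hX : ∀ {N : ℕ} (x : Fin N → Pt), 0 ≤ X x := fun x => same_nonneg _ _ x
  have enFin : ∀ k (N : ℕ) (x : Fin N → Pt), en (kacFin a ℓ k) x ≤ 256 * A * X x := by
    intro k N x
    refine (en_kacFin_le ha0 P.ℓ1 k x).trans ?_
    have h2 := (P.asum.sum_le_tsum (Finset.range k) (fun j _ => ha0 j)).trans P.aA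
    have := hX x
    gcongr
  have enInf : ∀ (N : ℕ) (x : Fin N → Pt), en (kac a ℓ) x ≤ 256 * A * X x := by
    intro N x
    refine (en_kac_le ha0 P.asum P.ℓ1 x).trans ?_
    have := hX x
    have := P.aA
    gcongr
  have admk := fun k => adm_of_attr hc P.δpos P.η1 hH (continuous_kacFin P.ℓ1 k).measurable
    (kacFin_nonneg ha0 k) (enFin k) hκ
  have admI := adm_of_attr hc P.δpos P.η1 hH (continuous_kac ha0 P.asum P.ℓ1).measurable
    (kac_nonneg ha0) enInf hκ
  have hsucc : ∀ k, (fun r => φ₀ r - kacFin a ℓ (k + 1) r) =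
      fun r => (fun r => φ₀ r - kacFin a ℓ k r) r - a k * J (ℓ k) r := by
    intro k; funext r; rw [kacFin_succ]; ring
  have hzero : (fun r => φ₀ r - kacFin a ℓ 0 r) = φ₀ := by
    funext r; simp [kacFin]
  have hinf : ∀ k, (fun r => φ₀ r - kac a ℓ r) = fun r => (fun r => φ₀ r - kacFin a ℓ k r) r -
      kac (fun j => a (j + k)) (fun j => ℓ (j + k)) r := by
    intro k; funext r; rw [kac_eq_add ha0 P.asum P.ℓ1 k]; ring
  have adm0 : Adm φ₀ 0 := hc.adm P.η1
  have hqΛ : 32 * Mc ≤ q * Λ := by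
    have := mul_le_mul P.qhalf P.ΛMc (by positivity) hq.le
    linarith
  have hqqΛ : q ≤ q * Λ := le_mul_of_one_le_right hq.le (by linarith [P.ΛMc])
  -- normalisation identity
  have norm : ∀ (k : ℕ) (ν β ρ y : ℝ), ν * ρ + β * (a k * q / T) * ρ ^ 2 / 2 - y / (q * T) =
      (T * ν * (q * ρ) + β * a k * (q * ρ) ^ 2 / 2 - y) / (q * T) := by
    intro k ν β ρ y; field_simp
  have high : ∀ k β ρ, β' ≤ β → q * Λ ≤ ρ →
      T * ρ + β * a k * ρ ^ 2 / 2 + q * T ≤ g (fun r => φ₀ r - kacFin a ℓ k r) β ρ := by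
    intro k β ρ h1 h2
    exact high_density (admk k).1 (admk k).2 hA (haA k) P.HA hT.le P.β'pos P.HT h1
      (by linarith) (by linarith)
  refine ⟨admI.1, ?_⟩
  constructor
  · -- b0
    simp only [P.a0]; field_simp
  · intro k; have := P.apos k; positivity
  · exact P.ale
  · exact P.εpos
  · exact P.εle
  · have := ((tendsto_sum_nat_add a).const_mul 256).const_mul 3 |>.mul_const K |>.div_const (q * T)
    simpa using this
  · rw [div_le_iff₀ hqT]; linarith [P.tail]
  · intro k ρ hρ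
    have := (concaveOn_g (admk k).1 (show 0 ≤ q * ρ by positivity)).smul (inv_pos.mpr hqT).le
    simpa [div_eq_inv_mul] using this
  · intro ρ hρ
    have := (concaveOn_g admI.1 (show 0 ≤ q * ρ by positivity)).smul (inv_pos.mpr hqT).le
    simpa [div_eq_inv_mul] using this
  · intro β hβ
    refine ⟨convex_Ici 0, fun x hx y hy s t hs ht hst => ?_⟩
    have := (convexOn_g admI.1 hβ).2 (show q * x ∈ Ici (0 : ℝ) from mul_nonneg hq.le hx)
      (show q * y ∈ Ici (0 : ℝ) from mul_nonneg hq.le hy) hs ht hst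
    simp only [smul_eq_mul] at this ⊢
    rw [show q * (s * x + t * y) = s * (q * x) + t * (q * y) by ring, ← mul_div_assoc,
      ← mul_div_assoc, ← add_div]
    exact div_le_div_of_nonneg_right this hqT.le
  · intro k β; simp [g_zero]
  · intro β; simp [g_zero]
  · -- base1
    intro β ρ h1 h2
    rw [hzero, le_div_iff₀ hqT]
    have := g_lower_crude adm0 (β := β) (ρ := q * ρ) (by linarith [P.β'pos]) (by positivity)
    linarith [P.oneT]
  · -- base2
    intro β ρ h1 h2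
    rw [hzero, le_div_iff₀ hqT]
    have hexp : Real.exp (-(β * H)) ≤ δ ^ 3 := by
      refine le_trans (Real.exp_le_exp.mpr ?_) P.Hδ
      have := mul_le_mul_of_nonneg_right h1 hH
      linarith
    have h3 := core_lower hc P.η1 P.δpos P.plim (β := β) (ρ := q * ρ) (by linarith [P.β'pos]) hT.le
      hexp P.δT (by positivity)
    have h4 := mul_le_mul_of_nonneg_left P.pq hT.le
    linarith [P.pT, P.oneT]
  · intro β hβ
    rw [hzero, div_le_iff₀ hqT, mul_one]
    linarith [up1 β hβ]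
  · intro β hβ
    rw [hzero, div_le_iff₀ hqT, mul_comm q 2]
    linarith [up2 β hβ]
  · intro β₁ β₂ ρ h1 h2 h3
    rw [hzero]
    exact div_le_div_of_nonneg_right (g_mono_beta adm0 hc.nonneg h1 h2 (by positivity)) hqT.le
  · -- sstab
    intro k β ρ h1 h2 h3
    have h4 := norm k 1 β ρ (g (fun r => φ₀ r - kacFin a ℓ k r) β (q * ρ))
    rw [one_mul] at h4
    rw [h4, div_le_iff₀ hqT]
    have := high k β (q * ρ) h1 (mul_le_mul_of_nonneg_left h3 hq.le)
    linarith
  · -- bdd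
    intro k β h1 h2
    refine ⟨(1 + β * (H / 2) * (q * Λ)) / (q * T), fun ρ h3 h4 => ?_⟩
    rw [← neg_div]
    refine div_le_div_of_nonneg_right ?_ hqT.le
    have hβ : 0 < β := by linarith [P.β'pos]
    have h5 := g_lower_crude (admk k).1 (ρ := q * ρ) hβ (by positivity)
    have h6 : β * (H / 2) * (q * ρ) ≤ β * (H / 2) * (q * Λ) := by gcongr
    linarith
  · -- lower
    intro k β ρ h1 h2 h3 h4
    have h5 := lp_lower (admk k).1 (hsucc k ▸ (admk (k + 1)).1) (ha0 k) (by linarith [P.ℓ1 k]) h1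
      (show 0 ≤ q * ρ by positivity)
    rw [← hsucc k] at h5
    have h6 := norm k 0 β ρ (g (fun r => φ₀ r - kacFin a ℓ k r) β (q * ρ))
    have hℓ : 0 < ℓ k := by linarith [P.ℓ1 k]
    have h7 : β * a k * (q * ρ) / (2 * ℓ k ^ 3) ≤ 3 * A * (q * Λ) / (2 * ℓ k ^ 3) := by
      have := haA k
      have := ha0 k
      gcongr
    have h8 := P.errL k
    have h9 : g (fun r => φ₀ r - kacFin a ℓ (k + 1) r) β (q * ρ) / (q * T) ≤
        (g (fun r => φ₀ r - kacFin a ℓ k r) β (q * ρ) - β * a k * (q * ρ) ^ 2 / 2 +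
          q * T * ε (k + 1)) / (q * T) := div_le_div_of_nonneg_right (by linarith) hqT.le
    refine h9.trans (le_of_eq ?_)
    field_simp
  · -- upper
    intro k β ν S h1 h2 h3 hS ρ h4 h5
    have hβ : 0 < β := by linarith [P.β'pos]
    have hS0 : 0 ≤ S := by simpa [g_zero] using hS 0 le_rfl
    have hS1 : ∀ ρ' : ℝ, 0 ≤ ρ' → T * ν * ρ' + β * a k * ρ' ^ 2 / 2 -
        g (fun r => φ₀ r - kacFin a ℓ k r) β ρ' ≤ min (q * T * S) S₀ := by
      intro ρ' h6
      refine le_min ?_ ?_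
      · have h7 := hS (ρ' / q) (by positivity)
        rw [norm, mul_div_cancel₀ _ hq.ne', div_le_iff₀ hqT] at h7
        linarith
      · have h8 : T * ν * ρ' ≤ T * ρ' := by
          have := mul_le_mul_of_nonneg_left h3 (show 0 ≤ T * ρ' by positivity)
          linarith
        have h9 : 0 ≤ T * (q * Λ) + 3 * A * (q * Λ) ^ 2 / 2 + 1 + 3 * (H / 2) * (q * Λ) := by
          positivity
        rcases le_total (q * Λ) ρ' with h7 | h7
        · linarith [high k β ρ' h1 h7, P.S₀big]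
        · have a1 := g_lower_crude (admk k).1 hβ h6
          have a2 : T * ρ' ≤ T * (q * Λ) := by gcongr
          have a3 : β * a k * ρ' ^ 2 ≤ 3 * A * (q * Λ) ^ 2 := by
            have := haA k
            have := ha0 k
            gcongr
          have a4 : β * (H / 2) * ρ' ≤ 3 * (H / 2) * (q * Λ) := by gcongr
          linarith [P.S₀big]
    have hℓ : 0 < ℓ k := by linarith [P.ℓ1 k]
    have h6 := lp_upper (ψ := kacFin a ℓ k) (κ := H / (2 * Mc) - 256 * A) (A := 256 * A) (K := K)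
      (admk k).1 (hsucc k ▸ (admk (k + 1)).1) (ha0 k) hℓ (by linarith) (by positivity) P.K0
      (P.hh1 k) (P.wpos k) (hsucc k ▸ (admk (k + 1)).2) (kacFin_nonneg ha0 k)
      (fun r hr => Finset.sum_eq_zero fun j hj => by
        rw [J_eq_zero ((P.range k j (Finset.mem_range.mp hj)).trans hr), mul_zero])
      (fun r => by linarith [hc.nonneg r]) (enFin k)
      (fun N x => by
        have b1 := mul_le_mul_of_nonneg_left (en_J_le_X (P.ℓ1 k) x) (ha0 k)
        have b2 := mul_le_mul_of_nonneg_right (haA k) (hX x)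
        linarith)
      hβ (show 0 ≤ q * ρ by positivity) hS1
    rw [← hsucc k] at h6
    have hw : (0 : ℝ) < w k := by exact_mod_cast P.wpos k
    have hm : 0 < (w k : ℝ) * hh k := mul_pos hw (by linarith [P.hh1 k])
    have hqρ : q * ρ ≤ q * Λ := by gcongr
    have hε := P.εpos (k + 1)
    have h7 : T * ν * (q * ρ) - g (fun r => φ₀ r - kacFin a ℓ (k + 1) r) β (q * ρ) ≤
        q * T * S + q * T * ε (k + 1) := by
      refine h6.trans (max_le ?_ ?_)
      · have b1 : T * ν * (q * ρ) ≤ T * (q * Λ) := by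
          have := mul_le_mul_of_nonneg_left h3 (show 0 ≤ T * (q * ρ) by positivity)
          have : T * (q * ρ) ≤ T * (q * Λ) := by gcongr
          linarith
        have b2 : β * (H / 2) * (q * ρ) ≤ 3 * (H / 2) * (q * Λ) := by gcongr
        have b3 : β' * (H / (2 * Mc) - 256 * A) * K ≤ β * (H / (2 * Mc) - 256 * A) * K := by
          have := P.K0
          have : 0 ≤ H / (2 * Mc) - 256 * A := by linarith
          gcongr
        have b4 : 0 ≤ q * T * S + q * T * ε (k + 1) := by positivity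
        linarith [P.Kbig]
      · have b1 : β * (256 * A) * K * (3 / w k + 12 * (w k * hh k) / ℓ k + 6 / (w k * hh k)) ≤
            3 * (256 * A) * K * (3 / w k + 12 * (w k * hh k) / ℓ k + 6 / (w k * hh k)) := by
          have := P.K0
          gcongr
        have b2 : (q * ρ + 2) / (w k * hh k) ≤ (q * Λ + 2) / (w k * hh k) := by gcongr
        have b3 : 26 / (w k * hh k) * min (q * T * S) S₀ ≤ 26 / (w k * hh k) * S₀ :=
          mul_le_mul_of_nonneg_left (min_le_right _ _) (by positivity)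
        have b4 := min_le_left (q * T * S) S₀
        have b5 := P.errU k
        have b6 : (q * Λ + 2 + 26 * S₀) / (w k * hh k) =
            (q * Λ + 2) / (w k * hh k) + 26 / (w k * hh k) * S₀ := by ring
        linarith
    have h8 : ν * ρ - g (fun r => φ₀ r - kacFin a ℓ (k + 1) r) β (q * ρ) / (q * T) =
        (T * ν * (q * ρ) - g (fun r => φ₀ r - kacFin a ℓ (k + 1) r) β (q * ρ)) / (q * T) := by
      field_simp
    rw [h8, div_le_iff₀ hqT]
    linarith
  · -- tail1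
    intro k β ρ h1 h2
    refine div_le_div_of_nonneg_right (g_mono admI.1 (admk k).1 (fun r => ?_) h1
      (by positivity)) hqT.le
    rw [kac_eq_add ha0 P.asum P.ℓ1 k]
    linarith [kac_nonneg (ℓ := fun j => ℓ (j + k)) (fun j => ha0 (j + k)) r]
  · -- tail2
    intro k β ρ h1 h2 h3 h4
    have hβ : 0 < β := by linarith [P.β'pos]
    have ht0 : 0 ≤ ∑' j, a (j + k) := tsum_nonneg fun j => ha0 _
    have h5 := lp_tail (κ := H / (2 * Mc) - 256 * A) (t := 256 * ∑' j, a (j + k)) (K := K)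
      (admk k).1 (hinf k ▸ admI.1) (by linarith) (by positivity) P.K0 (hinf k ▸ admI.2)
      (fun N x => en_kac_le (fun j => ha0 (j + k)) ((summable_nat_add_iff k).mpr P.asum)
        (fun j => P.ℓ1 (j + k)) x) hβ (show 0 ≤ q * ρ by positivity)
    rw [← hinf k] at h5
    rw [← neg_div, div_le_iff₀ hqT, max_mul_of_nonneg _ _ hqT.le]
    refine h5.trans (max_le_max ?_ ?_)
    · have b2 : β * (H / 2) * (q * ρ) ≤ 3 * (H / 2) * (q * Λ) := by gcongr
      have b3 : β' * (H / (2 * Mc) - 256 * A) * K ≤ β * (H / (2 * Mc) - 256 * A) * K := by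
        have := P.K0
        have : 0 ≤ H / (2 * Mc) - 256 * A := by linarith
        gcongr
      have b4 := P.Kbig
      linarith
    · have b1 : β * (256 * ∑' j, a (j + k)) * K ≤ 3 * (256 * ∑' j, a (j + k)) * K := by
        have := P.K0
        gcongr
      rw [add_mul, neg_mul, div_mul_cancel₀ _ hqT.ne', div_mul_cancel₀ _ hqT.ne']
      linarith

end Crest.Agent.R149
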