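import Crest.Agent.R149.Basic

/-! # Row 149: product over fibres and superadditivity of the partition function -/

namespace Crest.Agent.R149

open MeasureTheory Crest.ProbabilityR.Continuum
open scoped ENNReal

lemma sa_fin_prod {n : ℕ} {E : Fin n → Type} [∀ i, MeasurableSpace (E i)]
    (μ : ∀ i, Measure (E i)) [∀ i, SigmaFinite (μ i)] (f : ∀ i, E i → ℝ≥0∞)
    (hf : ∀ i, Measurable (f i)) :
    ∫⁻ x, ∏ i, f i (x i) ∂(Measure.pi μ) = ∏ i, ∫⁻ y, f i y ∂(μ i) := by
  induction n with
  | zero => simp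
  | succ n ih =>
    have hm : Measurable fun x : (∀ j : Fin n, E (Fin.succAbove 0 j)) =>
        ∏ j : Fin n, f (Fin.succAbove 0 j) (x j) :=
      Finset.measurable_prod _ fun j _ => (hf _).comp (measurable_pi_apply j)
    have hW : Measurable fun p : E 0 × (∀ j : Fin n, E (Fin.succAbove 0 j)) =>
        f 0 p.1 * ∏ j : Fin n, f (Fin.succAbove 0 j) (p.2 j) :=
      ((hf 0).comp measurable_fst).mul (hm.comp measurable_snd)
    have h1 := (measurePreserving_piFinSuccAbove μ 0).lintegral_comp hW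
    rw [lintegral_prod_mul (hf 0).aemeasurable hm.aemeasurable,
      ih (fun j => μ (Fin.succAbove 0 j)) (fun j => f (Fin.succAbove 0 j)) fun j => hf _] at h1
    rw [Fin.prod_univ_succAbove _ 0, ← h1]
    congr 1
    ext x
    rw [Fin.prod_univ_succAbove _ 0]
    rfl

/-- Tonelli for a product of functions of single coordinates. -/
theorem lintegral_fintype_prod {ι : Type} [Fintype ι] {E : ι → Type} [∀ i, MeasurableSpace (E i)]
    (μ : ∀ i, Measure (E i)) [∀ i, SigmaFinite (μ i)] (f : ∀ i, E i → ℝ≥0∞)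
    (hf : ∀ i, Measurable (f i)) :
    ∫⁻ x, ∏ i, f i (x i) ∂(Measure.pi μ) = ∏ i, ∫⁻ y, f i y ∂(μ i) := by
  let e := (Fintype.equivFin ι).symm
  have hm : Measurable fun x : (∀ i, E i) => ∏ i, f i (x i) :=
    Finset.measurable_prod _ fun j _ => (hf _).comp (measurable_pi_apply j)
  rw [← (measurePreserving_piCongrLeft μ e).lintegral_comp hm, ← e.prod_comp,
    ← sa_fin_prod (fun j => μ (e j)) (fun j => f (e j)) fun j => hf _]
  congr 1
  ext x
  rw [← e.prod_comp]
  simp only [MeasurableEquiv.coe_piCongrLeft, Equiv.piCongrLeft_apply_apply]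

/-- Tonelli for a product of functions of the fibres of a map of index sets. -/
theorem lintegral_prod_fibres {ι C : Type} [Fintype ι] [Fintype C] [DecidableEq C] (f : ι → C)
    (F : ∀ c : C, ({i // f i = c} → Pt) → ℝ≥0∞) (hF : ∀ c, Measurable (F c)) :
    ∫⁻ x : ι → Pt, ∏ c, F c (fun i => x i.1) = ∏ c, ∫⁻ z, F c z := by
  set u : (∀ c : C, {i // f i = c} → Pt) → (ι → Pt) := fun y i => y (f i) ⟨i, rfl⟩ with hu
  have hum : Measurable u :=
    measurable_pi_lambda _ fun i => (measurable_pi_apply _).comp (measurable_pi_apply (f i))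
  have hres : ∀ (y : ∀ c : C, {i // f i = c} → Pt) (c : C),
      (fun i : {i // f i = c} => u y i.1) = y c := by
    intro y c
    funext i
    obtain ⟨i, rfl⟩ := i
    rfl
  have hmp : MeasurePreserving u
      (Measure.pi fun c : C => (volume : Measure ({i // f i = c} → Pt))) volume := by
    refine ⟨hum, ?_⟩
    rw [volume_pi]
    refine (Measure.pi_eq fun s hs => ?_).symm
    rw [Measure.map_apply hum (MeasurableSet.univ_pi hs)]
    have : u ⁻¹' Set.pi Set.univ s =
        Set.pi Set.univ fun c : C => Set.pi Set.univ fun i : {i // f i = c} => s i.1 := by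
      ext y
      simp only [Set.mem_preimage, Set.mem_pi, Set.mem_univ, true_imp_iff]
      constructor
      · rintro h c ⟨i, rfl⟩
        exact h i
      · intro h i
        exact h (f i) ⟨i, rfl⟩
    rw [this, Measure.pi_pi]
    simp only [volume_pi_pi]
    exact Fintype.prod_fiberwise f fun i => volume (s i)
  have hm : Measurable fun x : ι → Pt => ∏ c, F c (fun i => x i.1) :=
    Finset.measurable_prod _ fun c _ =>
      (hF c).comp (measurable_pi_lambda _ fun i => measurable_pi_apply _)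
  rw [← hmp.lintegral_comp hm]
  simp only [hres]
  exact lintegral_fintype_prod _ F hF

/-- the fibrewise Boltzmann weight attached to an assignment of particles to cells -/
noncomputable def saF (φ : ℝ → ℝ) (β b : ℝ) (w : Pt) (κ : Type) [Fintype κ] : (κ → Pt) → ℝ≥0∞ :=
  (Set.pi Set.univ (fun _ : κ => {y : Pt | y - w ∈ cube b})).indicator
    fun z => ENNReal.ofReal (Real.exp (-β * en φ z))

lemma sa_cell_meas (b : ℝ) (w : Pt) : MeasurableSet {y : Pt | y - w ∈ cube b} :=
  (measurable_id.sub_const w) (measurableSet_cube b)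

lemma sa_exp_meas {φ : ℝ → ℝ} (hφ : Measurable φ) (β : ℝ) (κ : Type) [Fintype κ] :
    Measurable fun z : κ → Pt => ENNReal.ofReal (Real.exp (-β * en φ z)) :=
  ENNReal.measurable_ofReal.comp (Real.measurable_exp.comp ((measurable_en hφ κ).const_mul _))

lemma sa_F_meas {φ : ℝ → ℝ} (hφ : Measurable φ) (β b : ℝ) (w : Pt) (κ : Type) [Fintype κ] :
    Measurable (saF φ β b w κ) :=
  (sa_exp_meas hφ β κ).indicator (MeasurableSet.univ_pi fun _ => sa_cell_meas b w)

lemma sa_F_int {φ : ℝ → ℝ} (hφ : Measurable φ) (β b : ℝ) (w : Pt) (κ : Type) [Fintype κ] {n : ℕ}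
    (hn : Fintype.card κ = n) : ∫⁻ z, saF φ β b w κ z = I φ β (cube b) (Fin n) := by
  rw [← I_congr_card hφ β (measurableSet_cube b) hn, ← I_translate hφ β (measurableSet_cube b) w κ,
    saF, lintegral_indicator (MeasurableSet.univ_pi fun _ => sa_cell_meas b w)]
  rfl

lemma sa_en_le {φ : ℝ → ℝ} {ι C : Type} [Fintype ι] [Fintype C] [DecidableEq C] (f : ι → C)
    (x : ι → Pt) (hx : ∀ i j, f i ≠ f j → φ (dist (x i) (x j)) ≤ 0) :
    en φ x ≤ ∑ c, en φ (fun i : {i // f i = c} => x i.1) := by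
  classical
  unfold en
  rw [← Finset.mul_sum]
  apply mul_le_mul_of_nonneg_left _ (by norm_num)
  rw [← Fintype.sum_fiberwise f]
  refine Finset.sum_le_sum fun c _ => Finset.sum_le_sum fun i _ => ?_
  rw [← Fintype.sum_subtype_add_sum_subtype (fun j => f j = c)]
  refine add_le_of_le_of_nonpos (le_of_eq ?_) (Finset.sum_nonpos fun j _ => ?_)
  · refine Finset.sum_congr (by congr) fun j _ => ?_
    simp only [Subtype.ext_iff]
  · split_ifs
    · exact le_rfl
    · exact hx _ _ fun h => j.2 (h ▸ i.2)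

/-- Superadditivity: translates `v c + cube b` inside `cube L`, mutually at distance at least `R`,
beyond which the potential is non-positive. -/
theorem superadd {φ : ℝ → ℝ} {B : ℝ} (h : Adm φ B) {β : ℝ} (hβ : 0 ≤ β) {R : ℝ} (hR : 0 < R)
    (hφR : ∀ r, R ≤ r → φ r ≤ 0) {b L : ℝ} (hb : 0 < b) (hL : 0 < L)
    {C : Type} [Fintype C] (v : C → Pt) (n : C → ℕ)
    (hin : ∀ c y, y - v c ∈ cube b → y ∈ cube L)
    (hsep : ∀ c c', c ≠ c' → ∀ y y', y - v c ∈ cube b → y' - v c' ∈ cube b → R ≤ dist y y') :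
    G φ β L (∑ c, n c) ≤ ∑ c, G φ β b (n c) := by
  classical
  refine G_le_of_le_I h hβ hL ?_
  set ι : Type := (c : C) × Fin (n c) with hι
  have hcard : Fintype.card ι = ∑ c, n c := by simp [hι, Fintype.card_sigma]
  rw [← I_congr_card h.meas β (measurableSet_cube L) hcard]
  have hfib : ∀ (σ : Equiv.Perm ι) (c : C), Fintype.card {i : ι // (σ i).1 = c} = n c := by
    intro σ c
    rw [Fintype.card_congr ((Equiv.subtypeEquiv σ (q := fun p : ι => p.1 = c)
      fun _ => Iff.rfl).trans (Equiv.sigmaSubtype c)), Fintype.card_fin]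
  set W : Equiv.Perm ι → (ι → Pt) → ℝ≥0∞ := fun σ x =>
    ∏ c, saF φ β b (v c) {i : ι // (σ i).1 = c} (fun i => x i.1) with hW
  have hWm : ∀ σ, Measurable (W σ) := fun σ =>
    Finset.measurable_prod _ fun c _ =>
      (sa_F_meas h.meas β b (v c) _).comp (measurable_pi_lambda _ fun i => measurable_pi_apply _)
  set P : ℕ := ∏ c, (n c).factorial with hP
  have hP0 : 0 < P := Finset.prod_pos fun c _ => Nat.factorial_pos _
  have hWint : ∀ σ, ∫⁻ x, W σ x = P * ENNReal.ofReal (Real.exp (-∑ c, G φ β b (n c))) := by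
    intro σ
    simp only [hW]
    rw [lintegral_prod_fibres (fun i : ι => (σ i).1) (fun c => saF φ β b (v c) _)
      fun c => sa_F_meas h.meas β b (v c) _]
    simp only [fun c => sa_F_int h.meas β b (v c) _ (hfib σ c), I_eq h hβ hb]
    rw [← ENNReal.ofReal_prod_of_nonneg fun c _ => by positivity, Finset.prod_mul_distrib,
      ← Real.exp_sum, Finset.sum_neg_distrib, ENNReal.ofReal_mul (by positivity), hP,
      ← Nat.cast_prod, ENNReal.ofReal_natCast]
  have hsupp : ∀ σ x, W σ x ≠ 0 → ∀ i, x i - v (σ i).1 ∈ cube b := by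
    intro σ x hx i
    have h1 := Finset.prod_ne_zero_iff.1 hx (σ i).1 (Finset.mem_univ _)
    exact Set.mem_of_indicator_ne_zero h1 ⟨i, rfl⟩ (Set.mem_univ _)
  have hle : ∀ σ x, W σ x ≤ ENNReal.ofReal (Real.exp (-β * en φ x)) := by
    intro σ x
    by_cases hx : W σ x = 0
    · rw [hx]; exact zero_le
    have h1 := hsupp σ x hx
    have h2 := sa_en_le (φ := φ) (fun i : ι => (σ i).1) x
      fun i j hij => hφR _ (hsep _ _ hij _ _ (h1 i) (h1 j))
    calc W σ x ≤ ∏ c, ENNReal.ofReal
          (Real.exp (-β * en φ (fun i : {i : ι // (σ i).1 = c} => x i.1))) :=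
          Finset.prod_le_prod' fun c _ => Set.indicator_le_self _ _ _
      _ ≤ _ := by
        rw [← ENNReal.ofReal_prod_of_nonneg fun c _ => (Real.exp_pos _).le, ← Real.exp_sum,
          ← Finset.mul_sum]
        apply ENNReal.ofReal_le_ofReal
        have := mul_le_mul_of_nonneg_left h2 hβ
        exact Real.exp_le_exp.2 (by linarith)
  have hms : MeasurableSet (Set.pi Set.univ (fun _ : ι => cube L)) :=
    MeasurableSet.univ_pi fun _ => measurableSet_cube L
  have hpt : ∀ x, ∑ σ, W σ x ≤ P * (Set.pi Set.univ (fun _ : ι => cube L)).indicator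
      (fun x => ENNReal.ofReal (Real.exp (-β * en φ x))) x := by
    intro x
    by_cases hx : ∀ σ, W σ x = 0
    · simp [hx]
    push Not at hx
    obtain ⟨σ₀, hσ₀⟩ := hx
    have h0 := hsupp σ₀ x hσ₀
    have hmem : x ∈ Set.pi Set.univ (fun _ : ι => cube L) := fun i _ => hin _ _ (h0 i)
    rw [Set.indicator_of_mem hmem, ← Equiv.sum_comp (Equiv.mulLeft σ₀)]
    have hz : ∀ g : Equiv.Perm ι, ¬ ((fun i : ι => (σ₀ i).1) ∘ g = fun i : ι => (σ₀ i).1) →
        W (Equiv.mulLeft σ₀ g) x = 0 := by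
      intro g hg
      by_contra hne
      apply hg
      funext i
      by_contra hc
      have := hsep _ _ hc (x i) (x i) (hsupp _ x hne i) (h0 i)
      rw [dist_self] at this
      linarith
    rw [← Finset.sum_filter_of_ne (p := fun g : Equiv.Perm ι =>
      (fun i : ι => (σ₀ i).1) ∘ g = fun i : ι => (σ₀ i).1)
      fun g _ hne => by_contra fun hg => hne (hz g hg)]
    refine (Finset.sum_le_card_nsmul _ _ _ fun g _ => hle _ x).trans (le_of_eq ?_)
    rw [nsmul_eq_mul, ← Fintype.card_subtype, DomMulAct.stabilizer_card]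
    simp only [hfib σ₀, hP]
  have hfin := lintegral_mono (μ := (volume : Measure (ι → Pt))) hpt
  rw [lintegral_finsetSum _ fun σ _ => hWm σ,
    lintegral_const_mul _ ((sa_exp_meas h.meas β ι).indicator hms), lintegral_indicator hms] at hfin
  simp only [hWint] at hfin
  rw [Finset.sum_const, Finset.card_univ, Fintype.card_perm, hcard, nsmul_eq_mul, mul_left_comm,
    ENNReal.mul_le_mul_iff_right (by exact_mod_cast hP0.ne') (ENNReal.natCast_ne_top P)] at hfin
  rw [ENNReal.ofReal_mul (by positivity), ENNReal.ofReal_natCast]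
  exact hfin

/-- Superadditivity for a cubic array of `k ^ 3` cells of side `m` with corridors of width `2`;
the occupation numbers are given by a list of length at most `k ^ 3`. -/
theorem superadd_list {φ : ℝ → ℝ} {B : ℝ} (h : Adm φ B) {β : ℝ} (hβ : 0 ≤ β) {m L : ℝ}
    (hm : 0 < m) (hL : 0 < L) {k : ℕ} (hk : k * (m + 2) ≤ L) (l : List ℕ) (hl : l.length ≤ k ^ 3) :
    G φ β L l.sum ≤ (l.map (G φ β m)).sum := by
  classical
  obtain ⟨e⟩ : Nonempty (Fin l.length ↪ (Fin 3 → Fin k)) :=
    Function.Embedding.nonempty_of_card_le (by simpa using hl)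
  set v : Fin l.length → Pt := fun c => WithLp.toLp 2 (fun i => (m + 2) * (e c i : ℕ)) with hv
  have key := superadd h hβ (R := 2) two_pos h.nonpos hm hL v (fun c => l[c.1]) ?_ ?_
  · rwa [Fin.sum_univ_getElem, Fin.sum_univ_fun_getElem l (G φ β m)] at key
  · intro c y hy i
    obtain ⟨a, b⟩ := hy i
    have e1 : (y - v c) i = y i - (m + 2) * (e c i : ℕ) := by simp [hv]
    rw [e1] at a b
    have h1 : ((e c i : ℕ) : ℝ) + 1 ≤ k := by exact_mod_cast (e c i).2
    have h2 : (0 : ℝ) ≤ (e c i : ℕ) := Nat.cast_nonneg _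
    constructor <;> nlinarith
  · intro c c' hne y y' hy hy'
    obtain ⟨i, hi⟩ := Function.ne_iff.1 (e.injective.ne hne)
    refine le_trans ?_ (PiLp.dist_apply_le y y' i)
    obtain ⟨a, b⟩ := hy i
    obtain ⟨a', b'⟩ := hy' i
    have e1 : (y - v c) i = y i - (m + 2) * (e c i : ℕ) := by simp [hv]
    have e2 : (y' - v c') i = y' i - (m + 2) * (e c' i : ℕ) := by simp [hv]
    rw [e1] at a b
    rw [e2] at a' b'
    rw [Real.dist_eq, le_abs]
    rcases lt_or_gt_of_ne (Fin.val_ne_of_ne hi) with hlt | hlt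
    · right
      have h1 : ((e c i : ℕ) : ℝ) + 1 ≤ (e c' i : ℕ) := by exact_mod_cast hlt
      nlinarith
    · left
      have h1 : ((e c' i : ℕ) : ℝ) + 1 ≤ (e c i : ℕ) := by exact_mod_cast hlt
      nlinarith

end Crest.Agent.R149
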