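import Crest.Agent.R149.Superadd

/-! # Row 149: the thermodynamic limit -/

namespace Crest.Agent.R149

open MeasureTheory Crest.ProbabilityR.Continuum Filter Topology

/-- Abstract superadditive set-up used for the thermodynamic limit. -/
structure ThermoData (F : ℝ → ℕ → ℝ) (b : ℝ) : Prop where
  b_nonneg : 0 ≤ b
  sup : ∀ {m L : ℝ}, 0 < m → 0 < L → ∀ {k : ℕ}, k * (m + 2) ≤ L → ∀ l : List ℕ,
    l.length ≤ k ^ 3 → F L l.sum ≤ (l.map (F m)).sum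
  low : ∀ {L : ℝ}, 0 < L → ∀ N : ℕ, -L ^ 3 - b * N ≤ F L N

theorem thermo_chunks (j n : ℕ) :
    (List.replicate (j / n) n ++ [j % n]).sum = j := by
  simp only [List.sum_append, List.sum_replicate, smul_eq_mul, List.sum_cons, List.sum_nil,
    add_zero]
  exact Nat.div_add_mod' j n

theorem thermo_chunks_le (f : ℕ → ℝ) (j n : ℕ) (hn : 0 < n) (C : ℝ)
    (hC : ∀ i ≤ n, f i ≤ C) :
    ((List.replicate (j / n) n ++ [j % n]).map f).sum ≤ ((j / n : ℕ) + 1 : ℝ) * C := by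
  simp only [List.map_append, List.map_replicate, List.sum_append, List.sum_replicate,
    List.map_cons, List.map_nil, List.sum_cons, List.sum_nil, add_zero, nsmul_eq_mul]
  have h1 := hC n le_rfl
  have h2 := hC (j % n) (Nat.mod_lt j hn).le
  have h3 : (0 : ℝ) ≤ (j / n : ℕ) := Nat.cast_nonneg _
  nlinarith

theorem ThermoData.upper {F : ℝ → ℕ → ℝ} {b : ℝ} (h : ThermoData F b) {K : ℝ} (hK : 0 ≤ K) :
    ∃ C : ℝ, 0 ≤ C ∧ ∀ m : ℝ, 6 ≤ m → ∀ j : ℕ, (j : ℝ) ≤ K * m ^ 3 → F m j ≤ C * m ^ 3 := by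
  set n : ℕ := ⌊216 * K⌋₊ + 1 with hn
  have hnK : 216 * K < n := by
    rw [hn]; push_cast; exact Nat.lt_floor_add_one _
  have hn0 : 0 < n := by omega
  refine ⟨∑ i ∈ Finset.range (n + 1), |F 1 i|, Finset.sum_nonneg fun i _ => abs_nonneg _, ?_⟩
  intro m hm j hj
  set C := ∑ i ∈ Finset.range (n + 1), |F 1 i| with hC
  have hC0 : 0 ≤ C := Finset.sum_nonneg fun i _ => abs_nonneg _
  have hCi : ∀ i ≤ n, F 1 i ≤ C := by
    intro i hi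
    refine (le_abs_self _).trans ?_
    exact Finset.single_le_sum (f := fun i => |F 1 i|) (fun i _ => abs_nonneg _)
      (Finset.mem_range.2 (by omega))
  set k : ℕ := ⌊m / 3⌋₊ with hk
  have hk1 : (k : ℝ) ≤ m / 3 := Nat.floor_le (by positivity)
  have hk2 : m / 3 < k + 1 := Nat.lt_floor_add_one _
  have hk3 : m ≤ 6 * k := by linarith
  have hkpos : (0 : ℝ) < k := by linarith
  have hm3 : m ^ 3 ≤ 216 * (k : ℝ) ^ 3 := by
    calc m ^ 3 ≤ (6 * (k : ℝ)) ^ 3 := by gcongr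
      _ = 216 * (k : ℝ) ^ 3 := by ring
  have hjlt : j < k ^ 3 * n := by
    have : (j : ℝ) < (k : ℝ) ^ 3 * n := by
      have h3 : (0 : ℝ) < (k : ℝ) ^ 3 := by positivity
      nlinarith
    exact_mod_cast this
  have hdiv : j / n < k ^ 3 := (Nat.div_lt_iff_lt_mul hn0).2 hjlt
  have hsup := h.sup (m := 1) (L := m) one_pos (by linarith) (k := k) (by linarith)
    (List.replicate (j / n) n ++ [j % n]) (by simp; omega)
  rw [thermo_chunks] at hsup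
  have h2 := thermo_chunks_le (F 1) j n hn0 C hCi
  have h3 : ((j / n : ℕ) + 1 : ℝ) ≤ (k : ℝ) ^ 3 := by exact_mod_cast hdiv
  have h4 : (k : ℝ) ^ 3 ≤ m ^ 3 := by gcongr; linarith
  calc F m j ≤ ((j / n : ℕ) + 1 : ℝ) * C := hsup.trans h2
    _ ≤ m ^ 3 * C := by gcongr; exact h3.trans h4
    _ = C * m ^ 3 := by ring

theorem thermo_floor_cube {a : ℝ} (ha : 0 ≤ a) :
    Tendsto (fun L : ℝ => (⌊a * L ^ 3⌋₊ : ℝ) / L ^ 3) atTop (𝓝 a) :=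
  (tendsto_nat_floor_mul_div_atTop ha).comp (tendsto_pow_atTop (by norm_num : (3 : ℕ) ≠ 0))

/-- One scale `m` fixed: the limit superior of the free energy density is bounded by the
values at scale `m`, provided the cells suffice. -/
theorem ThermoData.step {F : ℝ → ℕ → ℝ} {b : ℝ} (h : ThermoData F b) {m ρ μ₁ μ₂ C e : ℝ}
    (hm : 0 < m) (hρ : 0 ≤ ρ) (hμ₁ : 0 ≤ μ₁) (hμ₂ : 0 ≤ μ₂) {n₁ n₂ n : ℕ} (hn : 0 < n)
    (hC0 : 0 ≤ C) (hC : ∀ i ≤ n, F m i ≤ C) (hle : μ₁ * n₁ + μ₂ * n₂ ≤ ρ)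
    (hlen : μ₁ + μ₂ + (ρ - μ₁ * n₁ - μ₂ * n₂) / n < 1 / (m + 2) ^ 3)
    (he : μ₁ * F m n₁ + μ₂ * F m n₂ + (ρ - μ₁ * n₁ - μ₂ * n₂) / n * C < e) :
    ∀ᶠ L : ℝ in atTop, F L ⌊ρ * L ^ 3⌋₊ / L ^ 3 ≤ e := by
  have t1 := thermo_floor_cube hμ₁
  have t2 := thermo_floor_cube hμ₂
  have t0 := thermo_floor_cube hρ
  have tinv : Tendsto (fun L : ℝ => 1 / L ^ 3) atTop (𝓝 0) := by
    simpa [one_div, Function.comp_def] using
      tendsto_inv_atTop_zero.comp (tendsto_pow_atTop (α := ℝ) (by norm_num : (3 : ℕ) ≠ 0))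
  have tk : Tendsto (fun L : ℝ => ((⌊1 / (m + 2) * L⌋₊ : ℝ) / L) ^ 3) atTop
      (𝓝 ((1 / (m + 2)) ^ 3)) :=
    (tendsto_nat_floor_mul_div_atTop (by positivity : (0 : ℝ) ≤ 1 / (m + 2))).pow 3
  have tq : Tendsto (fun L : ℝ => ((⌊ρ * L ^ 3⌋₊ : ℝ) / L ^ 3 - (⌊μ₁ * L ^ 3⌋₊ : ℝ) / L ^ 3 * n₁ -
      (⌊μ₂ * L ^ 3⌋₊ : ℝ) / L ^ 3 * n₂) / n + 1 / L ^ 3) atTop
      (𝓝 ((ρ - μ₁ * n₁ - μ₂ * n₂) / n + 0)) :=
    (((t0.sub (t1.mul_const _)).sub (t2.mul_const _)).div_const _).add tinv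
  rw [add_zero] at tq
  have tlen := ((t1.add t2).add tq).eventually_lt tk (by rwa [one_div_pow])
  have tval := (((t1.mul_const (F m n₁)).add (t2.mul_const (F m n₂))).add
    (tq.mul_const C)).eventually_lt_const he
  filter_upwards [tlen, tval, eventually_gt_atTop 0] with L hlenL hvalL hL
  set N := ⌊ρ * L ^ 3⌋₊ with hN
  set M₁ := ⌊μ₁ * L ^ 3⌋₊ with hM₁
  set M₂ := ⌊μ₂ * L ^ 3⌋₊ with hM₂
  set k := ⌊1 / (m + 2) * L⌋₊ with hk
  have hL3 : 0 < L ^ 3 := by positivity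
  have hM₁le : (M₁ : ℝ) ≤ μ₁ * L ^ 3 := Nat.floor_le (by positivity)
  have hM₂le : (M₂ : ℝ) ≤ μ₂ * L ^ 3 := Nat.floor_le (by positivity)
  have hsum : M₁ * n₁ + M₂ * n₂ ≤ N := by
    apply Nat.le_floor
    push_cast
    have a1 : (0 : ℝ) ≤ n₁ := Nat.cast_nonneg _
    have a2 : (0 : ℝ) ≤ n₂ := Nat.cast_nonneg _
    calc (M₁ : ℝ) * n₁ + M₂ * n₂ ≤ μ₁ * L ^ 3 * n₁ + μ₂ * L ^ 3 * n₂ := by gcongr
      _ = (μ₁ * n₁ + μ₂ * n₂) * L ^ 3 := by ring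
      _ ≤ ρ * L ^ 3 := by gcongr
  obtain ⟨N₃, hN₃⟩ := Nat.exists_eq_add_of_le hsum
  have hN₃r : (N₃ : ℝ) = N - M₁ * n₁ - M₂ * n₂ := by rw [hN₃]; push_cast; ring
  have hnr : (0 : ℝ) < n := by exact_mod_cast hn
  have hq : ((N₃ / n : ℕ) + 1 : ℝ) / L ^ 3 ≤
      ((N : ℝ) / L ^ 3 - (M₁ : ℝ) / L ^ 3 * n₁ - (M₂ : ℝ) / L ^ 3 * n₂) / n + 1 / L ^ 3 := by
    have : ((N₃ / n : ℕ) : ℝ) ≤ (N₃ : ℝ) / n := Nat.cast_div_le
    calc ((N₃ / n : ℕ) + 1 : ℝ) / L ^ 3 ≤ ((N₃ : ℝ) / n + 1) / L ^ 3 := by gcongr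
      _ = _ := by rw [hN₃r]; field_simp
  have hkle : (k : ℝ) * (m + 2) ≤ L := by
    have : (k : ℝ) ≤ 1 / (m + 2) * L := Nat.floor_le (by positivity)
    calc (k : ℝ) * (m + 2) ≤ 1 / (m + 2) * L * (m + 2) := by gcongr
      _ = L := by field_simp
  have hlen' : M₁ + M₂ + (N₃ / n + 1) ≤ k ^ 3 := by
    have h1 : ((M₁ : ℝ) + M₂ + ((N₃ / n : ℕ) + 1)) / L ^ 3 < (k : ℝ) ^ 3 / L ^ 3 := by
      rw [← div_pow, add_div, add_div]
      linarith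
    have h2 := (div_lt_div_iff_of_pos_right hL3).1 h1
    have h3 : ((M₁ + M₂ + (N₃ / n + 1) : ℕ) : ℝ) < ((k ^ 3 : ℕ) : ℝ) := by
      push_cast at h2 ⊢; exact h2
    exact (Nat.cast_lt.1 h3).le
  have hsup := h.sup hm hL hkle
    (List.replicate M₁ n₁ ++ (List.replicate M₂ n₂ ++ (List.replicate (N₃ / n) n ++ [N₃ % n])))
    (by simp; omega)
  rw [List.sum_append, List.sum_append, thermo_chunks, List.map_append, List.map_append,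
    List.sum_append, List.sum_append] at hsup
  have hch := thermo_chunks_le (F m) N₃ n hn C hC
  simp only [List.sum_replicate, smul_eq_mul, List.map_replicate, nsmul_eq_mul] at hsup
  rw [← add_assoc, ← hN₃] at hsup
  have hfin : F L N / L ^ 3 ≤ (M₁ : ℝ) / L ^ 3 * F m n₁ + (M₂ : ℝ) / L ^ 3 * F m n₂ +
      ((N₃ / n : ℕ) + 1 : ℝ) / L ^ 3 * C := by
    rw [div_le_iff₀ hL3]
    have : ((M₁ : ℝ) / L ^ 3 * F m n₁ + (M₂ : ℝ) / L ^ 3 * F m n₂ +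
      ((N₃ / n : ℕ) + 1 : ℝ) / L ^ 3 * C) * L ^ 3 =
        M₁ * F m n₁ + (M₂ * F m n₂ + ((N₃ / n : ℕ) + 1 : ℝ) * C) := by field_simp; ring
    rw [this]
    linarith
  have := mul_le_mul_of_nonneg_right hq hC0
  linarith

theorem ThermoData.abs_le {F : ℝ → ℕ → ℝ} {b : ℝ} (h : ThermoData F b) {ρ K C : ℝ} (hρ : 0 ≤ ρ)
    (hρK : ρ ≤ K) (hC0 : 0 ≤ C)
    (hC : ∀ m : ℝ, 6 ≤ m → ∀ j : ℕ, (j : ℝ) ≤ K * m ^ 3 → F m j ≤ C * m ^ 3) {m : ℝ} (hm : 6 ≤ m) :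
    |F m ⌊ρ * m ^ 3⌋₊ / m ^ 3| ≤ C + 1 + b * K := by
  have hm0 : 0 < m := by linarith
  have hm3 : 0 < m ^ 3 := by positivity
  have hfl : (⌊ρ * m ^ 3⌋₊ : ℝ) ≤ K * m ^ 3 :=
    (Nat.floor_le (by positivity)).trans (by gcongr)
  have hb := h.b_nonneg
  have hbK : 0 ≤ b * K := mul_nonneg hb (hρ.trans hρK)
  rw [_root_.abs_le]
  constructor
  · rw [le_div_iff₀ hm3]
    have h1 := h.low hm0 ⌊ρ * m ^ 3⌋₊
    have h2 : b * (⌊ρ * m ^ 3⌋₊ : ℝ) ≤ b * (K * m ^ 3) := by gcongr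
    nlinarith
  · rw [div_le_iff₀ hm3]
    have h1 := hC m hm _ hfl
    nlinarith

/-- The main comparison between scales. -/
theorem ThermoData.main {F : ℝ → ℕ → ℝ} {b : ℝ} (h : ThermoData F b) {ρ₁ ρ₂ a₁ a₂ ε : ℝ}
    (hρ₁ : 0 ≤ ρ₁) (hρ₂ : 0 ≤ ρ₂) (ha₁ : 0 ≤ a₁) (ha₂ : 0 ≤ a₂) (ha : a₁ + a₂ = 1) (hε : 0 < ε) :
    ∀ᶠ m : ℝ in atTop, ∀ᶠ L : ℝ in atTop,
      F L ⌊(a₁ * ρ₁ + a₂ * ρ₂) * L ^ 3⌋₊ / L ^ 3 ≤
        a₁ * (F m ⌊ρ₁ * m ^ 3⌋₊ / m ^ 3) + a₂ * (F m ⌊ρ₂ * m ^ 3⌋₊ / m ^ 3) + ε := by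
  set ρ := a₁ * ρ₁ + a₂ * ρ₂ with hρdef
  have hρ : 0 ≤ ρ := by positivity
  have hρle : ρ ≤ ρ₁ + ρ₂ := by nlinarith
  set K := 9 * (ρ₁ + ρ₂ + 1) with hK
  have hK0 : 0 ≤ K := by positivity
  obtain ⟨C, hC0, hC⟩ := h.upper hK0
  set D := C + 1 + b * K with hD
  have hD0 : 0 ≤ D := by have := h.b_nonneg; positivity
  set θ := min (1 / 2) (ε / (2 * D + C + 1)) with hθ
  have hθ0 : 0 < θ := by positivity
  have hθ1 : θ ≤ 1 / 2 := min_le_left _ _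
  have hθ2 : θ * (2 * D + C + 1) ≤ ε := by
    have : θ ≤ ε / (2 * D + C + 1) := min_le_right _ _
    rwa [le_div_iff₀ (by positivity)] at this
  have tt : Tendsto (fun m : ℝ => (1 - 2 * (m + 2)⁻¹) ^ 3) atTop (𝓝 ((1 - 2 * 0) ^ 3)) :=
    ((tendsto_const_nhds.sub ((tendsto_inv_atTop_zero.comp
      (tendsto_atTop_add_const_right _ 2 tendsto_id)).const_mul 2)).pow 3)
  have e1 := tt.eventually_const_lt (show 1 - θ < (1 - 2 * 0) ^ 3 by norm_num; exact hθ0)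
  filter_upwards [e1, eventually_ge_atTop 6, eventually_ge_atTop (1 / θ)] with m hm1 hm6 hmθ
  have hm0 : 0 < m := by linarith
  have hm3 : 0 < m ^ 3 := by positivity
  set A := (m + 2) ^ 3 with hA
  have hA0 : 0 < A := by positivity
  have hAm : m ^ 3 ≤ A := by rw [hA]; gcongr; linarith
  have ht : (1 - θ) * A ≤ m ^ 3 := by
    have : (1 - 2 * (m + 2)⁻¹) ^ 3 = m ^ 3 / A := by rw [hA]; field_simp; ring
    rw [this, lt_div_iff₀ hA0] at hm1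
    exact hm1.le
  have hAθ : 1 ≤ θ * A := by
    have h1 : 1 ≤ θ * m := by rwa [div_le_iff₀' hθ0] at hmθ
    have h2 : m ≤ A := by
      refine le_trans ?_ hAm
      nlinarith [mul_le_mul hm6 hm6 (by norm_num) hm0.le]
    nlinarith
  have hA2 : A ≤ 2 * m ^ 3 := by nlinarith
  set n₁ := ⌊ρ₁ * m ^ 3⌋₊ with hn₁
  set n₂ := ⌊ρ₂ * m ^ 3⌋₊ with hn₂
  set n := ⌊K * m ^ 3⌋₊ with hn
  have hn₁le : (n₁ : ℝ) ≤ ρ₁ * m ^ 3 := Nat.floor_le (by positivity)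
  have hn₂le : (n₂ : ℝ) ≤ ρ₂ * m ^ 3 := Nat.floor_le (by positivity)
  have hn₁ge : ρ₁ * m ^ 3 < n₁ + 1 := Nat.lt_floor_add_one _
  have hn₂ge : ρ₂ * m ^ 3 < n₂ + 1 := Nat.lt_floor_add_one _
  have hnle : (n : ℝ) ≤ K * m ^ 3 := Nat.floor_le (by positivity)
  have hnge : K * m ^ 3 < n + 1 := Nat.lt_floor_add_one _
  have hm31 : 1 ≤ m ^ 3 := one_le_pow₀ (by linarith)
  have hK9 : 9 ≤ K := by rw [hK]; linarith
  have hnbig : 8 * (ρ + 1) * m ^ 3 < n := by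
    have : 8 * (ρ + 1) * m ^ 3 + 1 ≤ K * m ^ 3 := by rw [hK]; nlinarith
    linarith
  have hnpos : (0 : ℝ) < n := lt_of_le_of_lt (by positivity) hnbig
  have hu₁ := h.abs_le hρ₁ (show ρ₁ ≤ K by rw [hK]; linarith) hC0 hC hm6
  have hu₂ := h.abs_le hρ₂ (show ρ₂ ≤ K by rw [hK]; linarith) hC0 hC hm6
  rw [← hn₁, ← hD] at hu₁
  rw [← hn₂, ← hD] at hu₂
  set w := (1 - θ) / A with hw
  have hw0 : 0 ≤ w := div_nonneg (by linarith) hA0.le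
  have hwA : w * A = 1 - θ := by rw [hw]; field_simp
  set s := 1 - w * m ^ 3 with hs
  have hs0 : 0 ≤ s := by
    have : w * m ^ 3 ≤ w * A := by gcongr
    rw [hs]; linarith
  have hs2 : s ≤ 2 * θ := by
    have : w * ((1 - θ) * A) ≤ w * m ^ 3 := by gcongr
    have h2 : w * ((1 - θ) * A) = (1 - θ) * (1 - θ) := by rw [← hwA]; ring
    rw [hs]; nlinarith
  have hwθ : w ≤ θ := by
    rw [hw, div_le_iff₀ hA0]; linarith
  set r := ρ - a₁ * w * n₁ - a₂ * w * n₂ with hr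
  have hr0 : 0 ≤ r := by
    have h1 : a₁ * w * n₁ ≤ a₁ * w * (ρ₁ * m ^ 3) := by gcongr
    have h2 : a₂ * w * n₂ ≤ a₂ * w * (ρ₂ * m ^ 3) := by gcongr
    have h3 : a₁ * w * (ρ₁ * m ^ 3) + a₂ * w * (ρ₂ * m ^ 3) = ρ * (1 - s) := by
      rw [hs, hρdef]; ring
    have h4 : 0 ≤ ρ * s := by positivity
    rw [hr]; linarith
  have hrle : r ≤ 2 * θ * (ρ + 1) := by
    have h1 : a₁ * w * (ρ₁ * m ^ 3 - 1) ≤ a₁ * w * n₁ := by gcongr; linarith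
    have h2 : a₂ * w * (ρ₂ * m ^ 3 - 1) ≤ a₂ * w * n₂ := by gcongr; linarith
    have h3 : a₁ * w * (ρ₁ * m ^ 3 - 1) + a₂ * w * (ρ₂ * m ^ 3 - 1) =
        ρ * (1 - s) - w * (a₁ + a₂) := by
      rw [hs, hρdef]; ring
    rw [ha] at h3
    have h4 : ρ * s ≤ ρ * (2 * θ) := by gcongr
    rw [hr]; nlinarith
  have hrn : r / n < θ / A := by
    rw [div_lt_div_iff₀ hnpos hA0]
    have h1 : r * A ≤ 2 * θ * (ρ + 1) * (2 * m ^ 3) := by gcongr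
    have h2 : θ * (8 * (ρ + 1) * m ^ 3) < θ * n := by gcongr
    have h3 : 0 ≤ θ * ((ρ + 1) * m ^ 3) := by positivity
    nlinarith
  refine h.step (m := m) (μ₁ := a₁ * w) (μ₂ := a₂ * w) (n₁ := n₁) (n₂ := n₂) (n := n)
    (C := C * m ^ 3) hm0 hρ (by positivity) (by positivity) (by exact_mod_cast hnpos)
    (by positivity) ?_ (by rw [hr] at hr0; linarith) ?_ ?_
  · intro i hi
    refine hC m hm6 i (le_trans ?_ hnle)
    exact_mod_cast hi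
  · rw [← hr, ← hA]
    have : a₁ * w + a₂ * w = 1 / A - θ / A := by
      rw [← add_mul, ha, hw]; ring
    linarith
  · rw [← hr]
    set u₁ := F m n₁ / m ^ 3 with hu₁d
    set u₂ := F m n₂ / m ^ 3 with hu₂d
    have e₁ : F m n₁ = u₁ * m ^ 3 := by rw [hu₁d]; field_simp
    have e₂ : F m n₂ = u₂ * m ^ 3 := by rw [hu₂d]; field_simp
    rw [e₁, e₂]
    have h1 : r / n * (C * m ^ 3) ≤ θ * C := by
      calc r / n * (C * m ^ 3) ≤ θ / A * (C * A) := by gcongr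
        _ = θ * C := by field_simp
    have h2 : a₁ * w * (u₁ * m ^ 3) + a₂ * w * (u₂ * m ^ 3) =
        a₁ * u₁ + a₂ * u₂ + s * (a₁ * (-u₁) + a₂ * (-u₂)) := by rw [hs]; ring
    have h3 : a₁ * (-u₁) + a₂ * (-u₂) ≤ D := by
      have b1 := (_root_.abs_le.1 hu₁).1
      have b2 := (_root_.abs_le.1 hu₂).1
      calc a₁ * (-u₁) + a₂ * (-u₂) ≤ a₁ * D + a₂ * D := by gcongr <;> linarith
        _ = D := by rw [← add_mul, ha, one_mul]
    have h4 : s * (a₁ * (-u₁) + a₂ * (-u₂)) ≤ 2 * θ * D :=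
      (mul_le_mul_of_nonneg_left h3 hs0).trans (by gcongr)
    nlinarith

theorem ThermoData.exists_tendsto {F : ℝ → ℕ → ℝ} {b : ℝ} (h : ThermoData F b) {ρ : ℝ}
    (hρ : 0 ≤ ρ) : ∃ c, Tendsto (fun L : ℝ => F L ⌊ρ * L ^ 3⌋₊ / L ^ 3) atTop (𝓝 c) := by
  set u : ℝ → ℝ := fun L => F L ⌊ρ * L ^ 3⌋₊ / L ^ 3 with hu
  obtain ⟨C, hC0, hC⟩ := h.upper hρ
  have hb : ∀ᶠ L in atTop, |u L| ≤ C + 1 + b * ρ := by
    filter_upwards [eventually_ge_atTop 6] with L hL using h.abs_le hρ le_rfl hC0 hC hL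
  have hlo : IsBoundedUnder (· ≥ ·) atTop u :=
    ⟨-(C + 1 + b * ρ), by
      simp only [eventually_map]
      filter_upwards [hb] with L hL using (_root_.abs_le.1 hL).1⟩
  have hhi : IsBoundedUnder (· ≤ ·) atTop u :=
    ⟨C + 1 + b * ρ, by
      simp only [eventually_map]
      filter_upwards [hb] with L hL using (_root_.abs_le.1 hL).2⟩
  refine ⟨liminf u atTop, tendsto_order.2 ⟨fun a ha => eventually_lt_of_lt_liminf ha hlo, ?_⟩⟩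
  intro a ha
  set ε := (a - liminf u atTop) / 3 with hε
  have hε0 : 0 < ε := by rw [hε]; linarith
  have hfr : ∃ᶠ m in atTop, u m < liminf u atTop + ε :=
    frequently_lt_of_liminf_lt hhi.isCoboundedUnder_ge (by linarith)
  have hmain := h.main hρ hρ zero_le_one le_rfl (add_zero 1) hε0
  obtain ⟨m, hm1, hm2⟩ := (hfr.and_eventually hmain).exists
  filter_upwards [hm2] with L hL
  simp only [one_mul, zero_mul, add_zero] at hL
  have : u L ≤ u m + ε := hL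
  linarith

theorem thermoData_G {φ : ℝ → ℝ} {B : ℝ} (h : Adm φ B) {β : ℝ} (hβ : 0 < β) :
    ThermoData (G φ β) (β * B) where
  b_nonneg := mul_nonneg hβ.le h.B_nonneg
  sup := fun hm hL _ hk l hl => superadd_list h hβ.le hm hL hk l hl
  low := fun {L} hL N => by
    have := G_lower h hβ.le hL (N := N) (E := -B * N) (fun x _ => h.stable N x)
    linarith

theorem tendsto_g {φ : ℝ → ℝ} {B : ℝ} (h : Adm φ B) {β ρ : ℝ} (hβ : 0 < β) (hρ : 0 ≤ ρ) :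
    Tendsto (fun L : ℝ => G φ β L ⌊ρ * L ^ 3⌋₊ / L ^ 3) atTop (𝓝 (g φ β ρ)) :=
  tendsto_nhds_limUnder ((thermoData_G h hβ).exists_tendsto hρ)

theorem g_zero (φ : ℝ → ℝ) (β : ℝ) : g φ β 0 = 0 := by
  unfold g
  apply Tendsto.limUnder_eq
  simp [G_zero]

theorem convexOn_g {φ : ℝ → ℝ} {B : ℝ} (h : Adm φ B) {β : ℝ} (hβ : 0 < β) :
    ConvexOn ℝ (Set.Ici 0) (g φ β) := by
  refine ⟨convex_Ici 0, ?_⟩
  intro x hx y hy a₁ a₂ ha₁ ha₂ ha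
  simp only [smul_eq_mul]
  have hx' : 0 ≤ x := hx
  have hy' : 0 ≤ y := hy
  refine le_of_forall_pos_le_add fun ε hε => ?_
  have hmain := (thermoData_G h hβ).main hx' hy' ha₁ ha₂ ha hε
  have hlim := (((tendsto_g h hβ hx').const_mul a₁).add
    ((tendsto_g h hβ hy').const_mul a₂)).add_const ε
  refine ge_of_tendsto hlim ?_
  filter_upwards [hmain] with m hm
  exact le_of_tendsto (tendsto_g h hβ (by positivity)) hm

theorem concaveOn_g {φ : ℝ → ℝ} {B : ℝ} (h : Adm φ B) {ρ : ℝ} (hρ : 0 ≤ ρ) :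
    ConcaveOn ℝ (Set.Ioi 0) (fun β => g φ β ρ) := by
  refine ⟨convex_Ioi 0, ?_⟩
  intro x hx y hy a₁ a₂ ha₁ ha₂ ha
  have hxy : a₁ • x + a₂ • y ∈ Set.Ioi (0 : ℝ) := convex_Ioi 0 hx hy ha₁ ha₂ ha
  have hlim := ((tendsto_g h hx hρ).const_mul a₁).add ((tendsto_g h hy hρ).const_mul a₂)
  refine le_of_tendsto_of_tendsto hlim (tendsto_g h hxy hρ) ?_
  filter_upwards [eventually_gt_atTop 0] with L hL
  have hc := (G_concave h hL ⌊ρ * L ^ 3⌋₊).2 hx hy ha₁ ha₂ ha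
  have hL3 : 0 < L ^ 3 := by positivity
  simp only [smul_eq_mul] at hc ⊢
  rw [← mul_div_assoc, ← mul_div_assoc, ← add_div]
  gcongr

/-- The finite-size bound. -/
theorem g_le_finite {φ : ℝ → ℝ} {B : ℝ} (h : Adm φ B) {β m : ℝ} (hβ : 0 < β) (hm : 0 < m) (n : ℕ) :
    g φ β (n / (m + 2) ^ 3) ≤ G φ β m n / (m + 2) ^ 3 := by
  have hm2 : 0 < m + 2 := by linarith
  have hk : Tendsto (fun k : ℕ => (k : ℝ) * (m + 2)) atTop atTop :=
    tendsto_natCast_atTop_atTop.atTop_mul_const hm2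
  have hlim := (tendsto_g h hβ (show (0 : ℝ) ≤ n / (m + 2) ^ 3 by positivity)).comp hk
  refine le_of_tendsto hlim ?_
  filter_upwards [eventually_gt_atTop 0] with k hk0
  have hkr : (0 : ℝ) < k := by exact_mod_cast hk0
  have hfl : ⌊(n : ℝ) / (m + 2) ^ 3 * ((k : ℝ) * (m + 2)) ^ 3⌋₊ = k ^ 3 * n := by
    have : (n : ℝ) / (m + 2) ^ 3 * ((k : ℝ) * (m + 2)) ^ 3 = ((k ^ 3 * n : ℕ) : ℝ) := by
      push_cast; field_simp
    rw [this, Nat.floor_natCast]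
  have hsup := superadd_list h hβ.le hm (show 0 < (k : ℝ) * (m + 2) by positivity) (k := k) le_rfl
    (List.replicate (k ^ 3) n) (by simp)
  simp only [List.sum_replicate, smul_eq_mul, List.map_replicate, nsmul_eq_mul] at hsup
  simp only [Function.comp_apply, hfl]
  rw [div_le_div_iff₀ (by positivity) (by positivity)]
  push_cast at hsup
  calc G φ β (k * (m + 2)) (k ^ 3 * n) * (m + 2) ^ 3
      ≤ (k : ℝ) ^ 3 * G φ β m n * (m + 2) ^ 3 := by gcongr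
    _ = G φ β m n * ((k : ℝ) * (m + 2)) ^ 3 := by ring

end Crest.Agent.R149
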